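import Mathlib

/-!
# P358: internal definitions shared by all modules

Natural-log entropies of unnormalised positive semidefinite matrices.

* `vn T`  = sum of `negMulLog` over the eigenvalues (natural logarithm);
* `rtr T` = real part of the trace;
* `vnh T` = `vn T - negMulLog (rtr T)` (homogeneous of degree one; equals `vn T` when tr = 1);
* `mup s P`, `mum s P`: the roots of `μ² - s μ + P`;
* `sc s P` = `negMulLog μ₊ + negMulLog μ₋ - negMulLog s`: the value of `vnh` for a 2 by 2 matrix
  of trace `s` and determinant `P`;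
* `T3 α u w` = `negMulLog α + negMulLog u + negMulLog w - negMulLog μ₊ - negMulLog μ₋` with
  `μ₊ + μ₋ = α + u + w`, `μ₊ μ₋ = u w`.
* channel coefficients: `a = 1-γν`, `b = γ(1-ν)`, `a' = γν`, `b' = 1-γ(1-ν)`,
  `a + a' = b + b' = 1`, `a b' - a' b = 1-γ`.
* `shat γ ν x y` = scalar version of the output `vnh`:
  `sc (x+y) ((a x + b y)(a' x + b' y) - (1-γ) x y)`.
-/

namespace Vale.Agent.P358

open Matrix
open scoped ComplexOrder

/-- von Neumann entropy with natural logarithm (0 if not Hermitian). -/
noncomputable def vn {m : Type*} [Fintype m] [DecidableEq m] (T : Matrix m m ℂ) : ℝ :=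
  if h : T.IsHermitian then ∑ i, Real.negMulLog (h.eigenvalues i) else 0

/-- real part of the trace -/
noncomputable def rtr {m : Type*} [Fintype m] (T : Matrix m m ℂ) : ℝ := T.trace.re

/-- homogeneous entropy -/
noncomputable def vnh {m : Type*} [Fintype m] [DecidableEq m] (T : Matrix m m ℂ) : ℝ :=
  vn T - Real.negMulLog (rtr T)

/-- larger root of `μ² - s μ + P` -/
noncomputable def mup (s P : ℝ) : ℝ := (s + Real.sqrt (s ^ 2 - 4 * P)) / 2

/-- smaller root of `μ² - s μ + P` -/
noncomputable def mum (s P : ℝ) : ℝ := (s - Real.sqrt (s ^ 2 - 4 * P)) / 2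

/-- homogeneous entropy of a 2 by 2 matrix of trace `s` and determinant `P` -/
noncomputable def sc (s P : ℝ) : ℝ :=
  Real.negMulLog (mup s P) + Real.negMulLog (mum s P) - Real.negMulLog s

/-- the three-leaf function -/
noncomputable def T3 (α u w : ℝ) : ℝ :=
  Real.negMulLog α + Real.negMulLog u + Real.negMulLog w
    - Real.negMulLog (mup (α + u + w) (u * w)) - Real.negMulLog (mum (α + u + w) (u * w))

/-- scalar output entropy (homogeneous) of the channel on populations `x` (of 0), `y` (of 1),
with maximal coherence. -/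
noncomputable def shat (γ ν x y : ℝ) : ℝ :=
  sc (x + y) (((1 - γ * ν) * x + (γ * (1 - ν)) * y) * ((γ * ν) * x + (1 - γ * (1 - ν)) * y)
    - (1 - γ) * (x * y))

end Vale.Agent.P358
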