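import Mathlib

/-!
# P358 [Q1]: classical entropy on bit strings

* subadditivity of Shannon entropy over the coordinates;
* additivity for product distributions.
-/

namespace Vale.Agent.P358

/-- marginal weight of `x i = b` -/
noncomputable def marg {n : ℕ} (P : (Fin n → Fin 2) → ℝ) (i : Fin n) (b : Fin 2) : ℝ :=
  ∑ x : Fin n → Fin 2, if x i = b then P x else 0

theorem sum_marg {n : ℕ} (P : (Fin n → Fin 2) → ℝ) (i : Fin n) (g : Fin 2 → ℝ) :
    ∑ b, marg P i b * g b = ∑ x, P x * g (x i) := by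
  unfold marg
  simp_rw [Finset.sum_mul]
  rw [Finset.sum_comm]
  refine Finset.sum_congr rfl fun x _ => ?_
  simp_rw [ite_mul, zero_mul]
  rw [Finset.sum_ite_eq]
  simp

theorem marg_nonneg {n : ℕ} {P : (Fin n → Fin 2) → ℝ} (hP : ∀ x, 0 ≤ P x) (i : Fin n)
    (b : Fin 2) : 0 ≤ marg P i b :=
  Finset.sum_nonneg fun x _ => by split_ifs <;> [exact hP x; exact le_rfl]

theorem le_marg {n : ℕ} {P : (Fin n → Fin 2) → ℝ} (hP : ∀ x, 0 ≤ P x) (i : Fin n)
    (x : Fin n → Fin 2) : P x ≤ marg P i (x i) := by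
  have h := Finset.single_le_sum (f := fun y : Fin n → Fin 2 => if y i = x i then P y else 0)
    (fun y _ => by split_ifs <;> [exact hP y; exact le_rfl]) (Finset.mem_univ x)
  unfold marg
  simpa using h

theorem sum_prod_univ {n : ℕ} (p : Fin n → Fin 2 → ℝ) :
    ∑ x : Fin n → Fin 2, ∏ i, p i (x i) = ∏ i, ∑ b, p i b := by
  rw [Finset.prod_univ_sum, Fintype.piFinset_univ]

/-- logarithm of a product, multiplied by the product -/
theorem prod_mul_log {n : ℕ} (f : Fin n → ℝ) :
    (∏ i, f i) * Real.log (∏ i, f i) = ∑ i, (∏ j, f j) * Real.log (f i) := by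
  by_cases h : ∏ i, f i = 0
  · rw [h]; simp
  · have h2 : ∀ i ∈ Finset.univ, f i ≠ 0 := fun i hi h3 => h (Finset.prod_eq_zero hi h3)
    rw [← Finset.mul_sum]
    congr 1
    exact Real.log_prod h2

/-- subadditivity of Shannon entropy -/
theorem entropy_le_sum_marg {n : ℕ} (P : (Fin n → Fin 2) → ℝ) (hP : ∀ x, 0 ≤ P x)
    (h1 : ∑ x, P x = 1) :
    ∑ x, Real.negMulLog (P x) ≤ ∑ i, ∑ b, Real.negMulLog (marg P i b) := by
  set Q : (Fin n → Fin 2) → ℝ := fun x => ∏ i, marg P i (x i) with hQ
  have hQ0 : ∀ x, 0 ≤ Q x := fun x => Finset.prod_nonneg fun i _ => marg_nonneg hP i _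
  have hQ1 : ∑ x, Q x = 1 := by
    rw [hQ, sum_prod_univ]
    refine Finset.prod_eq_one fun i _ => ?_
    have := sum_marg P i (fun _ => 1)
    simp only [mul_one] at this
    rw [this, h1]
  have h2 : ∀ x, Real.negMulLog (P x) ≤ -∑ i, P x * Real.log (marg P i (x i)) + (Q x - P x) := by
    intro x
    rcases (hP x).eq_or_lt with h | h
    · rw [← h]
      simpa using hQ0 x
    · have hm : ∀ i, 0 < marg P i (x i) := fun i => h.trans_le (le_marg hP i x)
      have hQx : 0 < Q x := Finset.prod_pos fun i _ => hm i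
      have h3 : Real.log (Q x / P x) ≤ Q x / P x - 1 := Real.log_le_sub_one_of_pos (by positivity)
      rw [Real.log_div hQx.ne' h.ne'] at h3
      have h4 : Real.log (Q x) = ∑ i, Real.log (marg P i (x i)) :=
        Real.log_prod fun i _ => (hm i).ne'
      have h5 : P x * (Real.log (Q x) - Real.log (P x)) ≤ P x * (Q x / P x - 1) :=
        mul_le_mul_of_nonneg_left h3 h.le
      have h6 : P x * (Q x / P x - 1) = Q x - P x := by field_simp
      rw [← Finset.mul_sum, ← h4, Real.negMulLog]
      nlinarith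
  have h3 : ∀ i, ∑ b, Real.negMulLog (marg P i b) = -∑ x, P x * Real.log (marg P i (x i)) := by
    intro i
    have := sum_marg P i (fun b => Real.log (marg P i b))
    rw [← this, ← Finset.sum_neg_distrib]
    refine Finset.sum_congr rfl fun b _ => ?_
    rw [Real.negMulLog]; ring
  calc ∑ x, Real.negMulLog (P x)
      ≤ ∑ x, (-∑ i, P x * Real.log (marg P i (x i)) + (Q x - P x)) :=
        Finset.sum_le_sum fun x _ => h2 x
    _ = ∑ i, ∑ b, Real.negMulLog (marg P i b) := by
        rw [Finset.sum_add_distrib, Finset.sum_sub_distrib, hQ1, h1, sub_self, add_zero,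
          Finset.sum_neg_distrib, Finset.sum_comm]
        simp_rw [h3]
        rw [Finset.sum_neg_distrib]

/-- entropy of a product distribution -/
theorem entropy_prod {n : ℕ} (p : Fin n → Fin 2 → ℝ) (h1 : ∀ i, ∑ b, p i b = 1) :
    ∑ x : Fin n → Fin 2, Real.negMulLog (∏ i, p i (x i)) =
      ∑ i, ∑ b, Real.negMulLog (p i b) := by
  have h2 : ∀ x : Fin n → Fin 2, Real.negMulLog (∏ i, p i (x i)) =
      ∑ i, -((∏ j, p j (x j)) * Real.log (p i (x i))) := by
    intro x
    rw [Real.negMulLog, Finset.sum_neg_distrib, ← prod_mul_log]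
    ring
  simp_rw [h2]
  rw [Finset.sum_comm]
  refine Finset.sum_congr rfl fun i _ => ?_
  rw [Finset.sum_neg_distrib]
  have h3 : ∀ x : Fin n → Fin 2, (∏ j, p j (x j)) * Real.log (p i (x i)) =
      ∏ j, (p j (x j) * if j = i then Real.log (p j (x j)) else 1) := by
    intro x
    rw [Finset.prod_mul_distrib, Finset.prod_ite_eq']
    simp
  simp_rw [h3]
  rw [sum_prod_univ (fun j b => p j b * if j = i then Real.log (p j b) else 1)]
  have h4 : ∀ j, ∑ b, p j b * (if j = i then Real.log (p j b) else 1) =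
      if j = i then ∑ b, p j b * Real.log (p j b) else 1 := by
    intro j
    split_ifs with h
    · rfl
    · simp [h1 j]
  simp_rw [h4]
  rw [Finset.prod_ite_eq']
  simp [Real.negMulLog]

end Vale.Agent.P358
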