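import Mathlib

/-!
Statement-level definitions for P358 (the generalized amplitude-damping channel).
Everything here is what the final theorem is stated with.
-/

namespace Vale.Agent.P358

open Matrix
open scoped ComplexOrder

/-- The generalized amplitude-damping channel `A_{γ,ν}` on complex 2 by 2 matrices, extended
linearly from trace-one matrices: with `t = (1-γ) ρ₁₁ + γ ν tr ρ`, the output is
`[[tr ρ - t, √(1-γ) ρ₀₁], [√(1-γ) ρ₁₀, t]]`. -/
noncomputable def gadc (γ ν : ℝ) (ρ : Matrix (Fin 2) (Fin 2) ℂ) : Matrix (Fin 2) (Fin 2) ℂ :=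
  !![ρ.trace - ((1 - γ) * ρ 1 1 + γ * ν * ρ.trace), (Real.sqrt (1 - γ) : ℂ) * ρ 0 1;
     (Real.sqrt (1 - γ) : ℂ) * ρ 1 0, (1 - γ) * ρ 1 1 + γ * ν * ρ.trace]

/-- The `n`-fold tensor power `N^{⊗n}` of a (linear) map `N` on 2 by 2 matrices, acting on
matrices indexed by bit strings: its kernel is the product of the kernels of `N`, i.e.
`(N^{⊗n} ρ)(x,y) = ∑_{x',y'} (∏ i, N(E_{x'ᵢ y'ᵢ})(xᵢ,yᵢ)) ρ(x',y')`
with `E_{ab}` the matrix units. -/
noncomputable def tensorPow (N : Matrix (Fin 2) (Fin 2) ℂ → Matrix (Fin 2) (Fin 2) ℂ) (n : ℕ)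
    (ρ : Matrix (Fin n → Fin 2) (Fin n → Fin 2) ℂ) :
    Matrix (Fin n → Fin 2) (Fin n → Fin 2) ℂ :=
  fun x y => ∑ x' : Fin n → Fin 2, ∑ y' : Fin n → Fin 2,
    (∏ i, N (Matrix.single (x' i) (y' i) 1) (x i) (y i)) * ρ x' y'

/-- The von Neumann entropy `-tr ρ log₂ ρ` in bits of a Hermitian matrix, computed from its
eigenvalues (junk value `0` if the matrix is not Hermitian). -/
noncomputable def entropyBits {m : Type*} [Fintype m] [DecidableEq m] (ρ : Matrix m m ℂ) : ℝ :=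
  if h : ρ.IsHermitian then (∑ i, Real.negMulLog (h.eigenvalues i)) / Real.log 2 else 0

/-- The set of Holevo quantities `S(∑ qₐ N(ρₐ)) - ∑ qₐ S(N(ρₐ))` over all finite ensembles
of density matrices `ρₐ` with probabilities `qₐ`. -/
def holevoSet {m k : Type*} [Fintype m] [DecidableEq m] [Fintype k] [DecidableEq k]
    (N : Matrix m m ℂ → Matrix k k ℂ) : Set ℝ :=
  {v | ∃ (K : ℕ) (q : Fin K → ℝ) (ρ : Fin K → Matrix m m ℂ),
    (∀ a, 0 ≤ q a) ∧ ∑ a, q a = 1 ∧ (∀ a, (ρ a).PosSemidef ∧ (ρ a).trace = 1) ∧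
    v = entropyBits (∑ a, (q a : ℂ) • N (ρ a)) - ∑ a, q a * entropyBits (N (ρ a))}

/-- The Holevo capacity `χ(N)`. -/
noncomputable def holevoCapacity {m k : Type*} [Fintype m] [DecidableEq m] [Fintype k]
    [DecidableEq k] (N : Matrix m m ℂ → Matrix k k ℂ) : ℝ :=
  sSup (holevoSet N)

/-- The set of normalized block Holevo capacities `χ(N^{⊗n})/n`, `n ≥ 1`. -/
def blockRates (N : Matrix (Fin 2) (Fin 2) ℂ → Matrix (Fin 2) (Fin 2) ℂ) : Set ℝ :=
  {c | ∃ n : ℕ, 1 ≤ n ∧ c = holevoCapacity (tensorPow N n) / n}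

/-- The classical capacity `C(N) = sup_{n ≥ 1} χ(N^{⊗n})/n` of a qubit channel. -/
noncomputable def classicalCapacity
    (N : Matrix (Fin 2) (Fin 2) ℂ → Matrix (Fin 2) (Fin 2) ℂ) : ℝ :=
  sSup (blockRates N)

/-- The binary entropy in bits. -/
noncomputable def h2 (p : ℝ) : ℝ := Real.binEntropy p / Real.log 2

/-- The scalar objective `h₂(t) - h₂((1+√(1-4D))/2)` with `t = (1-γ)q + γν` and
`D = t(1-t) - (1-γ)q(1-q)`. -/
noncomputable def rate (γ ν q : ℝ) : ℝ :=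
  h2 ((1 - γ) * q + γ * ν) -
    h2 ((1 + Real.sqrt (1 - 4 * (((1 - γ) * q + γ * ν) * (1 - ((1 - γ) * q + γ * ν)) -
      (1 - γ) * q * (1 - q)))) / 2)

end Vale.Agent.P358
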