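import Vale.Agent.P358.Basic

/-!
# P358 [P]: the determinant inequality

`det (G + D F⁻¹ D) ≥ det G * ∏ (1 + d_i² / (G_ii F_ii))` for `G, F` positive definite, `D` real
diagonal.

Proof by induction on the size, splitting off one index (last block of size one).
`G = [[G', g],[g*, γ]]`, `F = [[F', f],[f*, φ]]`, `S = φ - f* F'⁻¹ f > 0` and `S ≤ φ`.
`F⁻¹ = [[F'⁻¹,0],[0,0]] + (1/S) w w*`, `w = (-F'⁻¹ f; 1)`. With `c = -D' F'⁻¹ f / √S`,
`u = d/√S`: `G + D F⁻¹ D = [[G' + D'F'⁻¹D' + c c*, g + u c],[.., γ + u²]]`, whose determinant is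
`(γ+u²) det(G' + D'F'⁻¹D' + cc* - (g+uc)(g+uc)*/(γ+u²))`, and with `G'' = G' - g g*/γ`,
`g g*/γ + c c* - (g+uc)(g+uc)*/(γ+u²) = (u g - γ c)(u g - γ c)* / (γ(γ+u²)) ≥ 0`.
So `det ≥ (γ+u²) det(G'' + D'F'⁻¹D')`, apply the induction hypothesis to `G'', F'`; finally
`G''_ii ≤ G'_ii` and `S ≤ φ`.
-/

namespace Vale.Agent.P358

open Matrix
open scoped ComplexOrder MatrixOrder

theorem det_one_add_psd {m : Type*} [Fintype m] [DecidableEq m] {C : Matrix m m ℂ}
    (hC : C.PosSemidef) : ((1 + C).det) = ((∏ i, (1 + hC.1.eigenvalues i) : ℝ) : ℂ) := by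
  have h := hC.1.spectral_theorem
  set U := hC.1.eigenvectorUnitary with hU
  have hUU : (U : Matrix m m ℂ) * star (U : Matrix m m ℂ) = 1 := by
    simp
  have h1 : (1 + C) = (U : Matrix m m ℂ) * (1 + diagonal (RCLike.ofReal ∘ hC.1.eigenvalues)) * star (U : Matrix m m ℂ) := by
    conv_lhs => rw [h]
    rw [Unitary.conjStarAlgAut_apply, mul_add, add_mul, mul_one, hUU]
  rw [h1, det_mul, det_mul, mul_right_comm, ← det_mul, hUU, det_one, one_mul, ← diagonal_one, diagonal_add, det_diagonal]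
  push_cast
  rfl

theorem det_re_mono {m : Type*} [Fintype m] [DecidableEq m] {A B : Matrix m m ℂ}
    (hA : A.PosSemidef) (hB : B.PosSemidef) : A.det.re ≤ (A + B).det.re := by
  by_cases hdet : A.det = 0
  · rw [hdet]
    have := (hA.add hB).det_nonneg
    exact (Complex.le_def.1 this).1
  · have hpd : A.PosDef := (hA.posDef_iff_det_ne_zero).2 hdet
    obtain ⟨R, hR⟩ : ∃ R : Matrix m m ℂ, R.IsHermitian ∧ R * R = A := by
      refine ⟨CFC.sqrt A, ?_, ?_⟩
      · exact (CFC.sqrt_nonneg A).posSemidef.1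
      · exact CFC.sqrt_mul_sqrt_self A (ha := hA.nonneg)
    obtain ⟨hRh, hRR⟩ := hR
    have hRdet : R.det ≠ 0 := by
      intro h0
      apply hdet
      rw [← hRR, det_mul, h0, mul_zero]
    have hRu : IsUnit R.det := isUnit_iff_ne_zero.2 hRdet
    have hinv : (R⁻¹)ᴴ = R⁻¹ := by rw [conjTranspose_nonsing_inv, hRh.eq]
    have hC : (R⁻¹ * B * R⁻¹).PosSemidef := by
      have := hB.mul_mul_conjTranspose_same R⁻¹
      rwa [hinv] at this
    have hfac : A + B = R * (1 + R⁻¹ * B * R⁻¹) * R := by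
      rw [mul_add, add_mul, mul_one, hRR]
      congr 1
      rw [← mul_assoc, ← mul_assoc, mul_nonsing_inv _ hRu, one_mul, mul_assoc, nonsing_inv_mul _ hRu, mul_one]
    rw [hfac, det_mul, det_mul, mul_right_comm, ← det_mul, hRR, det_one_add_psd hC, Complex.mul_re]
    simp only [Complex.ofReal_re, Complex.ofReal_im, mul_zero, sub_zero]
    have h0 : 0 ≤ A.det.re := (Complex.le_def.1 hA.det_nonneg).1
    have h1 : 1 ≤ ∏ i, (1 + hC.1.eigenvalues i) := by
      calc (1:ℝ) = ∏ i : m, (1:ℝ) := by simp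
        _ ≤ _ := by
          apply Finset.prod_le_prod
          · intro i _; norm_num
          · intro i _; have := hC.eigenvalues_nonneg i; linarith
    nlinarith

theorem unit_matrix (M : Matrix Unit Unit ℂ) : M = (M () ()) • (1 : Matrix Unit Unit ℂ) := by
  ext i j; simp

theorem detP_step {m : Type*} [Fintype m] [DecidableEq m]
    (ih : ∀ (G F : Matrix m m ℂ), G.PosDef → F.PosDef → ∀ d : m → ℝ,
      G.det.re * ∏ i, (1 + d i ^ 2 / ((G i i).re * (F i i).re)) ≤
      (G + diagonal (fun i => (d i : ℂ)) * F⁻¹ * diagonal (fun i => (d i : ℂ))).det.re)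
    (A : Matrix m m ℂ) (g : Matrix m Unit ℂ) (γ : ℝ) (B : Matrix m m ℂ) (f : Matrix m Unit ℂ)
    (φ : ℝ) (hG : (fromBlocks A g gᴴ ((γ : ℂ) • (1 : Matrix Unit Unit ℂ))).PosDef)
    (hF : (fromBlocks B f fᴴ ((φ : ℂ) • (1 : Matrix Unit Unit ℂ))).PosDef) (d : m → ℝ) (e : ℝ) :
    (fromBlocks A g gᴴ ((γ : ℂ) • (1 : Matrix Unit Unit ℂ))).det.re *
      ((∏ i, (1 + d i ^ 2 / ((A i i).re * (B i i).re))) * (1 + e ^ 2 / (γ * φ))) ≤
     (fromBlocks A g gᴴ ((γ : ℂ) • (1 : Matrix Unit Unit ℂ)) +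
      fromBlocks (diagonal (fun i => (d i : ℂ))) 0 0 ((e : ℂ) • (1 : Matrix Unit Unit ℂ)) *
      (fromBlocks B f fᴴ ((φ : ℂ) • (1 : Matrix Unit Unit ℂ)))⁻¹ *
      fromBlocks (diagonal (fun i => (d i : ℂ))) 0 0 ((e : ℂ) • (1 : Matrix Unit Unit ℂ))).det.re := by
  have hB : B.PosDef := by
    have := hF.submatrix (e := (Sum.inl : m → m ⊕ Unit)) Sum.inl_injective
    have h2 : (fromBlocks B f fᴴ ((φ : ℂ) • (1 : Matrix Unit Unit ℂ))).submatrix Sum.inl Sum.inl = B := by
      ext i j; simp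
    rwa [h2] at this
  have hA : A.PosDef := by
    have := hG.submatrix (e := (Sum.inl : m → m ⊕ Unit)) Sum.inl_injective
    have h2 : (fromBlocks A g gᴴ ((γ : ℂ) • (1 : Matrix Unit Unit ℂ))).submatrix Sum.inl Sum.inl = A := by
      ext i j; simp
    rwa [h2] at this
  have hγ : 0 < γ := by
    have := hG.diag_pos (i := Sum.inr ())
    simpa using this
  have hφ : 0 < φ := by
    have := hF.diag_pos (i := Sum.inr ())
    simpa using this
  have hγ1 : ((γ : ℂ) • (1 : Matrix Unit Unit ℂ)).PosDef := PosDef.one.smul (by exact_mod_cast hγ)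
  -- Schur complement of G
  have hinvγ : ((γ : ℂ) • (1 : Matrix Unit Unit ℂ))⁻¹ = ((γ⁻¹ : ℝ) : ℂ) • (1 : Matrix Unit Unit ℂ) := by
    apply inv_eq_right_inv
    rw [smul_mul_smul_comm, mul_one, ← Complex.ofReal_mul, mul_inv_cancel₀ hγ.ne']
    simp
  set A' : Matrix m m ℂ := A - ((γ⁻¹ : ℝ) : ℂ) • (g * gᴴ) with hA'def
  have hdetG : (fromBlocks A g gᴴ ((γ : ℂ) • (1 : Matrix Unit Unit ℂ))).det = γ * A'.det := by
    have : Invertible ((γ : ℂ) • (1 : Matrix Unit Unit ℂ)) := hγ1.isUnit.invertible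
    rw [det_fromBlocks₂₂, invOf_eq_nonsing_inv, hinvγ]
    simp [hA'def]
  have hA'psd : A'.PosSemidef := by
    have : Invertible ((γ : ℂ) • (1 : Matrix Unit Unit ℂ)) := hγ1.isUnit.invertible
    have := (PosDef.fromBlocks₂₂ A g hγ1).1 hG.posSemidef
    rw [hinvγ] at this
    simpa [hA'def] using this
  have hA' : A'.PosDef := by
    rw [hA'psd.posDef_iff_det_ne_zero]
    intro h0
    have := hG.det_pos
    rw [hdetG, h0] at this
    simp at this
  -- Schur complement of F
  set q : Matrix Unit Unit ℂ := fᴴ * B⁻¹ * f with hqdef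
  have hqpsd : q.PosSemidef := hB.inv.posSemidef.conjTranspose_mul_mul_same f
  have hqre : q = (((q () ()).re : ℝ) : ℂ) • (1 : Matrix Unit Unit ℂ) := by
    conv_lhs => rw [unit_matrix q]
    congr 1
    have := hqpsd.diag_nonneg (i := ())
    rw [Complex.le_def] at this
    apply Complex.ext
    · simp
    · simpa using this.2.symm
  have hq0 : 0 ≤ (q () ()).re := by
    have := hqpsd.diag_nonneg (i := ())
    exact (Complex.le_def.1 this).1
  set Q : ℝ := (q () ()).re with hQdef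
  set S : ℝ := φ - Q with hSdef
  have hSmat : (φ : ℂ) • (1 : Matrix Unit Unit ℂ) - fᴴ * B⁻¹ * f = (S : ℂ) • 1 := by
    rw [← hqdef, hqre, ← sub_smul, hSdef]
    push_cast
    rfl
  have hS : 0 < S := by
    have : Invertible B := hB.isUnit.invertible
    have hpsd := (PosDef.fromBlocks₁₁ f ((φ : ℂ) • (1 : Matrix Unit Unit ℂ)) hB).1 hF.posSemidef
    rw [hSmat] at hpsd
    have h0 : 0 ≤ S := by
      have := hpsd.diag_nonneg (i := ())
      simpa using this
    have hdet : (fromBlocks B f fᴴ ((φ : ℂ) • (1 : Matrix Unit Unit ℂ))).det = B.det * S := by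
      rw [det_fromBlocks₁₁, invOf_eq_nonsing_inv, hSmat]
      simp
    rcases h0.lt_or_eq with h | h
    · exact h
    · exfalso
      have := hF.det_pos
      rw [hdet, ← h] at this
      simp at this
  have hSφ : S ≤ φ := by rw [hSdef]; linarith
  set s : ℝ := S⁻¹ with hsdef
  have hs : 0 < s := inv_pos.2 hS
  have hBu : IsUnit B.det := (isUnit_iff_isUnit_det B).1 hB.isUnit
  have hBB : B * B⁻¹ = 1 := mul_nonsing_inv _ hBu
  have hBh : (B⁻¹)ᴴ = B⁻¹ := by rw [conjTranspose_nonsing_inv, hB.1.eq]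
  have hFinv : (fromBlocks B f fᴴ ((φ : ℂ) • (1 : Matrix Unit Unit ℂ)))⁻¹ =
      fromBlocks (B⁻¹ + (s : ℂ) • (B⁻¹ * f * (fᴴ * B⁻¹))) (-((s : ℂ) • (B⁻¹ * f)))
        (-((s : ℂ) • (fᴴ * B⁻¹))) ((s : ℂ) • 1) := by
    apply inv_eq_right_inv
    rw [fromBlocks_multiply, ← fromBlocks_one]
    have hq2 : fᴴ * (B⁻¹ * f) = (Q : ℂ) • (1 : Matrix Unit Unit ℂ) := by
      rw [← Matrix.mul_assoc, ← hqdef, hqre]
    have hsS : (s : ℂ) * (φ - Q) = 1 := by
      rw [hsdef, ← Complex.ofReal_sub, ← Complex.ofReal_mul, ← hSdef, inv_mul_cancel₀ hS.ne']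
      simp
    congr 1
    · rw [Matrix.mul_add, hBB, Matrix.mul_smul, Matrix.mul_neg, Matrix.mul_smul,
        Matrix.mul_assoc B⁻¹ f, ← Matrix.mul_assoc B B⁻¹, hBB, Matrix.one_mul]
      abel
    · rw [Matrix.mul_neg, Matrix.mul_smul, ← Matrix.mul_assoc, hBB, Matrix.one_mul,
        Matrix.mul_smul, Matrix.mul_one]
      abel
    · rw [Matrix.mul_add, Matrix.mul_smul, ← Matrix.mul_assoc fᴴ (B⁻¹ * f), hq2,
        Matrix.smul_mul, Matrix.one_mul, Matrix.mul_neg, Matrix.smul_mul, Matrix.one_mul,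
        smul_smul, smul_smul]
      have : (s : ℂ) * Q = φ * s - 1 := by linear_combination -hsS
      rw [this, sub_smul, one_smul]
      abel
    · rw [Matrix.mul_neg, Matrix.mul_smul, hq2, Matrix.smul_mul, Matrix.one_mul, smul_smul,
        smul_smul, ← neg_smul, ← add_smul]
      have : -((s : ℂ) * Q) + φ * s = 1 := by linear_combination hsS
      rw [this, one_smul]
  set D' : Matrix m m ℂ := diagonal (fun i => (d i : ℂ)) with hD'def
  have hD'h : D'ᴴ = D' := by
    rw [hD'def, diagonal_conjTranspose]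
    congr 1
    ext i
    simp
  set c : Matrix m Unit ℂ := D' * B⁻¹ * f with hcdef
  have hcH : cᴴ = fᴴ * B⁻¹ * D' := by
    rw [hcdef, conjTranspose_mul, conjTranspose_mul, hBh, hD'h, Matrix.mul_assoc]
  have hK : fromBlocks A g gᴴ ((γ : ℂ) • (1 : Matrix Unit Unit ℂ)) +
      fromBlocks D' 0 0 ((e : ℂ) • (1 : Matrix Unit Unit ℂ)) *
      (fromBlocks B f fᴴ ((φ : ℂ) • (1 : Matrix Unit Unit ℂ)))⁻¹ *
      fromBlocks D' 0 0 ((e : ℂ) • (1 : Matrix Unit Unit ℂ)) =
      fromBlocks (A + D' * B⁻¹ * D' + (s : ℂ) • (c * cᴴ)) (g - ((s * e : ℝ) : ℂ) • c)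
        (gᴴ - ((s * e : ℝ) : ℂ) • cᴴ) (((γ + s * e ^ 2 : ℝ) : ℂ) • (1 : Matrix Unit Unit ℂ)) := by
    rw [hFinv, fromBlocks_multiply, fromBlocks_multiply, fromBlocks_add]
    congr 1
    · simp only [Matrix.zero_mul, Matrix.mul_zero, add_zero]
      rw [Matrix.mul_add, Matrix.add_mul, Matrix.mul_smul, Matrix.smul_mul, hcH, hcdef]
      simp only [Matrix.mul_assoc, add_assoc]
    · simp only [Matrix.zero_mul, Matrix.mul_zero, smul_zero, add_zero, zero_add, Matrix.mul_neg,
        Matrix.mul_smul, Matrix.mul_one, hcdef, Matrix.mul_assoc]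
      push_cast
      module
    · simp only [Matrix.zero_mul, Matrix.mul_zero, smul_zero, add_zero, zero_add, Matrix.mul_neg,
        Matrix.mul_smul, Matrix.one_mul, Matrix.smul_mul, Matrix.neg_mul, hcH, Matrix.mul_assoc]
      push_cast
      module
    · simp only [Matrix.zero_mul, Matrix.mul_zero, smul_zero, neg_zero, zero_add, Matrix.mul_neg,
        Matrix.mul_smul, Matrix.mul_one, Matrix.smul_mul]
      push_cast
      module
  set γ' : ℝ := γ + s * e ^ 2 with hγ'def
  have hγ' : 0 < γ' := by positivity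
  have hγ'1 : ((γ' : ℂ) • (1 : Matrix Unit Unit ℂ)).PosDef :=
    PosDef.one.smul (by exact_mod_cast hγ')
  have hinvγ' : ((γ' : ℂ) • (1 : Matrix Unit Unit ℂ))⁻¹ =
      ((γ'⁻¹ : ℝ) : ℂ) • (1 : Matrix Unit Unit ℂ) := by
    apply inv_eq_right_inv
    rw [smul_mul_smul_comm, mul_one, ← Complex.ofReal_mul, mul_inv_cancel₀ hγ'.ne']
    simp
  set v : Matrix m Unit ℂ := (e : ℂ) • g + (γ : ℂ) • c with hvdef
  have hvH : vᴴ = (e : ℂ) • gᴴ + (γ : ℂ) • cᴴ := by
    rw [hvdef, conjTranspose_add, conjTranspose_smul, conjTranspose_smul]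
    simp
  set κ : ℝ := s / (γ * γ') with hκdef
  have hκ : 0 ≤ κ := by positivity
  have hdetK : (fromBlocks (A + D' * B⁻¹ * D' + (s : ℂ) • (c * cᴴ)) (g - ((s * e : ℝ) : ℂ) • c)
        (gᴴ - ((s * e : ℝ) : ℂ) • cᴴ) ((γ' : ℂ) • (1 : Matrix Unit Unit ℂ))).det =
      γ' * (A' + D' * B⁻¹ * D' + (κ : ℂ) • (v * vᴴ)).det := by
    have : Invertible ((γ' : ℂ) • (1 : Matrix Unit Unit ℂ)) := hγ'1.isUnit.invertible
    rw [det_fromBlocks₂₂, invOf_eq_nonsing_inv, hinvγ']
    congr 1
    · simp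
    · congr 1
      have hγc : (γ : ℂ) ≠ 0 := by exact_mod_cast hγ.ne'
      have hγ'c : (γ' : ℂ) ≠ 0 := by exact_mod_cast hγ'.ne'
      have hγ'e : (γ' : ℂ) = γ + s * e ^ 2 := by rw [hγ'def]; push_cast; ring
      rw [hA'def, hvH, hvdef]
      simp only [Matrix.mul_smul, Matrix.smul_mul, Matrix.mul_one, Matrix.mul_add, Matrix.add_mul,
        Matrix.mul_sub, Matrix.sub_mul, smul_add, smul_sub, smul_smul]
      have e1 : (κ : ℂ) = s / (γ * γ') := by rw [hκdef]; push_cast; ring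
      push_cast
      rw [e1]
      generalize g * gᴴ = P
      generalize g * cᴴ = P1
      generalize c * gᴴ = P2
      generalize c * cᴴ = P3
      generalize D' * B⁻¹ * D' = P4
      ext i j
      simp only [Matrix.add_apply, Matrix.sub_apply, Matrix.smul_apply, smul_eq_mul]
      generalize P i j = p
      generalize P1 i j = p1
      generalize P2 i j = p2
      generalize P3 i j = p3
      generalize P4 i j = p4
      rw [hγ'e] at hγ'c ⊢
      field_simp
      ring
  have hpsd1 : (D' * B⁻¹ * D').PosSemidef := by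
    have := hB.inv.posSemidef.mul_mul_conjTranspose_same D'
    rwa [hD'h] at this
  have hpsd2 : ((κ : ℂ) • (v * vᴴ)).PosSemidef :=
    (posSemidef_self_mul_conjTranspose v).smul (by exact_mod_cast hκ)
  have hmono := det_re_mono (hA'psd.add hpsd1) hpsd2
  have hih := ih A' B hA' hB d
  rw [← hD'def] at hih
  rw [hK, hdetK, hdetG, Complex.re_ofReal_mul, Complex.re_ofReal_mul]
  have hA'diag : ∀ i, 0 < (A' i i).re := by
    intro i
    have := hA'.diag_pos (i := i)
    exact (Complex.lt_def.1 this).1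
  have hBdiag : ∀ i, 0 < (B i i).re := by
    intro i
    have := hB.diag_pos (i := i)
    exact (Complex.lt_def.1 this).1
  have hAA' : ∀ i, (A' i i).re ≤ (A i i).re := by
    intro i
    have h1 : 0 ≤ ((g * gᴴ) i i).re := by
      have := (posSemidef_self_mul_conjTranspose g).diag_nonneg (i := i)
      exact (Complex.le_def.1 this).1
    rw [hA'def, Matrix.sub_apply, Matrix.smul_apply, smul_eq_mul, Complex.sub_re,
      Complex.re_ofReal_mul]
    have : 0 ≤ γ⁻¹ * ((g * gᴴ) i i).re := by positivity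
    linarith
  have hprod : ∏ i, (1 + d i ^ 2 / ((A i i).re * (B i i).re)) ≤
      ∏ i, (1 + d i ^ 2 / ((A' i i).re * (B i i).re)) := by
    apply Finset.prod_le_prod
    · intro i _
      have := hAA' i
      have := hA'diag i
      have := hBdiag i
      have : 0 < (A i i).re := by linarith
      positivity
    · intro i _
      have h1 := hAA' i
      have h2 := hA'diag i
      have h3 := hBdiag i
      have : 0 < (A i i).re := by linarith
      gcongr
  have hdetA' : 0 < A'.det.re := by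
    exact (Complex.lt_def.1 hA'.det_pos).1
  have hlast : γ * (1 + e ^ 2 / (γ * φ)) ≤ γ' := by
    rw [hγ'def, mul_add, mul_one]
    have : γ * (e ^ 2 / (γ * φ)) = e ^ 2 / φ := by field_simp
    rw [this, hsdef, div_eq_mul_inv, mul_comm (e ^ 2)]
    gcongr
  have hprod0 : 0 ≤ ∏ i, (1 + d i ^ 2 / ((A i i).re * (B i i).re)) := by
    apply Finset.prod_nonneg
    intro i _
    have := hAA' i
    have := hA'diag i
    have := hBdiag i
    have : 0 < (A i i).re := by linarith
    positivity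
  calc γ * A'.det.re * ((∏ i, (1 + d i ^ 2 / ((A i i).re * (B i i).re))) * (1 + e ^ 2 / (γ * φ)))
      = (γ * (1 + e ^ 2 / (γ * φ))) * (A'.det.re * ∏ i, (1 + d i ^ 2 / ((A i i).re * (B i i).re))) := by ring
    _ ≤ γ' * (A'.det.re * ∏ i, (1 + d i ^ 2 / ((A' i i).re * (B i i).re))) := by
        gcongr
    _ ≤ γ' * (A' + D' * B⁻¹ * D' + (κ : ℂ) • (v * vᴴ)).det.re := by
        gcongr
        exact hih.trans hmono

/-- the statement of the determinant inequality for one index type -/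
def DetPStmt (m : Type*) [Fintype m] [DecidableEq m] : Prop :=
  ∀ (G F : Matrix m m ℂ), G.PosDef → F.PosDef → ∀ d : m → ℝ,
    G.det.re * ∏ i, (1 + d i ^ 2 / ((G i i).re * (F i i).re)) ≤
      (G + diagonal (fun i => (d i : ℂ)) * F⁻¹ * diagonal (fun i => (d i : ℂ))).det.re

theorem detP_of_equiv {m k : Type*} [Fintype m] [DecidableEq m] [Fintype k] [DecidableEq k]
    (e : m ≃ k) (h : DetPStmt m) : DetPStmt k := by
  intro G F hG hF d
  have h1 := h (G.submatrix e e) (F.submatrix e e) (hG.submatrix e.injective)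
    (hF.submatrix e.injective) (fun i => d (e i))
  have h2 : G.submatrix e e + diagonal (fun i => (d (e i) : ℂ)) * (F.submatrix e e)⁻¹ *
      diagonal (fun i => (d (e i) : ℂ)) =
      (G + diagonal (fun i => (d i : ℂ)) * F⁻¹ * diagonal (fun i => (d i : ℂ))).submatrix e e := by
    rw [inv_submatrix_equiv]
    ext i j
    simp [Matrix.mul_apply, diagonal_apply]
  rw [h2, det_submatrix_equiv_self, det_submatrix_equiv_self] at h1
  refine le_trans (le_of_eq ?_) h1
  congr 1
  simp only [submatrix_apply]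
  exact (Equiv.prod_comp e (fun i => 1 + d i ^ 2 / ((G i i).re * (F i i).re))).symm

theorem detP_succ {m : Type*} [Fintype m] [DecidableEq m] (h : DetPStmt m) :
    DetPStmt (m ⊕ Unit) := by
  intro G F hG hF d
  have key : ∀ M : Matrix (m ⊕ Unit) (m ⊕ Unit) ℂ, M.PosDef →
      M = fromBlocks M.toBlocks₁₁ M.toBlocks₁₂ M.toBlocks₁₂ᴴ
        ((((M (Sum.inr ()) (Sum.inr ())).re : ℝ) : ℂ) • (1 : Matrix Unit Unit ℂ)) := by
    intro M hM
    conv_lhs => rw [← fromBlocks_toBlocks M]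
    congr 1
    · ext i j
      have := hM.1.apply (Sum.inr i) (Sum.inl j)
      simp only [toBlocks₂₁, toBlocks₁₂, of_apply, conjTranspose_apply]
      exact this.symm
    · ext i j
      have h1 := hM.diag_pos (i := Sum.inr ())
      rw [Complex.lt_def] at h1
      simp only [toBlocks₂₂, of_apply, Matrix.smul_apply, Matrix.one_apply_eq, smul_eq_mul, mul_one]
      apply Complex.ext
      · simp
      · simpa using h1.2.symm
  have hG' := key G hG
  have hF' := key F hF
  have h1 := detP_step h G.toBlocks₁₁ G.toBlocks₁₂ (G (Sum.inr ()) (Sum.inr ())).re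
    F.toBlocks₁₁ F.toBlocks₁₂ (F (Sum.inr ()) (Sum.inr ())).re (by rw [← hG']; exact hG)
    (by rw [← hF']; exact hF) (fun i => d (Sum.inl i)) (d (Sum.inr ()))
  rw [← hG', ← hF'] at h1
  have hD : fromBlocks (diagonal (fun i => (d (Sum.inl i) : ℂ))) 0 0
      ((d (Sum.inr ()) : ℂ) • (1 : Matrix Unit Unit ℂ)) =
      diagonal (fun i => (d i : ℂ)) := by
    ext i j
    rcases i with i | i <;> rcases j with j | j <;> simp [diagonal_apply]
  rw [hD] at h1
  rw [Fintype.prod_sum_type]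
  simpa [toBlocks₁₁] using h1

theorem detP_of_card : ∀ (n : ℕ) (m : Type) [Fintype m] [DecidableEq m],
    Fintype.card m = n → DetPStmt m := by
  intro n
  induction n with
  | zero =>
    intro m _ _ hm G F hG hF d
    have : IsEmpty m := Fintype.card_eq_zero_iff.1 hm
    simp
  | succ n ih =>
    intro m _ _ hm
    have hc : Fintype.card (Fin n ⊕ Unit) = Fintype.card m := by
      rw [hm]; simp
    exact detP_of_equiv (Fintype.equivOfCardEq hc) (detP_succ (ih (Fin n) (by simp)))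

theorem det_add_conj_inv_ge {m : Type*} [Fintype m] [DecidableEq m] (G F : Matrix m m ℂ)
    (hG : G.PosDef) (hF : F.PosDef) (d : m → ℝ) :
    G.det.re * ∏ i, (1 + d i ^ 2 / ((G i i).re * (F i i).re)) ≤
      (G + diagonal (fun i => (d i : ℂ)) * F⁻¹ * diagonal (fun i => (d i : ℂ))).det.re :=
  detP_of_equiv (Fintype.equivFin m).symm (detP_of_card (Fintype.card m) (Fin (Fintype.card m)) (by simp))
    G F hG hF d

end Vale.Agent.P358
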