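import Vale.Agent.P358.Basic

/-!
# P358 [C]: basic facts on `vn` and `vnh`
-/

namespace Vale.Agent.P358

open Matrix
open scoped ComplexOrder

section

variable {m k : Type*} [Fintype m] [DecidableEq m] [Fintype k] [DecidableEq k]

theorem vn_of_isHermitian {T : Matrix m m ℂ} (h : T.IsHermitian) :
    vn T = ∑ i, Real.negMulLog (h.eigenvalues i) := by
  simp [vn, h]

theorem vn_eq_roots {A : Matrix m m ℂ} (hA : A.IsHermitian) :
    vn A = (A.charpoly.roots.map (fun z : ℂ => Real.negMulLog z.re)).sum := by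
  rw [vn_of_isHermitian hA, hA.roots_charpoly_eq_eigenvalues, Multiset.map_map]
  exact Finset.sum_congr rfl fun i _ => by simp

/-- entropy only depends on the characteristic polynomial -/
theorem vn_eq_of_charpoly {A : Matrix m m ℂ} {B : Matrix k k ℂ} (hA : A.IsHermitian)
    (hB : B.IsHermitian) (h : A.charpoly = B.charpoly) : vn A = vn B := by
  rw [vn_eq_roots hA, vn_eq_roots hB, h]

theorem vn_submatrix_equiv (A : Matrix m m ℂ) (e : k ≃ m) :
    vn (A.submatrix e e) = vn A := by
  by_cases hA : A.IsHermitian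
  · refine vn_eq_of_charpoly (hA.submatrix e) hA ?_
    have := Matrix.charpoly_reindex e.symm A
    rw [Matrix.reindex_apply, Equiv.symm_symm] at this
    exact this
  · have hB : ¬ (A.submatrix e e).IsHermitian := by
      intro h
      apply hA
      have := h.submatrix e.symm
      rwa [Matrix.submatrix_submatrix, Equiv.self_comp_symm, Matrix.submatrix_id_id] at this
    simp [vn, hA, hB]

theorem rtr_submatrix_equiv (A : Matrix m m ℂ) (e : k ≃ m) :
    rtr (A.submatrix e e) = rtr A := by
  unfold rtr Matrix.trace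
  congr 1
  exact e.sum_comp (fun i => A i i)

theorem vnh_submatrix_equiv (A : Matrix m m ℂ) (e : k ≃ m) :
    vnh (A.submatrix e e) = vnh A := by
  unfold vnh
  rw [vn_submatrix_equiv, rtr_submatrix_equiv]

/-- unitary invariance -/
theorem vn_conj_unitary (A U : Matrix m m ℂ) (hA : A.IsHermitian) (hU : Uᴴ * U = 1) :
    vn (U * A * Uᴴ) = vn A := by
  refine vn_eq_of_charpoly (isHermitian_mul_mul_conjTranspose U hA) hA ?_
  rw [mul_assoc, Matrix.charpoly_mul_comm, mul_assoc, hU, mul_one]

theorem vn_diagonal (d : m → ℝ) :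
    vn (diagonal (fun i => (d i : ℂ))) = ∑ i, Real.negMulLog (d i) := by
  have h : (diagonal (fun i => (d i : ℂ)) : Matrix m m ℂ).IsHermitian := by
    rw [Matrix.isHermitian_diagonal_iff]
    intro i
    exact Complex.conj_ofReal _
  rw [vn_eq_roots h, Matrix.charpoly_diagonal, Polynomial.roots_prod]
  · simp
  · simp [Finset.prod_ne_zero_iff, Polynomial.X_sub_C_ne_zero]

/-- spectral theorem in matrix form -/
theorem exists_diag {A : Matrix m m ℂ} (hA : A.IsHermitian) :
    ∃ U : Matrix m m ℂ, Uᴴ * U = 1 ∧ U * Uᴴ = 1 ∧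
      A = U * diagonal (fun i => (hA.eigenvalues i : ℂ)) * Uᴴ := by
  refine ⟨hA.eigenvectorUnitary, ?_, ?_, ?_⟩
  · exact Unitary.coe_star_mul_self hA.eigenvectorUnitary
  · exact Unitary.coe_mul_star_self hA.eigenvectorUnitary
  · conv_lhs => rw [hA.spectral_theorem, Unitary.conjStarAlgAut_apply]
    rfl

/-- `det (l + A) = ∏ (l + eigenvalue)` -/
theorem det_smul_one_add {A : Matrix m m ℂ} (hA : A.IsHermitian) (l : ℝ) :
    ((l : ℂ) • (1 : Matrix m m ℂ) + A).det = ((∏ i, (l + hA.eigenvalues i) : ℝ) : ℂ) := by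
  obtain ⟨U, h1, h2, h3⟩ := exists_diag hA
  have h4 : (l : ℂ) • (1 : Matrix m m ℂ) + A =
      U * diagonal (fun i => ((l + hA.eigenvalues i : ℝ) : ℂ)) * Uᴴ := by
    have h5 : diagonal (fun i => ((l + hA.eigenvalues i : ℝ) : ℂ)) =
        (l : ℂ) • (1 : Matrix m m ℂ) + diagonal (fun i => (hA.eigenvalues i : ℂ)) := by
      ext i j
      by_cases hij : i = j
      · subst hij; simp
      · simp [hij]
    rw [h5, mul_add, add_mul, ← h3, Matrix.mul_smul, mul_one, Matrix.smul_mul, h2]
  rw [h4, Matrix.det_mul, Matrix.det_mul, Matrix.det_diagonal, mul_comm, ← mul_assoc,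
    ← Matrix.det_mul, h1, Matrix.det_one, one_mul]
  push_cast
  rfl

theorem rtr_eq_sum_eigenvalues {A : Matrix m m ℂ} (hA : A.IsHermitian) :
    rtr A = ∑ i, hA.eigenvalues i := by
  unfold rtr
  rw [hA.trace_eq_sum_eigenvalues]
  simp

theorem rtr_nonneg {A : Matrix m m ℂ} (hA : A.PosSemidef) : 0 ≤ rtr A := by
  rw [rtr_eq_sum_eigenvalues hA.1]
  exact Finset.sum_nonneg fun i _ => hA.eigenvalues_nonneg i

theorem rtr_add (A B : Matrix m m ℂ) : rtr (A + B) = rtr A + rtr B := by
  simp [rtr]

theorem rtr_smul (c : ℝ) (A : Matrix m m ℂ) : rtr ((c : ℂ) • A) = c * rtr A := by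
  simp [rtr]

theorem rtr_conj (A U : Matrix m m ℂ) (hU : Uᴴ * U = 1) : rtr (U * A * Uᴴ) = rtr A := by
  unfold rtr
  rw [mul_assoc, Matrix.trace_mul_comm, mul_assoc, hU, mul_one]

/-- entropy at most the entropy of the diagonal (Jensen with the doubly stochastic `|U_ij|²`) -/
theorem vn_le_diag {A : Matrix m m ℂ} (hA : A.PosSemidef) :
    vn A ≤ ∑ i, Real.negMulLog ((A i i).re) := by
  obtain ⟨U, h1, h2, h3⟩ := exists_diag hA.1
  have hd : ∀ i, (A i i).re = ∑ j, Complex.normSq (U i j) * hA.1.eigenvalues j := by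
    intro i
    conv_lhs => rw [h3]
    rw [Matrix.mul_apply, Complex.re_sum]
    refine Finset.sum_congr rfl fun j _ => ?_
    rw [Matrix.mul_diagonal, Matrix.conjTranspose_apply]
    have : U i j * (hA.1.eigenvalues j : ℂ) * star (U i j) =
        ((Complex.normSq (U i j) * hA.1.eigenvalues j : ℝ) : ℂ) := by
      have h5 : U i j * star (U i j) = (Complex.normSq (U i j) : ℂ) := Complex.mul_conj _
      push_cast
      rw [← h5]
      ring
    rw [this, Complex.ofReal_re]
  have hrow : ∀ i, ∑ j, Complex.normSq (U i j) = 1 := by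
    intro i
    have := congrFun (congrFun h2 i) i
    rw [Matrix.mul_apply, Matrix.one_apply_eq] at this
    have h6 : ∀ j, U i j * Uᴴ j i = (Complex.normSq (U i j) : ℂ) := by
      intro j
      rw [Matrix.conjTranspose_apply]
      exact Complex.mul_conj _
    simp_rw [h6] at this
    exact_mod_cast this
  have hcol : ∀ j, ∑ i, Complex.normSq (U i j) = 1 := by
    intro j
    have := congrFun (congrFun h1 j) j
    rw [Matrix.mul_apply, Matrix.one_apply_eq] at this
    have h6 : ∀ i, Uᴴ j i * U i j = (Complex.normSq (U i j) : ℂ) := by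
      intro i
      rw [Matrix.conjTranspose_apply, mul_comm]
      exact Complex.mul_conj _
    simp_rw [h6] at this
    exact_mod_cast this
  have hJ : ∀ i, ∑ j, Complex.normSq (U i j) * Real.negMulLog (hA.1.eigenvalues j) ≤
      Real.negMulLog ((A i i).re) := by
    intro i
    rw [hd i]
    exact Real.concaveOn_negMulLog.le_map_sum (fun j _ => Complex.normSq_nonneg _) (hrow i)
      (fun j _ => hA.eigenvalues_nonneg j)
  calc vn A = ∑ j, Real.negMulLog (hA.1.eigenvalues j) := vn_of_isHermitian hA.1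
    _ = ∑ j, (∑ i, Complex.normSq (U i j)) * Real.negMulLog (hA.1.eigenvalues j) := by
        simp_rw [hcol, one_mul]
    _ = ∑ i, ∑ j, Complex.normSq (U i j) * Real.negMulLog (hA.1.eigenvalues j) := by
        simp_rw [Finset.sum_mul]
        exact Finset.sum_comm
    _ ≤ _ := Finset.sum_le_sum fun i _ => hJ i

/-- scaling -/
theorem vn_smul {A : Matrix m m ℂ} (hA : A.IsHermitian) (c : ℝ) :
    vn ((c : ℂ) • A) = c * vn A + Real.negMulLog c * rtr A := by
  obtain ⟨U, h1, h2, h3⟩ := exists_diag hA
  have h4 : (c : ℂ) • A = U * diagonal (fun i => ((c * hA.eigenvalues i : ℝ) : ℂ)) * Uᴴ := by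
    have h5 : diagonal (fun i => ((c * hA.eigenvalues i : ℝ) : ℂ)) =
        (c : ℂ) • diagonal (fun i => (hA.eigenvalues i : ℂ)) := by
      ext i j
      by_cases hij : i = j
      · subst hij; simp
      · simp [hij]
    rw [h5, Matrix.mul_smul, Matrix.smul_mul, ← h3]
  have h6 : (diagonal (fun i => ((c * hA.eigenvalues i : ℝ) : ℂ)) : Matrix m m ℂ).IsHermitian := by
    rw [Matrix.isHermitian_diagonal_iff]
    intro i
    exact Complex.conj_ofReal _
  rw [h4, vn_conj_unitary _ _ h6 h1, vn_diagonal, vn_of_isHermitian hA, rtr_eq_sum_eigenvalues hA,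
    Finset.mul_sum, Finset.mul_sum, ← Finset.sum_add_distrib]
  refine Finset.sum_congr rfl fun i _ => ?_
  rw [Real.negMulLog_mul]
  ring

/-- homogeneity -/
theorem vnh_smul {A : Matrix m m ℂ} (hA : A.IsHermitian) (c : ℝ) :
    vnh ((c : ℂ) • A) = c * vnh A := by
  unfold vnh
  rw [vn_smul hA, rtr_smul, Real.negMulLog_mul]
  ring

/-- the scalar inequality behind `vnh_superadd` (Gibbs) -/
theorem gibbs_term {a b A B : ℝ} (ha : 0 ≤ a) (hb : 0 ≤ b) (haA : a ≤ A) (hbB : b ≤ B) :
    Real.negMulLog a + Real.negMulLog b - Real.negMulLog (a + b) ≤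
      -a * Real.log A - b * Real.log B + (a + b) * Real.log (A + B) := by
  rcases ha.eq_or_lt with rfl | ha
  · rcases hb.eq_or_lt with rfl | hb
    · simp
    · have hB : 0 < B := hb.trans_le hbB
      have : Real.log B ≤ Real.log (A + B) := Real.log_le_log hB (by linarith)
      simp only [Real.negMulLog_zero, zero_add, sub_self, neg_zero, zero_mul, zero_sub]
      nlinarith
  · have hA : 0 < A := ha.trans_le haA
    rcases hb.eq_or_lt with rfl | hb
    · have : Real.log A ≤ Real.log (A + B) := Real.log_le_log hA (by linarith)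
      simp only [Real.negMulLog_zero, add_zero, sub_self, zero_mul, sub_zero]
      nlinarith
    · have hB : 0 < B := hb.trans_le hbB
      have hS : 0 < A + B := by positivity
      have hs : 0 < a + b := by positivity
      have k1 : Real.log ((a + b) * A / ((A + B) * a)) ≤ (a + b) * A / ((A + B) * a) - 1 :=
        Real.log_le_sub_one_of_pos (by positivity)
      have k2 : Real.log ((a + b) * B / ((A + B) * b)) ≤ (a + b) * B / ((A + B) * b) - 1 :=
        Real.log_le_sub_one_of_pos (by positivity)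
      rw [Real.log_div (by positivity) (by positivity), Real.log_mul hs.ne' hA.ne',
        Real.log_mul hS.ne' ha.ne'] at k1
      rw [Real.log_div (by positivity) (by positivity), Real.log_mul hs.ne' hB.ne',
        Real.log_mul hS.ne' hb.ne'] at k2
      have k3 := mul_le_mul_of_nonneg_left k1 ha.le
      have k4 := mul_le_mul_of_nonneg_left k2 hb.le
      have k5 : a * ((a + b) * A / ((A + B) * a) - 1) + b * ((a + b) * B / ((A + B) * b) - 1) = 0 := by
        field_simp
        ring
      unfold Real.negMulLog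
      nlinarith

/-- superadditivity of `vnh` (concavity of the von Neumann entropy). Proof: in an eigenbasis of
`A + B` use `vn_le_diag` for `A` and for `B`, and the scalar log-sum inequality. -/
theorem vnh_superadd {A B : Matrix m m ℂ} (hA : A.PosSemidef) (hB : B.PosSemidef) :
    vnh A + vnh B ≤ vnh (A + B) := by
  have hAB := hA.add hB
  obtain ⟨U, h1, h2, h3⟩ := exists_diag hAB.1
  let A' := Uᴴ * A * U
  let B' := Uᴴ * B * U
  have hA' : A'.PosSemidef := hA.conjTranspose_mul_mul_same U
  have hB' : B'.PosSemidef := hB.conjTranspose_mul_mul_same U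
  have hU' : Uᴴᴴ * Uᴴ = 1 := by rw [Matrix.conjTranspose_conjTranspose, h2]
  have e1 : vn A' = vn A := by
    have := vn_conj_unitary A Uᴴ hA.1 hU'
    rwa [Matrix.conjTranspose_conjTranspose] at this
  have e2 : vn B' = vn B := by
    have := vn_conj_unitary B Uᴴ hB.1 hU'
    rwa [Matrix.conjTranspose_conjTranspose] at this
  have t1 : rtr A' = rtr A := by
    have := rtr_conj A Uᴴ hU'
    rwa [Matrix.conjTranspose_conjTranspose] at this
  have t2 : rtr B' = rtr B := by
    have := rtr_conj B Uᴴ hU'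
    rwa [Matrix.conjTranspose_conjTranspose] at this
  have e3 : A' + B' = diagonal (fun i => (hAB.1.eigenvalues i : ℂ)) := by
    have h5 : A' + B' = Uᴴ * (A + B) * U := by
      simp only [A', B', mul_add, add_mul]
    rw [h5]
    conv_lhs => rw [h3]
    calc Uᴴ * (U * diagonal (fun i => (hAB.1.eigenvalues i : ℂ)) * Uᴴ) * U
        = (Uᴴ * U) * diagonal (fun i => (hAB.1.eigenvalues i : ℂ)) * (Uᴴ * U) := by
          simp only [mul_assoc]
      _ = _ := by rw [h1, one_mul, mul_one]
  let a : m → ℝ := fun i => (A' i i).re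
  let b : m → ℝ := fun i => (B' i i).re
  have ha : ∀ i, 0 ≤ a i := fun i => by
    have := hA'.diag_nonneg (i := i)
    exact (Complex.le_def.1 this).1
  have hb : ∀ i, 0 ≤ b i := fun i => by
    have := hB'.diag_nonneg (i := i)
    exact (Complex.le_def.1 this).1
  have hl : ∀ i, hAB.1.eigenvalues i = a i + b i := by
    intro i
    have := congrFun (congrFun e3 i) i
    rw [Matrix.add_apply, Matrix.diagonal_apply_eq] at this
    have h6 := congrArg Complex.re this
    rw [Complex.add_re, Complex.ofReal_re] at h6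
    exact h6.symm
  have s1 : ∑ i, a i = rtr A := by
    rw [← t1]
    simp [a, rtr, Matrix.trace]
  have s2 : ∑ i, b i = rtr B := by
    rw [← t2]
    simp [b, rtr, Matrix.trace]
  have k1 := vn_le_diag hA'
  have k2 := vn_le_diag hB'
  rw [e1] at k1
  rw [e2] at k2
  have k3 : ∑ i, (Real.negMulLog (a i) + Real.negMulLog (b i) - Real.negMulLog (a i + b i)) ≤
      ∑ i, (-a i * Real.log (rtr A) - b i * Real.log (rtr B) +
        (a i + b i) * Real.log (rtr A + rtr B)) := by
    refine Finset.sum_le_sum fun i _ => gibbs_term (ha i) (hb i) ?_ ?_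
    · rw [← s1]; exact Finset.single_le_sum (fun j _ => ha j) (Finset.mem_univ i)
    · rw [← s2]; exact Finset.single_le_sum (fun j _ => hb j) (Finset.mem_univ i)
  have k4 : ∑ i, (-a i * Real.log (rtr A) - b i * Real.log (rtr B) +
        (a i + b i) * Real.log (rtr A + rtr B)) =
      Real.negMulLog (rtr A) + Real.negMulLog (rtr B) - Real.negMulLog (rtr A + rtr B) := by
    rw [Finset.sum_add_distrib, Finset.sum_sub_distrib, ← Finset.sum_mul, ← Finset.sum_mul,
      ← Finset.sum_mul, Finset.sum_neg_distrib, Finset.sum_add_distrib, s1, s2]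
    unfold Real.negMulLog
    ring
  rw [k4, Finset.sum_sub_distrib, Finset.sum_add_distrib] at k3
  unfold vnh
  rw [vn_of_isHermitian hAB.1, rtr_add]
  simp_rw [hl]
  have k1' : vn A ≤ ∑ i, Real.negMulLog (a i) := k1
  have k2' : vn B ≤ ∑ i, Real.negMulLog (b i) := k2
  linarith

theorem vnh_nonneg {A : Matrix m m ℂ} (hA : A.PosSemidef) : 0 ≤ vnh A := by
  unfold vnh
  rw [vn_of_isHermitian hA.1, rtr_eq_sum_eigenvalues hA.1]
  have h0 := hA.eigenvalues_nonneg
  have key : ∀ i, -hA.1.eigenvalues i * Real.log (∑ j, hA.1.eigenvalues j) ≤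
      Real.negMulLog (hA.1.eigenvalues i) := by
    intro i
    unfold Real.negMulLog
    rcases (h0 i).eq_or_lt with h | h
    · rw [← h]; simp
    · have h2 : Real.log (hA.1.eigenvalues i) ≤ Real.log (∑ j, hA.1.eigenvalues j) :=
        Real.log_le_log h (Finset.single_le_sum (fun j _ => h0 j) (Finset.mem_univ i))
      nlinarith
  have h3 := Finset.sum_le_sum fun i (_ : i ∈ Finset.univ) => key i
  rw [← Finset.sum_mul, Finset.sum_neg_distrib] at h3
  have h4 : Real.negMulLog (∑ j, hA.1.eigenvalues j) =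
      -(∑ j, hA.1.eigenvalues j) * Real.log (∑ j, hA.1.eigenvalues j) := rfl
  rw [h4]
  linarith

theorem vnh_zero : vnh (0 : Matrix m m ℂ) = 0 := by
  have h : (0 : Matrix m m ℂ) = diagonal (fun _ => ((0 : ℝ) : ℂ)) := by simp
  unfold vnh
  rw [h, vn_diagonal]
  simp [rtr]

end

/-- swap of the two blocks -/
theorem vnh_fromBlocks_swap {m : Type*} [Fintype m] [DecidableEq m] (A B C D : Matrix m m ℂ) :
    vnh (fromBlocks A B C D) = vnh (fromBlocks D C B A) := by
  rw [← vnh_submatrix_equiv (fromBlocks A B C D) (Equiv.sumComm m m)]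
  congr 1
  exact Matrix.fromBlocks_submatrix_sum_swap_sum_swap A B C D

/-- block-diagonal unitary conjugation -/
theorem vnh_fromBlocks_conj {m : Type*} [Fintype m] [DecidableEq m] (A B C D U : Matrix m m ℂ)
    (h : (fromBlocks A B C D).IsHermitian) (hU : Uᴴ * U = 1) :
    vnh (fromBlocks (U * A * Uᴴ) (U * B * Uᴴ) (U * C * Uᴴ) (U * D * Uᴴ)) =
      vnh (fromBlocks A B C D) := by
  have hV : (fromBlocks U 0 0 U)ᴴ * fromBlocks U 0 0 U = 1 := by
    rw [Matrix.fromBlocks_conjTranspose, Matrix.fromBlocks_multiply]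
    simp [hU]
  have e : fromBlocks (U * A * Uᴴ) (U * B * Uᴴ) (U * C * Uᴴ) (U * D * Uᴴ) =
      fromBlocks U 0 0 U * fromBlocks A B C D * (fromBlocks U 0 0 U)ᴴ := by
    rw [Matrix.fromBlocks_conjTranspose, Matrix.fromBlocks_multiply, Matrix.fromBlocks_multiply]
    simp
  unfold vnh
  rw [e, vn_conj_unitary _ _ h hV, rtr_conj _ _ hV]

end Vale.Agent.P358
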