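import Vale.Agent.P358.Basic
import Vale.Agent.P358.Defs

/-!
# P358 [F]: the scalar function `shat`, its convexity, and the binary entropy

For `x + y = 1`, `x = 1 - q`, `y = q`, `shat γ ν x y = binEntropy ((1+√w(q))/2)` with
`w(q) = 1 - 4 D(q) = A² + 4ηγ q(2ν - q)`, `A = 1 - 2γν`, `η = 1-γ`
(`D(q) = t(1-t) - ηq(1-q)`, `t = ηq + γν`), so `w(q) = W - v²` with `v = 2√(ηγ)(q-ν)` and
`W = 1 - 4γν(1-ν) ∈ [0,1]`.

Convexity in `q`: for `W ∈ [0,1]` the function `v ↦ binEntropy((1+√(W-v²))/2)` is convex on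
`[-√W, √W]`: its derivative is `v φ(r)`, `r = √(W-v²)`, `φ(r) = artanh(r)/r`, and the second
derivative is `φ - v² φ'(r)/r ≥ φ - (1-r²) φ'(r)/r ≥ 0`, the last inequality being equivalent to
`artanh r ≥ r`. (On the interior `0 < q < 1`, `0 < γ < 1` one has `0 < w(q) < 1` except the trivial
cases, so the derivative computations are legitimate; then use continuity on `[0,1]`.)
The homogeneous function `shat` is then subadditive.
-/

namespace Vale.Agent.P358

/-- natural-log one-use entropy at excited population `q` -/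
noncomputable def sq (γ ν q : ℝ) : ℝ :=
  Real.binEntropy ((1 + Real.sqrt (1 - 4 * (((1 - γ) * q + γ * ν) *
    (1 - ((1 - γ) * q + γ * ν)) - (1 - γ) * q * (1 - q)))) / 2)

theorem shat_eq_sq {γ ν q : ℝ} (hγ : γ ∈ Set.Icc (0 : ℝ) 1) (hν : ν ∈ Set.Icc (0 : ℝ) 1)
    (hq : q ∈ Set.Icc (0 : ℝ) 1) : shat γ ν (1 - q) q = sq γ ν q := by
  unfold shat sq sc
  have h1 : 1 - q + q = 1 := by ring
  have h2 : ((1 - γ * ν) * (1 - q) + γ * (1 - ν) * q) * (γ * ν * (1 - q) +
      (1 - γ * (1 - ν)) * q) - (1 - γ) * ((1 - q) * q) =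
      ((1 - γ) * q + γ * ν) * (1 - ((1 - γ) * q + γ * ν)) - (1 - γ) * q * (1 - q) := by ring
  rw [h1, h2, Real.negMulLog_one, sub_zero, Real.binEntropy_eq_negMulLog_add_negMulLog_one_sub]
  congr 1
  · unfold mup; rw [one_pow]
  · unfold mum; rw [one_pow]; congr 1; ring

theorem shat_smul {γ ν k : ℝ} (hk : 0 ≤ k) (x y : ℝ) :
    shat γ ν (k * x) (k * y) = k * shat γ ν x y := by
  have hsc : ∀ s P : ℝ, sc (k * s) (k ^ 2 * P) = k * sc s P := by
    intro s P
    have hs : Real.sqrt ((k * s) ^ 2 - 4 * (k ^ 2 * P)) = k * Real.sqrt (s ^ 2 - 4 * P) := by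
      rw [show (k * s) ^ 2 - 4 * (k ^ 2 * P) = k ^ 2 * (s ^ 2 - 4 * P) by ring,
        Real.sqrt_mul (sq_nonneg k), Real.sqrt_sq hk]
    have h1 : mup (k * s) (k ^ 2 * P) = k * mup s P := by
      unfold mup; rw [hs]; ring
    have h2 : mum (k * s) (k ^ 2 * P) = k * mum s P := by
      unfold mum; rw [hs]; ring
    have h3 : mup s P + mum s P = s := by unfold mup mum; ring
    unfold sc
    rw [h1, h2, Real.negMulLog_mul, Real.negMulLog_mul, Real.negMulLog_mul]
    linear_combination Real.negMulLog k * h3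
  unfold shat
  rw [← hsc]
  congr 1 <;> ring

/-- `log (1+r) - log (1-r) ≥ 2 r` -/
theorem two_mul_le_L {r : ℝ} (h0 : 0 ≤ r) (h1 : r < 1) :
    2 * r ≤ Real.log (1 + r) - Real.log (1 - r) := by
  have h := Real.hasSum_log_sub_log_of_abs_lt_one (x := r) (by rw [abs_of_nonneg h0]; exact h1)
  have := le_hasSum h 0 (fun k _ => by positivity)
  simpa using this

/-- `log (1+r) - log (1-r) ≤ 2 r / (1 - r²)` -/
theorem L_le {r : ℝ} (h0 : 0 ≤ r) (h1 : r < 1) :
    Real.log (1 + r) - Real.log (1 - r) ≤ 2 * r / (1 - r ^ 2) := by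
  have h := Real.hasSum_log_sub_log_of_abs_lt_one (x := r) (by rw [abs_of_nonneg h0]; exact h1)
  have hr2 : r ^ 2 < 1 := by nlinarith
  have hg : HasSum (fun k : ℕ => 2 * r * (r ^ 2) ^ k) (2 * r * (1 - r ^ 2)⁻¹) :=
    (hasSum_geometric_of_lt_one (by positivity) hr2).mul_left _
  have hle := hasSum_le (f := fun k : ℕ => (2 : ℝ) * (1 / (2 * k + 1)) * r ^ (2 * k + 1)) (g :=
    fun k : ℕ => 2 * r * (r ^ 2) ^ k) (fun k => by
      have e : 2 * r * (r ^ 2) ^ k = 2 * r ^ (2 * k + 1) := by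
        rw [← pow_mul, pow_succ]; ring
      rw [e]
      have h2 : (1 : ℝ) / (2 * k + 1) ≤ 1 := by
        rw [div_le_one (by positivity)]
        have : (0 : ℝ) ≤ k := Nat.cast_nonneg k
        linarith
      have h3 : 0 ≤ r ^ (2 * k + 1) := by positivity
      nlinarith) h hg
  simpa [div_eq_mul_inv] using hle

theorem sq_arg (γ ν q : ℝ) : 1 - 4 * (((1 - γ) * q + γ * ν) *
    (1 - ((1 - γ) * q + γ * ν)) - (1 - γ) * q * (1 - q)) =
    (1 - 4 * γ * ν * (1 - ν)) - 4 * ((1 - γ) * γ) * (q - ν) ^ 2 := by ring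

theorem sq_continuous (γ ν : ℝ) : Continuous (sq γ ν) := by
  unfold sq
  fun_prop

theorem sq_convexOn {γ ν : ℝ} (hγ : γ ∈ Set.Icc (0 : ℝ) 1) (hν : ν ∈ Set.Icc (0 : ℝ) 1) :
    ConvexOn ℝ (Set.Icc (0 : ℝ) 1) (sq γ ν) := by
  obtain ⟨hγ0, hγ1⟩ := hγ
  obtain ⟨hν0, hν1⟩ := hν
  -- trivial cases `γ (1 - γ) = 0`
  by_cases hne : (1 - γ) * γ = 0
  · have : sq γ ν = fun _ => Real.binEntropy ((1 + Real.sqrt (1 - 4 * γ * ν * (1 - ν))) / 2) := by
      funext q
      unfold sq
      rw [sq_arg, hne]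
      simp
    rw [this]
    exact convexOn_const _ (convex_Icc 0 1)
  have hpos : 0 < (1 - γ) * γ :=
    lt_of_le_of_ne (mul_nonneg (by linarith) hγ0) (Ne.symm hne)
  have hγ0' : 0 < γ := lt_of_le_of_ne hγ0 (by rintro rfl; simp at hne)
  have hγ1' : γ < 1 := lt_of_le_of_ne hγ1 (by rintro rfl; simp at hne)
  set W : ℝ := 1 - 4 * γ * ν * (1 - ν) with hW
  set E : ℝ := (1 - γ) * γ with hE
  set w : ℝ → ℝ := fun q => W - 4 * E * (q - ν) ^ 2 with hw
  have hsq : sq γ ν = fun q => Real.binEntropy ((1 + Real.sqrt (w q)) / 2) := by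
    funext q
    unfold sq
    rw [sq_arg]
  have hW1 : W ≤ 1 := by
    have : 0 ≤ γ * ν * (1 - ν) := mul_nonneg (mul_nonneg hγ0 hν0) (by linarith)
    rw [hW]; linarith
  have hwpos : ∀ q ∈ Set.Ioo (0 : ℝ) 1, 0 < w q := by
    intro q hq
    have e : w q = (1 - 2 * ((1 - γ) * q + γ * ν)) ^ 2 + 4 * ((1 - γ) * (q * (1 - q))) := by
      rw [hw, hW, hE]; ring
    rw [e]
    have : 0 < (1 - γ) * (q * (1 - q)) :=
      mul_pos (by linarith) (mul_pos hq.1 (by linarith [hq.2]))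
    positivity
  have hwlt : ∀ q ∈ Set.Ioo (0 : ℝ) 1, w q < 1 := by
    intro q hq
    have e : w q = 1 - 4 * ((1 - γ * ν) * (γ * ν) * (1 - q) ^ 2 +
        2 * (γ * ν) * (γ * (1 - ν)) * (q * (1 - q)) +
        γ * (1 - ν) * (1 - γ * (1 - ν)) * q ^ 2) := by
      rw [hw, hW, hE]; ring
    rw [e]
    have hq0 := hq.1
    have hq1 : 0 < 1 - q := by linarith [hq.2]
    have h1 : 0 < 1 - γ * ν := by nlinarith
    have h2 : 0 < 1 - γ * (1 - ν) := by nlinarith
    have h3 : 0 ≤ 1 - ν := by linarith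
    rcases hν0.eq_or_lt with h | h
    · rw [← h]
      have h4 : 0 < γ * (1 - 0) * (1 - γ * (1 - 0)) * q ^ 2 := by
        have : 0 < 1 - γ * (1 - 0) := by linarith
        positivity
      have h5 : (1 - γ * 0) * (γ * 0) * (1 - q) ^ 2 +
        2 * (γ * 0) * (γ * (1 - 0)) * (q * (1 - q)) = 0 := by ring
      linarith
    · have h4 : 0 < (1 - γ * ν) * (γ * ν) * (1 - q) ^ 2 := by positivity
      have h5 : 0 ≤ 2 * (γ * ν) * (γ * (1 - ν)) * (q * (1 - q)) := by positivity
      have h6 : 0 ≤ γ * (1 - ν) * (1 - γ * (1 - ν)) * q ^ 2 := by positivity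
      linarith
  have hwd : ∀ q, HasDerivAt w (-(8 * E * (q - ν))) q := by
    intro q
    have h1 : HasDerivAt (fun q : ℝ => (q - ν) ^ 2) (2 * (q - ν)) q := by
      simpa using ((hasDerivAt_id' q).sub_const ν).fun_pow 2
    exact ((h1.const_mul (4 * E)).const_sub W).congr_deriv (by ring)
  rw [hsq]
  refine convexOn_of_hasDerivWithinAt2_nonneg (convex_Icc 0 1)
    (f' := fun q => 2 * E * (q - ν) *
      ((Real.log (1 + Real.sqrt (w q)) - Real.log (1 - Real.sqrt (w q))) / Real.sqrt (w q)))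
    (f'' := fun q => 2 * E *
      ((Real.log (1 + Real.sqrt (w q)) - Real.log (1 - Real.sqrt (w q))) / Real.sqrt (w q)) +
      2 * E * (q - ν) *
        (((1 / (1 + Real.sqrt (w q)) + 1 / (1 - Real.sqrt (w q))) * Real.sqrt (w q) -
          (Real.log (1 + Real.sqrt (w q)) - Real.log (1 - Real.sqrt (w q)))) /
            (Real.sqrt (w q)) ^ 2 * (-(8 * E * (q - ν)) / (2 * Real.sqrt (w q))))) ?_ ?_ ?_ ?_
  · have : Continuous (fun q => Real.binEntropy ((1 + Real.sqrt (w q)) / 2)) := by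
      rw [← hsq]; exact sq_continuous γ ν
    exact this.continuousOn
  · intro q hq
    rw [interior_Icc] at hq
    have hw0 := hwpos q hq
    have hw1 := hwlt q hq
    set r := Real.sqrt (w q) with hr
    have hr0 : 0 < r := Real.sqrt_pos.mpr hw0
    have hr1 : r < 1 := by
      rw [hr]; exact (Real.sqrt_lt' one_pos).mpr (by simpa using hw1)
    have hs : HasDerivAt (fun q => Real.sqrt (w q)) (-(8 * E * (q - ν)) / (2 * r)) q :=
      (hwd q).sqrt hw0.ne'
    have hp : HasDerivAt (fun q => (1 + Real.sqrt (w q)) / 2)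
        (-(8 * E * (q - ν)) / (2 * r) / 2) q := (hs.const_add 1).div_const 2
    have hb := Real.hasDerivAt_binEntropy (p := (1 + Real.sqrt (w q)) / 2)
      (by rw [← hr]; positivity) (by rw [← hr]; intro h; linarith)
    have hc := hb.comp q hp
    refine HasDerivAt.hasDerivWithinAt (hc.congr_deriv ?_)
    rw [← hr]
    have e1 : 1 - (1 + r) / 2 = (1 - r) / 2 := by ring
    rw [e1, Real.log_div (by linarith) (by norm_num), Real.log_div (by linarith) (by norm_num)]
    field_simp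
    ring
  · intro q hq
    rw [interior_Icc] at hq
    have hw0 := hwpos q hq
    have hw1 := hwlt q hq
    have hr0 : 0 < Real.sqrt (w q) := Real.sqrt_pos.mpr hw0
    have hr1 : Real.sqrt (w q) < 1 := (Real.sqrt_lt' one_pos).mpr (by simpa using hw1)
    have hs : HasDerivAt (fun q => Real.sqrt (w q))
        (-(8 * E * (q - ν)) / (2 * Real.sqrt (w q))) q := (hwd q).sqrt hw0.ne'
    have hL1 := (hs.const_add 1).log (by linarith)
    have hL2 := (hs.const_sub 1).log (by linarith)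
    have hL := hL1.fun_sub hL2
    have hd := hL.fun_div hs hr0.ne'
    have hlin : HasDerivAt (fun q : ℝ => 2 * E * (q - ν)) (2 * E) q := by
      simpa using ((hasDerivAt_id' q).sub_const ν).const_mul (2 * E)
    have hm := hlin.fun_mul hd
    refine HasDerivAt.hasDerivWithinAt (hm.congr_deriv ?_)
    have h1r : (1 : ℝ) - Real.sqrt (w q) ≠ 0 := by linarith
    have h1r' : (1 : ℝ) + Real.sqrt (w q) ≠ 0 := by linarith
    field_simp
    ring
  · intro q hq
    rw [interior_Icc] at hq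
    have hw0 := hwpos q hq
    have hw1 := hwlt q hq
    obtain ⟨r, hr⟩ : ∃ r, r = Real.sqrt (w q) := ⟨_, rfl⟩
    have hr0 : 0 < r := hr ▸ Real.sqrt_pos.mpr hw0
    have hr1 : r < 1 := hr ▸ (Real.sqrt_lt' one_pos).mpr (by simpa using hw1)
    have hr2 : r ^ 2 = w q := by rw [hr]; exact Real.sq_sqrt hw0.le
    rw [← hr]
    have hLlow := two_mul_le_L hr0.le hr1
    have hLup := L_le hr0.le hr1
    obtain ⟨L, hL⟩ : ∃ L, L = Real.log (1 + r) - Real.log (1 - r) := ⟨_, rfl⟩
    rw [← hL] at hLlow hLup ⊢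
    have h1r : 0 < 1 - r := by linarith
    have h1r2 : 0 < 1 - r ^ 2 := by nlinarith
    have hv : 4 * E * (q - ν) ^ 2 ≤ 1 - r ^ 2 := by
      rw [hr2, hw]; linarith
    have hv0 : 0 ≤ 4 * E * (q - ν) ^ 2 := by positivity
    have hkey : L * r ^ 2 - 4 * E * (q - ν) ^ 2 * (2 * r / (1 - r ^ 2) - L) ≥ 0 := by
      have h5 : 4 * E * (q - ν) ^ 2 * (2 * r / (1 - r ^ 2) - L) ≤
          (1 - r ^ 2) * (2 * r / (1 - r ^ 2) - L) :=
        mul_le_mul_of_nonneg_right hv (by linarith)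
      have h6 : (1 - r ^ 2) * (2 * r / (1 - r ^ 2) - L) = 2 * r - (1 - r ^ 2) * L := by
        field_simp
      nlinarith
    have hfin : 2 * E * (L / r) + 2 * E * (q - ν) *
        (((1 / (1 + r) + 1 / (1 - r)) * r - L) / r ^ 2 * (-(8 * E * (q - ν)) / (2 * r))) =
        2 * E / r ^ 3 * (L * r ^ 2 - 4 * E * (q - ν) ^ 2 * (2 * r / (1 - r ^ 2) - L)) := by
      have h7 : 1 - r ^ 2 = (1 + r) * (1 - r) := by ring
      have h8 : 1 + r ≠ 0 := by positivity
      rw [h7]
      field_simp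
      ring
    rw [hfin]
    positivity

theorem rate_eq (γ ν q : ℝ) :
    rate γ ν q = (Real.binEntropy ((1 - γ) * q + γ * ν) - sq γ ν q) / Real.log 2 := by
  unfold rate h2 sq
  rw [sub_div]

theorem rate_continuous (γ ν : ℝ) : Continuous (rate γ ν) := by
  have : rate γ ν = fun q => (Real.binEntropy ((1 - γ) * q + γ * ν) - sq γ ν q) / Real.log 2 := by
    funext q; exact rate_eq γ ν q
  rw [this]
  have := sq_continuous γ ν
  fun_prop

/-- subadditivity of the homogeneous convex function `shat` -/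
theorem shat_subadd {γ ν : ℝ} (hγ : γ ∈ Set.Icc (0 : ℝ) 1) (hν : ν ∈ Set.Icc (0 : ℝ) 1)
    {x y x' y' : ℝ} (hx : 0 ≤ x) (hy : 0 ≤ y) (hx' : 0 ≤ x') (hy' : 0 ≤ y') :
    shat γ ν (x + x') (y + y') ≤ shat γ ν x y + shat γ ν x' y' := by
  have h00 : shat γ ν 0 0 = 0 := by
    have := shat_smul (γ := γ) (ν := ν) (k := 0) le_rfl 0 0
    simpa using this
  have hform : ∀ u v : ℝ, 0 ≤ u → 0 ≤ v → 0 < u + v →
      shat γ ν u v = (u + v) * sq γ ν (v / (u + v)) := by
    intro u v hu hv huv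
    have hq : v / (u + v) ∈ Set.Icc (0 : ℝ) 1 :=
      ⟨by positivity, by rw [div_le_one huv]; linarith⟩
    rw [← shat_eq_sq hγ hν hq, ← shat_smul huv.le]
    congr 1 <;> field_simp
    ring
  rcases (add_nonneg hx hy).eq_or_lt with h | h
  · have hx0 : x = 0 := by linarith
    have hy0 : y = 0 := by linarith
    subst hx0; subst hy0
    simp [h00]
  rcases (add_nonneg hx' hy').eq_or_lt with h' | h'
  · have hx0 : x' = 0 := by linarith
    have hy0 : y' = 0 := by linarith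
    subst hx0; subst hy0
    simp [h00]
  have hS : 0 < x + x' + (y + y') := by linarith
  rw [hform _ _ (by linarith) (by linarith) hS, hform _ _ hx hy h, hform _ _ hx' hy' h']
  have hm1 : y / (x + y) ∈ Set.Icc (0 : ℝ) 1 :=
    ⟨by positivity, by rw [div_le_one h]; linarith⟩
  have hm2 : y' / (x' + y') ∈ Set.Icc (0 : ℝ) 1 :=
    ⟨by positivity, by rw [div_le_one h']; linarith⟩
  have ha1 : 0 ≤ (x + y) / (x + x' + (y + y')) := by positivity
  have ha2 : 0 ≤ (x' + y') / (x + x' + (y + y')) := by positivity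
  have ha3 : (x + y) / (x + x' + (y + y')) + (x' + y') / (x + x' + (y + y')) = 1 := by
    field_simp
    ring
  have hc := (sq_convexOn hγ hν).2 hm1 hm2 ha1 ha2 ha3
  have e : ((x + y) / (x + x' + (y + y'))) • (y / (x + y)) +
      ((x' + y') / (x + x' + (y + y'))) • (y' / (x' + y')) = (y + y') / (x + x' + (y + y')) := by
    simp only [smul_eq_mul]
    field_simp
  rw [e] at hc
  simp only [smul_eq_mul] at hc
  have h9 := mul_le_mul_of_nonneg_left hc hS.le
  have e2 : (x + x' + (y + y')) * ((x + y) / (x + x' + (y + y')) * sq γ ν (y / (x + y)) +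
      (x' + y') / (x + x' + (y + y')) * sq γ ν (y' / (x' + y'))) =
      (x + y) * sq γ ν (y / (x + y)) + (x' + y') * sq γ ν (y' / (x' + y')) := by
    field_simp
  rw [e2] at h9
  exact h9

end Vale.Agent.P358
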