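import Vale.Agent.P358.Entropy
import Vale.Agent.P358.Scalar
import Vale.Agent.P358.Classical

/-!
# P358 [L]: product ensembles (lower bound)

Ensemble: `ε ∈ {0,1}^n` with probability `2^{-n}`, state `⊗ᵢ ψ_{εᵢ}`,
`ψ_ε = [[1-q, ±√(q(1-q))],[±√(q(1-q)), q]]` (sign `+` for `ε = 0`).
`A^{⊗n}(⊗ ψ_{εᵢ}) = ⊗ A(ψ_{εᵢ})` (`tensorPow_prod`), each `A(ψ_ε)` is real symmetric with
eigenvalues `(1 ± √(1-4D))/2`, so its tensor product has entropy `n · sq γ ν q`
(`vn_prodMatrix`); the average over `ε` is `⊗ diag(1-t,t)`, of entropy `n · binEntropy t`.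
-/

namespace Vale.Agent.P358

open Matrix
open scoped ComplexOrder

/-- tensor product of 2 by 2 matrices, indexed by bit strings -/
noncomputable def prodMatrix {n : ℕ} (τ : Fin n → Matrix (Fin 2) (Fin 2) ℂ) :
    Matrix (Fin n → Fin 2) (Fin n → Fin 2) ℂ :=
  fun x y => ∏ i, τ i (x i) (y i)

theorem prodMatrix_apply {n : ℕ} (τ : Fin n → Matrix (Fin 2) (Fin 2) ℂ) (x y : Fin n → Fin 2) :
    prodMatrix τ x y = ∏ i, τ i (x i) (y i) := rfl

/-- exchanging product and sum over bit strings -/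
theorem sum_prod_bits {n : ℕ} (f : Fin n → Fin 2 → ℂ) :
    ∑ x : Fin n → Fin 2, ∏ i, f i (x i) = ∏ i, ∑ a, f i a := by
  rw [Finset.prod_univ_sum]
  simp [Fintype.piFinset_univ]

theorem gadc_eq_sum (γ ν : ℝ) (τ : Matrix (Fin 2) (Fin 2) ℂ) (x y : Fin 2) :
    ∑ a : Fin 2, ∑ b : Fin 2, gadc γ ν (Matrix.single a b 1) x y * τ a b = gadc γ ν τ x y := by
  fin_cases x <;> fin_cases y <;>
    simp [gadc, Fin.sum_univ_two, Matrix.trace_fin_two, Matrix.single_apply] <;> ring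

/-- the tensor power acts factorwise on product matrices -/
theorem tensorPow_prodMatrix {n : ℕ} (γ ν : ℝ) (τ : Fin n → Matrix (Fin 2) (Fin 2) ℂ) :
    tensorPow (gadc γ ν) n (prodMatrix τ) = prodMatrix (fun i => gadc γ ν (τ i)) := by
  ext x y
  have h1 : ∀ i, gadc γ ν (τ i) (x i) (y i) = ∑ a : Fin 2, ∑ b : Fin 2,
      gadc γ ν (Matrix.single a b 1) (x i) (y i) * τ i a b := fun i =>
    (gadc_eq_sum γ ν (τ i) (x i) (y i)).symm
  rw [prodMatrix_apply]
  simp_rw [h1]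
  rw [← sum_prod_bits]
  unfold tensorPow
  refine Finset.sum_congr rfl fun x' _ => ?_
  rw [← sum_prod_bits (fun i b => gadc γ ν (Matrix.single (x' i) b 1) (x i) (y i) * τ i (x' i) b)]
  refine Finset.sum_congr rfl fun y' _ => ?_
  rw [prodMatrix_apply, ← Finset.prod_mul_distrib]

theorem prodMatrix_mul {n : ℕ} (σ τ : Fin n → Matrix (Fin 2) (Fin 2) ℂ) :
    prodMatrix σ * prodMatrix τ = prodMatrix (fun i => σ i * τ i) := by
  ext x y
  rw [Matrix.mul_apply, prodMatrix_apply]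
  simp_rw [Matrix.mul_apply]
  rw [← sum_prod_bits (fun i a => σ i (x i) a * τ i a (y i))]
  refine Finset.sum_congr rfl fun z _ => ?_
  rw [prodMatrix_apply, prodMatrix_apply, ← Finset.prod_mul_distrib]

theorem prodMatrix_conjTranspose {n : ℕ} (τ : Fin n → Matrix (Fin 2) (Fin 2) ℂ) :
    (prodMatrix τ)ᴴ = prodMatrix (fun i => (τ i)ᴴ) := by
  ext x y
  rw [Matrix.conjTranspose_apply, prodMatrix_apply, prodMatrix_apply, star_prod]
  rfl

theorem prodMatrix_diagonal {n : ℕ} (d : Fin n → Fin 2 → ℂ) :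
    prodMatrix (fun i => diagonal (d i)) = diagonal (fun x => ∏ i, d i (x i)) := by
  ext x y
  rw [prodMatrix_apply]
  by_cases h : x = y
  · subst h
    simp
  · rw [Matrix.diagonal_apply_ne _ h]
    obtain ⟨i, hi⟩ := Function.ne_iff.1 h
    exact Finset.prod_eq_zero (Finset.mem_univ i) (Matrix.diagonal_apply_ne _ hi)

theorem prodMatrix_one {n : ℕ} :
    prodMatrix (fun _ : Fin n => (1 : Matrix (Fin 2) (Fin 2) ℂ)) = 1 := by
  rw [show (1 : Matrix (Fin 2) (Fin 2) ℂ) = diagonal (fun _ => 1) from Matrix.diagonal_one.symm,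
    prodMatrix_diagonal (fun _ _ => 1)]
  simp

theorem exists_sqrt {m : Type*} [Fintype m] [DecidableEq m] {A : Matrix m m ℂ}
    (hA : A.PosSemidef) : ∃ B : Matrix m m ℂ, A = Bᴴ * B := by
  obtain ⟨U, _, _, h3⟩ := exists_diag hA.1
  refine ⟨diagonal (fun i => ((Real.sqrt (hA.1.eigenvalues i) : ℝ) : ℂ)) * Uᴴ, ?_⟩
  have e : (diagonal (fun i => ((Real.sqrt (hA.1.eigenvalues i) : ℝ) : ℂ)))ᴴ *
      diagonal (fun i => ((Real.sqrt (hA.1.eigenvalues i) : ℝ) : ℂ)) =
      diagonal (fun i => (hA.1.eigenvalues i : ℂ)) := by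
    rw [Matrix.diagonal_conjTranspose, Matrix.diagonal_mul_diagonal]
    congr 1
    funext i
    have h4 := Real.mul_self_sqrt (hA.eigenvalues_nonneg i)
    have h5 : star (fun i => ((Real.sqrt (hA.1.eigenvalues i) : ℝ) : ℂ)) i =
        ((Real.sqrt (hA.1.eigenvalues i) : ℝ) : ℂ) := Complex.conj_ofReal _
    rw [h5, ← Complex.ofReal_mul, h4]
  rw [Matrix.conjTranspose_mul, Matrix.conjTranspose_conjTranspose]
  conv_lhs => rw [h3, ← e]
  simp only [mul_assoc]

theorem prodMatrix_posSemidef {n : ℕ} (τ : Fin n → Matrix (Fin 2) (Fin 2) ℂ)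
    (h : ∀ i, (τ i).PosSemidef) : (prodMatrix τ).PosSemidef := by
  have h1 : ∀ i, ∃ B : Matrix (Fin 2) (Fin 2) ℂ, τ i = Bᴴ * B := fun i =>
    exists_sqrt (h i)
  choose B hB using h1
  have h2 : prodMatrix τ = (prodMatrix B)ᴴ * prodMatrix B := by
    rw [prodMatrix_conjTranspose, prodMatrix_mul]
    congr 1
    funext i
    exact hB i
  rw [h2]
  exact Matrix.posSemidef_conjTranspose_mul_self _

theorem prodMatrix_trace {n : ℕ} (τ : Fin n → Matrix (Fin 2) (Fin 2) ℂ) :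
    (prodMatrix τ).trace = ∏ i, (τ i).trace := by
  unfold Matrix.trace
  rw [← sum_prod_bits (fun i a => (τ i).diag a)]
  rfl

/-- entropy of a product matrix -/
theorem vn_prodMatrix {n : ℕ} (τ : Fin n → Matrix (Fin 2) (Fin 2) ℂ)
    (h : ∀ i, (τ i).IsHermitian) (h1 : ∀ i, (τ i).trace = 1) :
    vn (prodMatrix τ) = ∑ i, vn (τ i) := by
  have hd := fun i => exists_diag (h i)
  choose U hU1 _ hU3 using hd
  have e1 : prodMatrix τ = prodMatrix U *
      diagonal (fun x => ((∏ i, (h i).eigenvalues (x i) : ℝ) : ℂ)) * (prodMatrix U)ᴴ := by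
    have e2 : diagonal (fun x : Fin n → Fin 2 => ((∏ i, (h i).eigenvalues (x i) : ℝ) : ℂ)) =
        prodMatrix (fun i => diagonal (fun a => ((h i).eigenvalues a : ℂ))) := by
      rw [prodMatrix_diagonal]
      push_cast
      rfl
    rw [e2, prodMatrix_conjTranspose, prodMatrix_mul, prodMatrix_mul]
    congr 1
    funext i
    exact hU3 i
  have e3 : (prodMatrix U)ᴴ * prodMatrix U = 1 := by
    rw [prodMatrix_conjTranspose, prodMatrix_mul, ← prodMatrix_one]
    congr 1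
    funext i
    exact hU1 i
  have e4 : (diagonal (fun x : Fin n → Fin 2 => ((∏ i, (h i).eigenvalues (x i) : ℝ) : ℂ)) :
      Matrix _ _ ℂ).IsHermitian := by
    rw [Matrix.isHermitian_diagonal_iff]
    intro i
    exact Complex.conj_ofReal _
  rw [e1, vn_conj_unitary _ _ e4 e3, vn_diagonal,
    entropy_prod (fun i b => (h i).eigenvalues b)]
  · exact Finset.sum_congr rfl fun i _ => (vn_of_isHermitian (h i)).symm
  · intro i
    have := rtr_eq_sum_eigenvalues (h i)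
    rw [← this, rtr, h1 i, Complex.one_re]

/-- entropy of a 2 by 2 Hermitian matrix of trace one -/
theorem vn_two' {τ : Matrix (Fin 2) (Fin 2) ℂ} (h : τ.IsHermitian) (h1 : τ.trace = 1) :
    vn τ = Real.binEntropy ((1 + Real.sqrt (1 - 4 * τ.det.re)) / 2) := by
  have h2 := rtr_eq_sum_eigenvalues h
  rw [rtr, h1, Complex.one_re, Fin.sum_univ_two] at h2
  have h3 := h.det_eq_prod_eigenvalues
  rw [Fin.prod_univ_two] at h3
  have h4 : τ.det.re = h.eigenvalues 0 * h.eigenvalues 1 := by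
    rw [h3]
    simp
  rw [vn_of_isHermitian h, Fin.sum_univ_two, h4]
  set a := h.eigenvalues 0
  set b := h.eigenvalues 1
  have hb : b = 1 - a := by linarith
  have h5 : 1 - 4 * (a * b) = (a - b) ^ 2 := by rw [hb]; ring
  rw [h5, Real.sqrt_sq_eq_abs, hb]
  rcases le_total 0 (a - (1 - a)) with h6 | h6
  · rw [abs_of_nonneg h6, show (1 + (a - (1 - a))) / 2 = a by ring,
      Real.binEntropy_eq_negMulLog_add_negMulLog_one_sub]
  · rw [abs_of_nonpos h6, show (1 + -(a - (1 - a))) / 2 = 1 - a by ring,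
      Real.binEntropy_one_sub, Real.binEntropy_eq_negMulLog_add_negMulLog_one_sub]

/-- entropy of a 2 by 2 positive semidefinite matrix of trace one -/
theorem vn_two {τ : Matrix (Fin 2) (Fin 2) ℂ} (h : τ.PosSemidef) (h1 : τ.trace = 1) :
    vn τ = Real.binEntropy ((1 + Real.sqrt (1 - 4 * τ.det.re)) / 2) :=
  vn_two' h.1 h1

theorem entropyBits_eq {m : Type*} [Fintype m] [DecidableEq m] (ρ : Matrix m m ℂ) :
    entropyBits ρ = vn ρ / Real.log 2 := by
  unfold entropyBits vn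
  split_ifs <;> simp

/-- the pure states of the optimal ensemble -/
noncomputable def psiSt (q s : ℝ) : Matrix (Fin 2) (Fin 2) ℂ :=
  !![((1 - q : ℝ) : ℂ), (s : ℂ); (s : ℂ), (q : ℂ)]

theorem psiSt_trace (q s : ℝ) : (psiSt q s).trace = 1 := by
  simp [psiSt, Matrix.trace, Fin.sum_univ_two]

theorem psiSt_posSemidef {q s : ℝ} (hq : q ∈ Set.Icc (0 : ℝ) 1) (hs : s ^ 2 = q * (1 - q)) :
    (psiSt q s).PosSemidef := by
  -- `ψ = ψᴴ * ψ`
  have h1 : psiSt q s = (psiSt q s)ᴴ * psiSt q s := by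
    have h2 : (s : ℂ) ^ 2 = (q : ℂ) * (1 - q) := by exact_mod_cast hs
    ext i j
    rw [Matrix.mul_apply, Fin.sum_univ_two, Matrix.conjTranspose_apply, Matrix.conjTranspose_apply]
    fin_cases i <;> fin_cases j <;> simp [psiSt] <;>
      first | linear_combination -h2 | linear_combination h2 | ring
  rw [h1]
  exact Matrix.posSemidef_conjTranspose_mul_self _

theorem gadc_psiSt_trace (γ ν q s : ℝ) : (gadc γ ν (psiSt q s)).trace = 1 := by
  simp [gadc, psiSt, Matrix.trace_fin_two]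

theorem gadc_psiSt_isHermitian (γ ν q s : ℝ) : (gadc γ ν (psiSt q s)).IsHermitian := by
  ext i j
  rw [Matrix.conjTranspose_apply]
  fin_cases i <;> fin_cases j <;> simp [gadc, psiSt, Matrix.trace_fin_two]

theorem gadc_psiSt_det {γ ν q s : ℝ} (hγ : γ ≤ 1) (hs : s ^ 2 = q * (1 - q)) :
    (gadc γ ν (psiSt q s)).det.re = ((1 - γ) * q + γ * ν) * (1 - ((1 - γ) * q + γ * ν)) -
      (1 - γ) * q * (1 - q) := by
  have h1 : Real.sqrt (1 - γ) ^ 2 = 1 - γ := Real.sq_sqrt (by linarith)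
  have h2 : (gadc γ ν (psiSt q s)).det =
      ((((1 - γ) * q + γ * ν) * (1 - ((1 - γ) * q + γ * ν)) -
      Real.sqrt (1 - γ) ^ 2 * s ^ 2 : ℝ) : ℂ) := by
    rw [Matrix.det_fin_two]
    simp [gadc, psiSt, Matrix.trace_fin_two]
    ring
  rw [h2, Complex.ofReal_re, h1, hs]
  ring

theorem vn_gadc_psiSt {γ ν q s : ℝ} (hγ : γ ≤ 1) (hs : s ^ 2 = q * (1 - q)) :
    vn (gadc γ ν (psiSt q s)) = sq γ ν q := by
  rw [vn_two' (gadc_psiSt_isHermitian γ ν q s) (gadc_psiSt_trace γ ν q s), gadc_psiSt_det hγ hs]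
  rfl

/-- the averaged output -/
theorem vn_diag_two (t : ℝ) :
    vn (diagonal (fun a : Fin 2 => ((![1 - t, t] a : ℝ) : ℂ))) = Real.binEntropy t := by
  rw [vn_diagonal, Fin.sum_univ_two, Real.binEntropy_eq_negMulLog_add_negMulLog_one_sub]
  simp [add_comm]

/-- the lower bound -/
theorem holevo_lower {n : ℕ} {γ ν : ℝ} (hγ : γ ∈ Set.Icc (0 : ℝ) 1)
    (hν : ν ∈ Set.Icc (0 : ℝ) 1) {q : ℝ} (hq : q ∈ Set.Icc (0 : ℝ) 1) :
    ∃ v ∈ holevoSet (tensorPow (gadc γ ν) n), n * rate γ ν q ≤ v := by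
  let s : Fin 2 → ℝ := ![Real.sqrt (q * (1 - q)), -Real.sqrt (q * (1 - q))]
  have hs : ∀ e, s e ^ 2 = q * (1 - q) := by
    have h0 : Real.sqrt (q * (1 - q)) ^ 2 = q * (1 - q) :=
      Real.sq_sqrt (mul_nonneg hq.1 (by linarith [hq.2]))
    intro e
    fin_cases e
    · exact h0
    · show (-Real.sqrt (q * (1 - q))) ^ 2 = _
      rw [neg_sq, h0]
  let ρ : (Fin n → Fin 2) → Matrix (Fin n → Fin 2) (Fin n → Fin 2) ℂ :=
    fun e => prodMatrix (fun i => psiSt q (s (e i)))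
  let E : Fin (2 ^ n) ≃ (Fin n → Fin 2) := finFunctionFinEquiv.symm
  set t : ℝ := (1 - γ) * q + γ * ν with ht
  have hN : ∀ e, tensorPow (gadc γ ν) n (ρ e) =
      prodMatrix (fun i => gadc γ ν (psiSt q (s (e i)))) := fun e =>
    tensorPow_prodMatrix γ ν _
  have hvn : ∀ e, vn (tensorPow (gadc γ ν) n (ρ e)) = n * sq γ ν q := by
    intro e
    rw [hN, vn_prodMatrix _ (fun i => gadc_psiSt_isHermitian _ _ _ _)
      (fun i => gadc_psiSt_trace _ _ _ _)]
    simp_rw [vn_gadc_psiSt hγ.2 (hs _)]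
    simp
  have havg : ∑ a : Fin (2 ^ n), (((1 / 2 : ℝ) ^ n : ℝ) : ℂ) • tensorPow (gadc γ ν) n (ρ (E a)) =
      prodMatrix (fun _ => diagonal (fun a : Fin 2 => ((![1 - t, t] a : ℝ) : ℂ))) := by
    rw [E.sum_comp (fun e => (((1 / 2 : ℝ) ^ n : ℝ) : ℂ) • tensorPow (gadc γ ν) n (ρ e))]
    ext x y
    rw [Matrix.sum_apply, prodMatrix_apply]
    have h1 : ∀ i : Fin n, diagonal (fun a : Fin 2 => ((![1 - t, t] a : ℝ) : ℂ)) (x i) (y i) =
        ∑ e : Fin 2, ((1 / 2 : ℝ) : ℂ) * gadc γ ν (psiSt q (s e)) (x i) (y i) := by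
      intro i
      rw [Fin.sum_univ_two]
      generalize x i = a
      generalize y i = b
      fin_cases a <;> fin_cases b <;>
        simp [gadc, psiSt, Matrix.trace_fin_two, s, ht] <;> ring
    simp_rw [h1]
    rw [← sum_prod_bits (fun i e => ((1 / 2 : ℝ) : ℂ) * gadc γ ν (psiSt q (s e)) (x i) (y i))]
    refine Finset.sum_congr rfl fun e _ => ?_
    rw [Matrix.smul_apply, hN, prodMatrix_apply, Finset.prod_mul_distrib]
    simp
  have hvavg : vn (∑ a : Fin (2 ^ n), (((1 / 2 : ℝ) ^ n : ℝ) : ℂ) •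
      tensorPow (gadc γ ν) n (ρ (E a))) = n * Real.binEntropy t := by
    rw [havg, vn_prodMatrix]
    · simp_rw [vn_diag_two]
      simp
    · intro i
      rw [Matrix.isHermitian_diagonal_iff]
      intro i
      exact Complex.conj_ofReal _
    · intro i
      rw [Matrix.trace_diagonal, Fin.sum_univ_two]
      simp
  refine ⟨_, ⟨2 ^ n, fun _ => (1 / 2 : ℝ) ^ n, fun a => ρ (E a), ?_, ?_, ?_, rfl⟩, ?_⟩
  · intro a; positivity
  · rw [Finset.sum_const, Finset.card_univ, Fintype.card_fin, nsmul_eq_mul]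
    push_cast
    rw [← mul_pow]
    norm_num
  · intro a
    refine ⟨prodMatrix_posSemidef _ fun i => psiSt_posSemidef hq (hs _), ?_⟩
    rw [prodMatrix_trace]
    simp_rw [psiSt_trace]
    simp
  · rw [entropyBits_eq, hvavg]
    simp_rw [entropyBits_eq, hvn]
    rw [← Finset.sum_mul, Finset.sum_const, Finset.card_univ, Fintype.card_fin, nsmul_eq_mul]
    have h2 : ((2 ^ n : ℕ) : ℝ) * (1 / 2 : ℝ) ^ n = 1 := by
      push_cast
      rw [← mul_pow]
      norm_num
    rw [h2, rate_eq]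
    apply le_of_eq
    ring

end Vale.Agent.P358
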