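import Vale.Agent.P358.Tensor
import Vale.Agent.P358.Lower

/-!
# P358 [Z]: final assembly
-/

namespace Vale.Agent.P358

open Matrix
open scoped ComplexOrder

theorem entropyBits_eq_vn {m : Type*} [Fintype m] [DecidableEq m] (T : Matrix m m ℂ) :
    entropyBits T = vn T / Real.log 2 := by
  unfold entropyBits vn
  split_ifs <;> simp

theorem entropyBits_submatrix_equiv {m k : Type*} [Fintype m] [DecidableEq m] [Fintype k]
    [DecidableEq k] (A : Matrix m m ℂ) (e : k ≃ m) :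
    entropyBits (A.submatrix e e) = entropyBits A := by
  rw [entropyBits_eq_vn, entropyBits_eq_vn, vn_submatrix_equiv]

/-- the channel in terms of its kernel -/
theorem gadc_apply (γ ν : ℝ) (ρ : Matrix (Fin 2) (Fin 2) ℂ) (a b : Fin 2) :
    gadc γ ν ρ a b = ∑ a' : Fin 2, ∑ b' : Fin 2,
      gadc γ ν (Matrix.single a' b' 1) a b * ρ a' b' := by
  fin_cases a <;> fin_cases b <;>
    simp [gadc, Matrix.trace_fin_two, Fin.sum_univ_two, Matrix.single_apply] <;> ring

/-- bit strings of length one -/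
def oneBit : (Fin 1 → Fin 2) ≃ Fin 2 := Equiv.funUnique (Fin 1) (Fin 2)

theorem oneBit_apply (x : Fin 1 → Fin 2) : oneBit x = x 0 := rfl

theorem tensorPow_one (γ ν : ℝ) (ρ : Matrix (Fin 2) (Fin 2) ℂ) :
    tensorPow (gadc γ ν) 1 (ρ.submatrix oneBit oneBit) =
      (gadc γ ν ρ).submatrix oneBit oneBit := by
  ext x y
  rw [Matrix.submatrix_apply, gadc_apply]
  unfold tensorPow
  rw [← oneBit.sum_comp]
  refine Finset.sum_congr rfl fun x' _ => ?_
  rw [← oneBit.sum_comp]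
  refine Finset.sum_congr rfl fun y' _ => ?_
  rw [Fin.prod_univ_one]
  rfl

/-- one use: the channel itself and its first tensor power have the same Holevo quantities -/
theorem holevoSet_one (γ ν : ℝ) :
    holevoSet (gadc γ ν) = holevoSet (tensorPow (gadc γ ν) 1) := by
  have hS : ∀ {K : ℕ} (q : Fin K → ℝ) (ρ : Fin K → Matrix (Fin 2) (Fin 2) ℂ),
      entropyBits (∑ a, (q a : ℂ) • tensorPow (gadc γ ν) 1 ((ρ a).submatrix oneBit oneBit)) -
        ∑ a, q a * entropyBits (tensorPow (gadc γ ν) 1 ((ρ a).submatrix oneBit oneBit)) =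
      entropyBits (∑ a, (q a : ℂ) • gadc γ ν (ρ a)) - ∑ a, q a * entropyBits (gadc γ ν (ρ a)) := by
    intro K q ρ
    simp_rw [tensorPow_one, entropyBits_submatrix_equiv]
    congr 1
    rw [← entropyBits_submatrix_equiv (∑ a, (q a : ℂ) • gadc γ ν (ρ a)) oneBit]
    congr 1
    ext x y
    simp [Matrix.sum_apply]
  have htr : ∀ σ : Matrix (Fin 2) (Fin 2) ℂ, (σ.submatrix oneBit oneBit).trace = σ.trace := by
    intro σ
    exact oneBit.sum_comp (fun i => σ i i)
  ext v
  constructor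
  · rintro ⟨K, q, ρ, hq, h1, hρ, rfl⟩
    refine ⟨K, q, fun a => (ρ a).submatrix oneBit oneBit, hq, h1, fun a => ⟨?_, ?_⟩, (hS q ρ).symm⟩
    · exact (hρ a).1.submatrix oneBit
    · rw [htr, (hρ a).2]
  · rintro ⟨K, q, ρ, hq, h1, hρ, rfl⟩
    have h2 : ∀ a, ρ a = ((ρ a).submatrix oneBit.symm oneBit.symm).submatrix oneBit oneBit := by
      intro a
      rw [Matrix.submatrix_submatrix, Equiv.symm_comp_self, Matrix.submatrix_id_id]
    refine ⟨K, q, fun a => (ρ a).submatrix oneBit.symm oneBit.symm, hq, h1, fun a => ⟨?_, ?_⟩, ?_⟩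
    · exact (hρ a).1.submatrix oneBit.symm
    · rw [← htr, ← h2, (hρ a).2]
    · rw [← hS q (fun a => (ρ a).submatrix oneBit.symm oneBit.symm)]
      simp_rw [← h2]

theorem final (γ ν : ℝ) (hγ : γ ∈ Set.Icc (0 : ℝ) 1) (hν : ν ∈ Set.Icc (0 : ℝ) 1) :
    (BddAbove (holevoSet (gadc γ ν)) ∧ (holevoSet (gadc γ ν)).Nonempty) ∧
    (∀ n : ℕ, 1 ≤ n → BddAbove (holevoSet (tensorPow (gadc γ ν) n)) ∧
      (holevoSet (tensorPow (gadc γ ν) n)).Nonempty ∧
      holevoCapacity (tensorPow (gadc γ ν) n) = n * holevoCapacity (gadc γ ν)) ∧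
    classicalCapacity (gadc γ ν) = holevoCapacity (gadc γ ν) ∧
    IsGreatest (rate γ ν '' Set.Icc (0 : ℝ) 1) (classicalCapacity (gadc γ ν)) := by
  obtain ⟨q₀, hq₀, hmax⟩ := (isCompact_Icc (a := (0 : ℝ)) (b := 1)).exists_isMaxOn
    ⟨0, by norm_num⟩ (rate_continuous γ ν).continuousOn
  set R := rate γ ν q₀ with hR
  have hR1 : ∀ q ∈ Set.Icc (0 : ℝ) 1, rate γ ν q ≤ R := fun q hq => hmax hq
  have hset : ∀ n : ℕ, IsGreatest (holevoSet (tensorPow (gadc γ ν) n)) (n * R) := by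
    intro n
    obtain ⟨v, hv, hv2⟩ := holevo_lower (n := n) hγ hν hq₀
    have hv3 := holevo_upper hγ hν hR1 hv
    have hv4 : v = n * R := le_antisymm hv3 hv2
    exact ⟨hv4 ▸ hv, fun w hw => holevo_upper hγ hν hR1 hw⟩
  have hcap : ∀ n : ℕ, holevoCapacity (tensorPow (gadc γ ν) n) = n * R :=
    fun n => (hset n).csSup_eq
  have h1 : IsGreatest (holevoSet (gadc γ ν)) R := by
    have := hset 1
    rw [← holevoSet_one, Nat.cast_one, one_mul] at this
    exact this
  have hcap1 : holevoCapacity (gadc γ ν) = R := h1.csSup_eq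
  have hC : classicalCapacity (gadc γ ν) = R := by
    have hb : blockRates (gadc γ ν) = {R} := by
      ext c
      constructor
      · rintro ⟨n, hn, rfl⟩
        rw [hcap, Set.mem_singleton_iff]
        have : (n : ℝ) ≠ 0 := by positivity
        field_simp
      · rintro rfl
        refine ⟨1, le_rfl, ?_⟩
        rw [hcap]
        simp
    unfold classicalCapacity
    rw [hb, csSup_singleton]
  refine ⟨⟨h1.bddAbove, h1.nonempty⟩, fun n _ => ⟨(hset n).bddAbove, (hset n).nonempty, ?_⟩, ?_, ?_⟩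
  · rw [hcap, hcap1]
  · rw [hC, hcap1]
  · rw [hC]
    exact ⟨⟨q₀, hq₀, rfl⟩, by rintro _ ⟨q, hq, rfl⟩; exact hR1 q hq⟩

end Vale.Agent.P358
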