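import Vale.Agent.P358.N3

/-!
# P358 [D]: the main inequality for one use of the channel

With `a = 1-γν`, `b = γ(1-ν)`, `a' = γν`, `b' = 1-γ(1-ν)`, `c = √(1-γ)`, `c² = a b' - a' b`:
for `M = [[X,Z],[Z*,Y]] ≥ 0` and `ω = [[aX+bY, cZ],[cZ*, a'X+b'Y]]`,
`vnh ω ≥ shat γ ν (tr X) (tr Y) + vnh X + vnh Y`.

Proof. Cases `b = 0` (use `three_leaf'` with `a, a', δ = b'`, `g = c`), `a' = 0` (use `three_leaf`
with `a, b, δ = b'`), `tr X = 0` (then `X = 0, Z = 0`; `three_leaf` with `a := 0, g := 0, δ := b'`),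
`tr Y = 0` (mirror). Otherwise, with `r = tr Y / tr X`,
`D = (a + b r)(a' + b' r) - c² r = a a' + 2 a' b r + b b' r²`, `κ = b r (a' + b' r)/D`,
`1 - κ = a'(a + b r)/D`,
`ω = ω₁ + ω₂`, `ω₁ = [[a₁X + bY, κcZ],[κcZ*, δ₁Y]]`, `a₁ = κ(a+br) - br`, `δ₁ = κ(a'+b'r)/r`,
`a₁δ₁ = κ²c²`; `ω₂ = [[a₂X, (1-κ)cZ],[.., a'X + δ₂Y]]`, `a₂ = (1-κ)(a+br)`,
`δ₂ = (1-κ)(b'+a'/r) - a'/r`, `a₂δ₂ = (1-κ)²c²`; `a₁+a₂ = a`, `δ₁+δ₂ = b'`.
The scalar parts of `three_leaf` for `ω₁`, `three_leaf'` for `ω₂` are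
`κ · shat` and `(1-κ) · shat` (`sc (k s) (k² P) = k sc s P`), and `vnh_superadd` adds up.
-/

namespace Vale.Agent.P358

open Matrix
open scoped ComplexOrder

/-- homogeneity of `sc` -/
theorem sc_smul {k : ℝ} (hk : 0 ≤ k) (s P : ℝ) : sc (k * s) (k ^ 2 * P) = k * sc s P := by
  have hs : Real.sqrt ((k * s) ^ 2 - 4 * (k ^ 2 * P)) = k * Real.sqrt (s ^ 2 - 4 * P) := by
    rw [show (k * s) ^ 2 - 4 * (k ^ 2 * P) = k ^ 2 * (s ^ 2 - 4 * P) by ring,
      Real.sqrt_mul (sq_nonneg k), Real.sqrt_sq hk]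
  have h1 : mup (k * s) (k ^ 2 * P) = k * mup s P := by
    unfold mup; rw [hs]; ring
  have h2 : mum (k * s) (k ^ 2 * P) = k * mum s P := by
    unfold mum; rw [hs]; ring
  have h3 : mup s P + mum s P = s := by unfold mup mum; ring
  unfold sc
  rw [h1, h2, Real.negMulLog_mul, Real.negMulLog_mul, Real.negMulLog_mul]
  linear_combination Real.negMulLog k * h3

section aux

variable {m : Type*} [Fintype m] [DecidableEq m]

/-- scaling the blocks of a positive semidefinite block matrix -/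
theorem posSemidef_scale {A B C D : Matrix m m ℂ} (h : (fromBlocks A B C D).PosSemidef)
    (s t : ℝ) :
    (fromBlocks (((s * s : ℝ) : ℂ) • A) (((s * t : ℝ) : ℂ) • B) (((s * t : ℝ) : ℂ) • C)
      (((t * t : ℝ) : ℂ) • D)).PosSemidef := by
  have h1 := h.mul_mul_conjTranspose_same
    (fromBlocks ((s : ℂ) • (1 : Matrix m m ℂ)) 0 0 ((t : ℂ) • (1 : Matrix m m ℂ)))
  convert h1 using 1
  rw [fromBlocks_conjTranspose, fromBlocks_multiply, fromBlocks_multiply]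
  simp only [conjTranspose_smul, conjTranspose_one, conjTranspose_zero, RCLike.star_def,
    Complex.conj_ofReal, Matrix.smul_mul, Matrix.mul_smul, Matrix.one_mul, Matrix.mul_one,
    Matrix.zero_mul, Matrix.mul_zero, add_zero, zero_add, smul_smul, Complex.ofReal_mul,
    mul_comm]

omit [Fintype m] [DecidableEq m] in
theorem posSemidef_swap {A B C D : Matrix m m ℂ} (h : (fromBlocks A B C D).PosSemidef) :
    (fromBlocks D C B A).PosSemidef := by
  have h1 := h.submatrix Sum.swap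
  convert h1 using 1
  ext i j
  rcases i with i | i <;> rcases j with j | j <;> rfl

theorem posSemidef_omega {X Z Y : Matrix m m ℂ} (hM : (fromBlocks X Z Zᴴ Y).PosSemidef)
    {α β g α' δ : ℝ} (hα : 0 ≤ α) (hδ : 0 ≤ δ) (hg : g ^ 2 = α * δ) (hg0 : 0 ≤ g)
    (hβ : 0 ≤ β) (hα' : 0 ≤ α') :
    (fromBlocks ((α : ℂ) • X + (β : ℂ) • Y) ((g : ℂ) • Z) ((g : ℂ) • Zᴴ)
      ((α' : ℂ) • X + (δ : ℂ) • Y)).PosSemidef := by
  have h1 := posSemidef_scale hM (Real.sqrt α) (Real.sqrt δ)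
  have h2 := posSemidef_scale (posSemidef_swap hM) (Real.sqrt β) 0
  have h3 := posSemidef_scale (posSemidef_swap hM) 0 (Real.sqrt α')
  have hgs : Real.sqrt α * Real.sqrt δ = g := by
    rw [← Real.sqrt_mul hα, ← hg, Real.sqrt_sq hg0]
  rw [Real.mul_self_sqrt hα, Real.mul_self_sqrt hδ, hgs] at h1
  rw [Real.mul_self_sqrt hβ] at h2
  rw [Real.mul_self_sqrt hα'] at h3
  have h4 := (h1.add h2).add h3
  convert h4 using 1
  rw [fromBlocks_add, fromBlocks_add]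
  simp [add_comm]

omit [Fintype m] [DecidableEq m] in
theorem posSemidef_left {X Z Y : Matrix m m ℂ} (hM : (fromBlocks X Z Zᴴ Y).PosSemidef) :
    X.PosSemidef := by
  exact hM.submatrix (Sum.inl : m → m ⊕ m)

omit [Fintype m] [DecidableEq m] in
theorem posSemidef_right {X Z Y : Matrix m m ℂ} (hM : (fromBlocks X Z Zᴴ Y).PosSemidef) :
    Y.PosSemidef := by
  exact hM.submatrix (Sum.inr : m → m ⊕ m)

omit [DecidableEq m] in
theorem eq_zero_of_rtr {X : Matrix m m ℂ} (hX : X.PosSemidef) (h : rtr X = 0) : X = 0 := by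
  have h1 := hX.trace_nonneg
  rw [Complex.le_def] at h1
  have h2 : X.trace = 0 := by
    apply Complex.ext
    · simpa [rtr] using h
    · simpa using h1.2.symm
  exact hX.trace_eq_zero_iff.mp h2

omit [DecidableEq m] in
theorem rtr_nn {X : Matrix m m ℂ} (hX : X.PosSemidef) : 0 ≤ rtr X := by
  have h1 := hX.trace_nonneg
  rw [Complex.le_def] at h1
  simpa [rtr] using h1.1

theorem offdiag_zero {Z Y : Matrix m m ℂ} (hM : (fromBlocks 0 Z Zᴴ Y).PosSemidef) : Z = 0 := by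
  have key : ∀ v : m → ℂ, Zᴴ *ᵥ v = 0 := by
    intro v
    have h1 : star (Sum.elim v (0 : m → ℂ)) ⬝ᵥ
        (fromBlocks 0 Z Zᴴ Y *ᵥ (Sum.elim v (0 : m → ℂ))) = 0 := by
      rw [fromBlocks_mulVec]
      simp [dotProduct, Fintype.sum_sum_type]
    have h2 := (hM.dotProduct_mulVec_zero_iff _).mp h1
    rw [fromBlocks_mulVec] at h2
    have h3 := congrArg (fun f => f ∘ Sum.inr) h2
    simpa using h3
  have h4 : Zᴴ = 0 := by
    ext i j
    have := congrFun (key (Pi.single j 1)) i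
    simpa using this
  simpa using congrArg conjTranspose h4

end aux

theorem main_core {m : Type*} [Fintype m] [DecidableEq m] (X Z Y : Matrix m m ℂ)
    (hM : (fromBlocks X Z Zᴴ Y).PosSemidef) {a b a' b' c : ℝ} (ha : 0 ≤ a) (hb : 0 ≤ b)
    (ha' : 0 ≤ a') (hb' : 0 ≤ b') (haa : a + a' = 1) (hbb : b + b' = 1) (hc : 0 ≤ c)
    (hc2 : c ^ 2 = a * b' - a' * b) :
    sc (rtr X + rtr Y) ((a * rtr X + b * rtr Y) * (a' * rtr X + b' * rtr Y) -
      c ^ 2 * (rtr X * rtr Y)) + vnh X + vnh Y ≤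
      vnh (fromBlocks ((a : ℂ) • X + (b : ℂ) • Y) ((c : ℂ) • Z) ((c : ℂ) • Zᴴ)
        ((a' : ℂ) • X + (b' : ℂ) • Y)) := by
  have hX := posSemidef_left hM
  have hY := posSemidef_right hM
  have hx := rtr_nn hX
  have hy := rtr_nn hY
  rcases hb.eq_or_lt with hb0 | hbpos
  · -- `b = 0`
    subst hb0
    have h := three_leaf' X Z Y hM (a := a) (a' := a') (δ := b') (g := c) ha ha' hb'
      (by rw [hc2]; ring)
    have hb1 : b' = 1 := by linarith
    have e1 : (a * rtr X + 0 * rtr Y) * (a' * rtr X + b' * rtr Y) - c ^ 2 * (rtr X * rtr Y) =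
        a * a' * rtr X ^ 2 := by
      rw [hc2]; ring
    have e2 : (a + a') * rtr X + b' * rtr Y = rtr X + rtr Y := by rw [haa, hb1]; ring
    rw [e2, haa, hb1] at h
    rw [e1, hb1]
    simpa using h
  rcases ha'.eq_or_lt with ha0 | hapos
  · -- `a' = 0`
    subst ha0
    have h := three_leaf X Z Y hM (a := a) (b := b) (δ := b') (g := c) ha hb hb'
      (by rw [hc2]; ring)
    have ha1 : a = 1 := by linarith
    have e1 : (a * rtr X + b * rtr Y) * (0 * rtr X + b' * rtr Y) - c ^ 2 * (rtr X * rtr Y) =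
        b * b' * rtr Y ^ 2 := by
      rw [hc2]; ring
    have e2 : a * rtr X + (b + b') * rtr Y = rtr X + rtr Y := by rw [hbb, ha1]; ring
    rw [e2, hbb, ha1] at h
    rw [e1, ha1]
    simpa using h
  rcases hx.eq_or_lt with hx0 | hxpos
  · -- `tr X = 0`
    have hX0 := eq_zero_of_rtr hX hx0.symm
    subst hX0
    have hZ0 := offdiag_zero hM
    subst hZ0
    have h := three_leaf 0 0 Y hM (a := 0) (b := b) (δ := b') (g := 0) le_rfl hb hb' (by ring)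
    have e0 : rtr (0 : Matrix m m ℂ) = 0 := hx0.symm
    rw [e0] at h ⊢
    have e1 : (a * 0 + b * rtr Y) * (a' * 0 + b' * rtr Y) - c ^ 2 * (0 * rtr Y) =
        b * b' * rtr Y ^ 2 := by ring
    have e2 : 0 * 0 + (b + b') * rtr Y = 0 + rtr Y := by rw [hbb]; ring
    rw [e2, hbb] at h
    rw [e1, vnh_zero]
    simpa using h
  rcases hy.eq_or_lt with hy0 | hypos
  · -- `tr Y = 0`
    have hY0 := eq_zero_of_rtr hY hy0.symm
    subst hY0
    have hZ0 : Z = 0 := by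
      have h1 := posSemidef_swap hM
      have h2 := offdiag_zero (Z := Zᴴ) (Y := X) (by simpa using h1)
      simpa using congrArg conjTranspose h2
    subst hZ0
    have h := three_leaf' X 0 0 hM (a := a) (a' := a') (δ := 0) (g := 0) ha ha' le_rfl (by ring)
    have e0 : rtr (0 : Matrix m m ℂ) = 0 := hy0.symm
    rw [e0] at h ⊢
    have e1 : (a * rtr X + b * 0) * (a' * rtr X + b' * 0) - c ^ 2 * (rtr X * 0) =
        a * a' * rtr X ^ 2 := by ring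
    have e2 : (a + a') * rtr X + 0 * 0 = rtr X + 0 := by rw [haa]; ring
    rw [e2, haa] at h
    rw [e1, vnh_zero]
    simpa using h
  -- the general case
  obtain ⟨r, hr⟩ : ∃ r, r = rtr Y / rtr X := ⟨_, rfl⟩
  have hrpos : 0 < r := by rw [hr]; positivity
  have hyx : rtr Y = r * rtr X := by rw [hr]; field_simp
  obtain ⟨D, hD⟩ : ∃ D, D = a * a' + 2 * a' * b * r + b * b' * r ^ 2 := ⟨_, rfl⟩
  have hDpos : 0 < D := by rw [hD]; positivity
  obtain ⟨κ, hκ⟩ : ∃ κ, κ = b * r * (a' + b' * r) / D := ⟨_, rfl⟩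
  have hκD : κ * D = b * r * (a' + b' * r) := by rw [hκ]; field_simp
  have hκ1D : (1 - κ) * D = a' * (a + b * r) := by
    have : (1 - κ) * D = D - κ * D := by ring
    rw [this, hκD, hD]; ring
  have hκ0 : 0 < κ := by
    rw [hκ]; positivity
  have hκ1 : 0 < 1 - κ := by
    have h1 : 0 < (1 - κ) * D := by rw [hκ1D]; positivity
    exact (mul_pos_iff_of_pos_right hDpos).mp h1
  have hcD : (a + b * r) * (a' + b' * r) - D = c ^ 2 * r := by rw [hD, hc2]; ring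
  obtain ⟨a₁, ha₁⟩ : ∃ a₁, a₁ = κ * (a + b * r) - b * r := ⟨_, rfl⟩
  obtain ⟨δ₁, hδ₁⟩ : ∃ δ₁, δ₁ = κ * (a' + b' * r) / r := ⟨_, rfl⟩
  obtain ⟨a₂, ha₂⟩ : ∃ a₂, a₂ = (1 - κ) * (a + b * r) := ⟨_, rfl⟩
  obtain ⟨δ₂, hδ₂⟩ : ∃ δ₂, δ₂ = (1 - κ) * (b' + a' / r) - a' / r := ⟨_, rfl⟩
  have hsa : a₁ + a₂ = a := by rw [ha₁, ha₂]; ring
  have hsδ : δ₁ + δ₂ = b' := by rw [hδ₁, hδ₂]; field_simp; ring
  have hδ₁r : δ₁ * r = κ * (a' + b' * r) := by rw [hδ₁]; field_simp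
  have hδ₂r : δ₂ * r = (1 - κ) * (b' * r + a') - a' := by rw [hδ₂]; field_simp
  have hδ₁pos : 0 < δ₁ := by rw [hδ₁]; positivity
  have ha₂pos : 0 < a₂ := by rw [ha₂]; positivity
  have hp1 : a₁ * δ₁ = (κ * c) ^ 2 := by
    have h1 : a₁ * (δ₁ * r) = κ * c * (κ * c) * r := by
      rw [hδ₁r, ha₁]
      have h2 : κ * c * (κ * c) * r = κ * (κ * (c ^ 2 * r)) := by ring
      rw [h2, ← hcD]
      have h3 : κ * (κ * ((a + b * r) * (a' + b' * r) - D)) =
          κ * (κ * ((a + b * r) * (a' + b' * r)) - κ * D) := by ring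
      rw [h3, hκD]; ring
    have h4 : (a₁ * δ₁ - (κ * c) ^ 2) * r = 0 := by linarith
    have h5 := (mul_eq_zero.mp h4).resolve_right hrpos.ne'
    linarith
  have hp2 : a₂ * δ₂ = ((1 - κ) * c) ^ 2 := by
    have h1 : a₂ * (δ₂ * r) = (1 - κ) * c * ((1 - κ) * c) * r := by
      rw [hδ₂r, ha₂]
      have h2 : (1 - κ) * c * ((1 - κ) * c) * r = (1 - κ) * ((1 - κ) * (c ^ 2 * r)) := by ring
      rw [h2, ← hcD]
      have h3 : (1 - κ) * ((1 - κ) * ((a + b * r) * (a' + b' * r) - D)) =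
          (1 - κ) * ((1 - κ) * ((a + b * r) * (a' + b' * r)) - (1 - κ) * D) := by ring
      rw [h3, hκ1D]; ring
    have h4 : (a₂ * δ₂ - ((1 - κ) * c) ^ 2) * r = 0 := by linarith
    have h5 := (mul_eq_zero.mp h4).resolve_right hrpos.ne'
    linarith
  have ha₁0 : 0 ≤ a₁ := by
    have h1 : 0 ≤ a₁ * δ₁ := by rw [hp1]; positivity
    exact nonneg_of_mul_nonneg_left h1 hδ₁pos
  have hδ₂0 : 0 ≤ δ₂ := by
    have h1 : 0 ≤ a₂ * δ₂ := by rw [hp2]; positivity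
    exact nonneg_of_mul_nonneg_right h1 ha₂pos
  have L1 := three_leaf X Z Y hM (a := a₁) (b := b) (δ := δ₁) (g := κ * c) ha₁0 hb hδ₁pos.le
    hp1.symm
  have L2 := three_leaf' X Z Y hM (a := a₂) (a' := a') (δ := δ₂) (g := (1 - κ) * c) ha₂pos.le ha'
    hδ₂0 hp2.symm
  have hκc : 0 ≤ κ * c := by positivity
  have hκc1 : 0 ≤ (1 - κ) * c := by positivity
  have P1 := posSemidef_omega hM (α := a₁) (β := b) (g := κ * c) (α' := 0) (δ := δ₁) ha₁0
    hδ₁pos.le hp1.symm hκc hb le_rfl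
  have P2 := posSemidef_omega hM (α := a₂) (β := 0) (g := (1 - κ) * c) (α' := a') (δ := δ₂)
    ha₂pos.le hδ₂0 hp2.symm hκc1 le_rfl ha'
  have S := vnh_superadd P1 P2
  have eω : fromBlocks ((a₁ : ℂ) • X + (b : ℂ) • Y) (((κ * c : ℝ) : ℂ) • Z)
        (((κ * c : ℝ) : ℂ) • Zᴴ) (((0 : ℝ) : ℂ) • X + (δ₁ : ℂ) • Y) +
      fromBlocks ((a₂ : ℂ) • X + ((0 : ℝ) : ℂ) • Y) ((((1 - κ) * c : ℝ) : ℂ) • Z)
        ((((1 - κ) * c : ℝ) : ℂ) • Zᴴ) ((a' : ℂ) • X + (δ₂ : ℂ) • Y) =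
      fromBlocks ((a : ℂ) • X + (b : ℂ) • Y) ((c : ℂ) • Z) ((c : ℂ) • Zᴴ)
        ((a' : ℂ) • X + (b' : ℂ) • Y) := by
    rw [fromBlocks_add]
    congr 1
    · rw [← hsa]; push_cast; module
    · push_cast; module
    · push_cast; module
    · rw [← hsδ]; push_cast; module
  rw [eω] at S
  have z1 : ((0 : ℝ) : ℂ) • X + (δ₁ : ℂ) • Y = (δ₁ : ℂ) • Y := by simp
  have z2 : (a₂ : ℂ) • X + ((0 : ℝ) : ℂ) • Y = (a₂ : ℂ) • X := by simp
  rw [z1, z2] at S
  -- the scalar parts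
  have q1 : a₁ * rtr X + (b + δ₁) * rtr Y = κ * (rtr X + rtr Y) := by
    rw [hyx]
    have : a₁ * rtr X + (b + δ₁) * (r * rtr X) = (a₁ + b * r + δ₁ * r) * rtr X := by ring
    rw [this, hδ₁r, ha₁]
    have h1 : a' + b' * r + (a + b * r) = 1 + r := by
      have : a' + b' * r + (a + b * r) = (a + a') + (b + b') * r := by ring
      rw [this, haa, hbb]; ring
    linear_combination κ * rtr X * h1
  have q2 : (a₂ + a') * rtr X + δ₂ * rtr Y = (1 - κ) * (rtr X + rtr Y) := by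
    rw [hyx]
    have : (a₂ + a') * rtr X + δ₂ * (r * rtr X) = (a₂ + a' + δ₂ * r) * rtr X := by ring
    rw [this, hδ₂r, ha₂]
    have h1 : a' + b' * r + (a + b * r) = 1 + r := by
      have : a' + b' * r + (a + b * r) = (a + a') + (b + b') * r := by ring
      rw [this, haa, hbb]; ring
    linear_combination (1 - κ) * rtr X * h1
  have q0 : (a * rtr X + b * rtr Y) * (a' * rtr X + b' * rtr Y) - c ^ 2 * (rtr X * rtr Y) =
      D * rtr X ^ 2 := by
    rw [hyx]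
    linear_combination rtr X ^ 2 * hcD
  have q3 : b * δ₁ * rtr Y ^ 2 = κ ^ 2 * (D * rtr X ^ 2) := by
    rw [hyx]
    linear_combination b * r * rtr X ^ 2 * hδ₁r - κ * rtr X ^ 2 * hκD
  have q4 : a₂ * a' * rtr X ^ 2 = (1 - κ) ^ 2 * (D * rtr X ^ 2) := by
    rw [ha₂]
    linear_combination -(1 - κ) * rtr X ^ 2 * hκ1D
  rw [q1, q3, sc_smul hκ0.le] at L1
  rw [q2, q4, sc_smul hκ1.le] at L2
  rw [q0]
  have f1 : a₁ * vnh X + (a₂ + a') * vnh X = vnh X := by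
    have : a₁ * vnh X + (a₂ + a') * vnh X = (a₁ + a₂ + a') * vnh X := by ring
    rw [this, hsa, haa, one_mul]
  have f2 : (b + δ₁) * vnh Y + δ₂ * vnh Y = vnh Y := by
    have : (b + δ₁) * vnh Y + δ₂ * vnh Y = (b + (δ₁ + δ₂)) * vnh Y := by ring
    rw [this, hsδ, hbb, one_mul]
  linarith

theorem main_ineq {m : Type*} [Fintype m] [DecidableEq m] (X Z Y : Matrix m m ℂ)
    (hM : (fromBlocks X Z Zᴴ Y).PosSemidef) {γ ν : ℝ} (hγ : γ ∈ Set.Icc (0 : ℝ) 1)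
    (hν : ν ∈ Set.Icc (0 : ℝ) 1) :
    shat γ ν (rtr X) (rtr Y) + vnh X + vnh Y ≤
      vnh (fromBlocks
        (((1 - γ * ν : ℝ) : ℂ) • X + ((γ * (1 - ν) : ℝ) : ℂ) • Y)
        ((Real.sqrt (1 - γ) : ℂ) • Z) ((Real.sqrt (1 - γ) : ℂ) • Zᴴ)
        (((γ * ν : ℝ) : ℂ) • X + ((1 - γ * (1 - ν) : ℝ) : ℂ) • Y)) := by
  obtain ⟨hγ0, hγ1⟩ := hγ
  obtain ⟨hν0, hν1⟩ := hν
  have hν1' : 0 ≤ 1 - ν := by linarith
  have h := main_core X Z Y hM (a := 1 - γ * ν) (b := γ * (1 - ν)) (a' := γ * ν)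
    (b' := 1 - γ * (1 - ν)) (c := Real.sqrt (1 - γ)) (by nlinarith) (mul_nonneg hγ0 hν1')
    (mul_nonneg hγ0 hν0) (by nlinarith) (by ring) (by ring) (Real.sqrt_nonneg _)
    (by rw [Real.sq_sqrt (by linarith)]; ring)
  rw [Real.sq_sqrt (by linarith : 0 ≤ 1 - γ)] at h
  exact h

end Vale.Agent.P358
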