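import Vale.Agent.P358.Basic

/-!
# P358 [M]: monotone lemma

If two finite families of nonnegative reals of the same size have the same sum and
`∑ log(l + t j) ≤ ∑ log(l + s i)` for every `l > 0`, then
`∑ negMulLog (t j) ≤ ∑ negMulLog (s i)`.

Proof. `Ξ(l) = ∑ (l+s_i) log(l+s_i) - ∑ (l+t_j) log(l+t_j)` has derivative
`∑ log(l+s_i) - ∑ log(l+t_j) ≥ 0` (equal cardinalities kill the constants), so it is monotone on
`(0,∞)`, and it tends to `0` as `l → ∞` (because `(l+s)log(l+s) = (l+s) log l + s + O(1/l)` and the
cardinalities and sums agree). Hence `Ξ(l) ≤ 0` for all `l > 0`, and by continuity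
(`x log x` is continuous) `Ξ(0) ≤ 0`, which is the claim.
-/

namespace Vale.Agent.P358

theorem sum_negMulLog_le_of_log {ι κ : Type*} [Fintype ι] [Fintype κ]
    (s : ι → ℝ) (t : κ → ℝ) (hs : ∀ i, 0 ≤ s i) (ht : ∀ j, 0 ≤ t j)
    (hcard : Fintype.card ι = Fintype.card κ) (hsum : ∑ i, s i = ∑ j, t j)
    (hlog : ∀ l : ℝ, 0 < l → ∑ j, Real.log (l + t j) ≤ ∑ i, Real.log (l + s i)) :
    ∑ j, Real.negMulLog (t j) ≤ ∑ i, Real.negMulLog (s i) := by
  classical
  set f : ℝ → ℝ := fun l => ∑ i, (l + s i) * Real.log (l + s i) - ∑ j, (l + t j) * Real.log (l + t j)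
    with hf
  have hcont : Continuous f := by
    apply Continuous.sub
    · apply continuous_finsetSum
      intro i _
      exact Real.continuous_mul_log.comp (continuous_id.add continuous_const)
    · apply continuous_finsetSum
      intro i _
      exact Real.continuous_mul_log.comp (continuous_id.add continuous_const)
  have hd1 : ∀ (c l : ℝ), 0 ≤ c → 0 < l →
      HasDerivAt (fun l => (l + c) * Real.log (l + c)) (Real.log (l + c) + 1) l := by
    intro c l hc hl
    have h1 : HasDerivAt (fun l : ℝ => l + c) 1 l := (hasDerivAt_id l).add_const c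
    have h2 := (Real.hasDerivAt_mul_log (show l + c ≠ 0 by positivity)).comp l h1
    rw [mul_one] at h2
    exact h2
  have hd : ∀ l : ℝ, 0 < l → HasDerivAt f
      (∑ i, (Real.log (l + s i) + 1) - ∑ j, (Real.log (l + t j) + 1)) l := by
    intro l hl
    apply HasDerivAt.sub
    · exact HasDerivAt.fun_sum (fun i _ => hd1 (s i) l (hs i) hl)
    · exact HasDerivAt.fun_sum (fun j _ => hd1 (t j) l (ht j) hl)
  have hmono : MonotoneOn f (Set.Ici 0) := by
    apply monotoneOn_of_deriv_nonneg (convex_Ici 0) hcont.continuousOn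
    · intro l hl
      rw [interior_Ici] at hl
      exact (hd l hl).differentiableAt.differentiableWithinAt
    · intro l hl
      rw [interior_Ici] at hl
      rw [(hd l hl).deriv]
      rw [Finset.sum_add_distrib, Finset.sum_add_distrib]
      have h1 := hlog l hl
      have h2 : ∑ _i : ι, (1 : ℝ) = ∑ _j : κ, (1 : ℝ) := by
        simp [hcard]
      linarith
  have hbound : ∀ L : ℝ, 0 < L → f L ≤ (∑ i, s i ^ 2) / L := by
    intro L hL
    have hlow : ∀ c : ℝ, 0 ≤ c → (L + c) * Real.log L + c ≤ (L + c) * Real.log (L + c) := by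
      intro c hc
      have h1 : Real.log (L + c) = Real.log L + Real.log (1 + c / L) := by
        rw [← Real.log_mul hL.ne' (by positivity)]
        congr 1
        field_simp
      have h2 : 1 - (1 + c / L)⁻¹ ≤ Real.log (1 + c / L) :=
        Real.one_sub_inv_le_log_of_pos (by positivity)
      have h3 : (L + c) * (1 - (1 + c / L)⁻¹) = c := by
        field_simp
        ring
      have h4 : (L + c) * (1 - (1 + c / L)⁻¹) ≤ (L + c) * Real.log (1 + c / L) :=
        mul_le_mul_of_nonneg_left h2 (by positivity)
      rw [h1]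
      linarith
    have hupp : ∀ c : ℝ, 0 ≤ c →
        (L + c) * Real.log (L + c) ≤ (L + c) * Real.log L + c + c ^ 2 / L := by
      intro c hc
      have h1 : Real.log (L + c) = Real.log L + Real.log (1 + c / L) := by
        rw [← Real.log_mul hL.ne' (by positivity)]
        congr 1
        field_simp
      have h2 : Real.log (1 + c / L) ≤ (1 + c / L) - 1 :=
        Real.log_le_sub_one_of_pos (by positivity)
      have h3 : (L + c) * ((1 + c / L) - 1) = c + c ^ 2 / L := by
        field_simp
        ring
      have h4 : (L + c) * Real.log (1 + c / L) ≤ (L + c) * ((1 + c / L) - 1) :=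
        mul_le_mul_of_nonneg_left h2 (by positivity)
      rw [h1]
      linarith
    have h1 : ∑ i, (L + s i) * Real.log (L + s i) ≤
        ∑ i, ((L + s i) * Real.log L + s i + s i ^ 2 / L) :=
      Finset.sum_le_sum (fun i _ => hupp (s i) (hs i))
    have h2 : ∑ j, ((L + t j) * Real.log L + t j) ≤ ∑ j, (L + t j) * Real.log (L + t j) :=
      Finset.sum_le_sum (fun j _ => hlow (t j) (ht j))
    have h3 : ∑ i, ((L + s i) * Real.log L + s i + s i ^ 2 / L)
        = (Fintype.card ι * L + ∑ i, s i) * Real.log L + ∑ i, s i + (∑ i, s i ^ 2) / L := by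
      rw [Finset.sum_add_distrib, Finset.sum_add_distrib, ← Finset.sum_mul, Finset.sum_add_distrib,
        Finset.sum_div]
      simp
    have h4 : ∑ j, ((L + t j) * Real.log L + t j)
        = (Fintype.card κ * L + ∑ j, t j) * Real.log L + ∑ j, t j := by
      rw [Finset.sum_add_distrib, ← Finset.sum_mul, Finset.sum_add_distrib]
      simp
    rw [h3] at h1
    rw [h4] at h2
    show ∑ i, (L + s i) * Real.log (L + s i) - ∑ j, (L + t j) * Real.log (L + t j) ≤ _
    rw [hcard, hsum] at h1
    linarith
  have h0 : f 0 ≤ 0 := by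
    by_contra hcon
    push Not at hcon
    set A := ∑ i, s i ^ 2 with hA
    have hA0 : 0 ≤ A := Finset.sum_nonneg (fun i _ => by positivity)
    have hL : 0 < (A + 1) / f 0 := by positivity
    have h1 := hmono (Set.self_mem_Ici) (show (A + 1) / f 0 ∈ Set.Ici (0 : ℝ) from hL.le) hL.le
    have h2 := hbound _ hL
    have h3 : A / ((A + 1) / f 0) < f 0 := by
      rw [div_div_eq_mul_div, div_lt_iff₀ (by positivity)]
      nlinarith
    linarith
  have h1 : f 0 = ∑ i, s i * Real.log (s i) - ∑ j, t j * Real.log (t j) := by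
    simp [hf]
  rw [h1] at h0
  simp only [Real.negMulLog, neg_mul, Finset.sum_neg_distrib]
  linarith

end Vale.Agent.P358
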