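import Vale.Agent.P358.Basic

/-!
# P358 [T]: superadditivity of the three-leaf function `T3`

`T3 (α u w) = ent α + ent u + ent w - ent μ₊ - ent μ₋`, `ent = negMulLog`,
`μ± = (s ± √(s²-4P))/2`, `s = α+u+w`, `P = u w`. It is homogeneous of degree one (the arguments
add up to `s` on both sides) and concave on the positive octant; hence superadditive.

Concavity along a line in the open octant (primes = derivatives, `Δ = μ₊ - μ₋ > 0`,
`L = log(μ₊/μ₋)/Δ`):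
`φ'' = -α'²/α - u'²/u - w'²/w + μ₊'²/μ₊ + μ₋'²/μ₋ + 2(μ₊'μ₋' - u'w') L`
(using `μ₊'' = -μ₋'' = 2(μ₊'μ₋' - u'w')/Δ`). The logarithmic mean inequality gives
`2/s ≤ L ≤ 1/√P`, and `φ''` is affine in `L`, so it is enough to check the two ends:
* at `L = 1/√P`: `φ'' = -α'²/α - 4ρ'² + 4σ'²` with `σ = √μ₊+√μ₋`, `ρ = √u+√w`, `σ² = ρ² + α`;
  `4σ'² = (α'+2ρρ')²/(α+ρ²) ≤ α'²/α + 4ρ'²` by Cauchy-Schwarz.
* at `L = 2/s`: `s φ'' = -α u (α'/α - u'/u)² - α w (α'/α - w'/w)² ≤ 0`.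
The closed octant follows by continuity (all functions are continuous; `s² - 4P ≥ 0` there).
-/

namespace Vale.Agent.P358
namespace T3aux

/-- second derivative expression -/
noncomputable def Q (a u w x y a1 u1 w1 m1 m2 L : ℝ) : ℝ :=
  -(a1 ^ 2 / a) - u1 ^ 2 / u - w1 ^ 2 / w + m1 ^ 2 / x + m2 ^ 2 / y + 2 * (m1 * m2 - u1 * w1) * L

theorem Q_low {a u w x y a1 u1 w1 m1 m2 : ℝ} (ha : 0 < a) (hu : 0 < u) (hw : 0 < w)
    (hx : 0 < x) (hy : 0 < y) (hs : x + y = a + u + w) (hP : x * y = u * w)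
    (hs1 : m1 + m2 = a1 + u1 + w1) (hP1 : m1 * y + x * m2 = u1 * w + u * w1) :
    Q a u w x y a1 u1 w1 m1 m2 (2 / (a + u + w)) ≤ 0 := by
  have hspos : 0 < a + u + w := by positivity
  have key : (a + u + w) * Q a u w x y a1 u1 w1 m1 m2 (2 / (a + u + w))
      = -(a * u * (a1 / a - u1 / u) ^ 2) - a * w * (a1 / a - w1 / w) ^ 2 := by
    have h1 : (x + y) * (m1 ^ 2 / x + m2 ^ 2 / y) + 4 * (m1 * m2)
        = (m1 + m2) ^ 2 + (m1 * y + x * m2) ^ 2 / (x * y) := by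
      field_simp
      ring
    have h2 : (a + u + w) * Q a u w x y a1 u1 w1 m1 m2 (2 / (a + u + w))
        = (a + u + w) * (-(a1 ^ 2 / a) - u1 ^ 2 / u - w1 ^ 2 / w) - 4 * (u1 * w1)
          + ((x + y) * (m1 ^ 2 / x + m2 ^ 2 / y) + 4 * (m1 * m2)) := by
      unfold Q
      rw [hs]
      field_simp
      ring
    rw [h2, h1, hs1, hP1, hP]
    field_simp
    ring
  have h3 : (a + u + w) * Q a u w x y a1 u1 w1 m1 m2 (2 / (a + u + w)) ≤ 0 := by
    rw [key]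
    have h4 : 0 ≤ a * u * (a1 / a - u1 / u) ^ 2 := by positivity
    have h5 : 0 ≤ a * w * (a1 / a - w1 / w) ^ 2 := by positivity
    linarith
  by_contra hcon
  push Not at hcon
  have := mul_pos hspos hcon
  linarith

theorem Q_up {a u w x y a1 u1 w1 m1 m2 : ℝ} (ha : 0 < a) (hu : 0 < u) (hw : 0 < w)
    (hx : 0 < x) (hy : 0 < y) (hs : x + y = a + u + w) (hP : x * y = u * w)
    (hs1 : m1 + m2 = a1 + u1 + w1) (hP1 : m1 * y + x * m2 = u1 * w + u * w1) :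
    Q a u w x y a1 u1 w1 m1 m2 (1 / Real.sqrt (u * w)) ≤ 0 := by
  obtain ⟨X, hX, rfl⟩ : ∃ X : ℝ, 0 < X ∧ x = X ^ 2 := ⟨Real.sqrt x, Real.sqrt_pos.2 hx,
    (Real.sq_sqrt hx.le).symm⟩
  obtain ⟨Y, hY, rfl⟩ : ∃ X : ℝ, 0 < X ∧ y = X ^ 2 := ⟨Real.sqrt y, Real.sqrt_pos.2 hy,
    (Real.sq_sqrt hy.le).symm⟩
  obtain ⟨U, hU, rfl⟩ : ∃ X : ℝ, 0 < X ∧ u = X ^ 2 := ⟨Real.sqrt u, Real.sqrt_pos.2 hu,
    (Real.sq_sqrt hu.le).symm⟩
  obtain ⟨W, hW, rfl⟩ : ∃ X : ℝ, 0 < X ∧ w = X ^ 2 := ⟨Real.sqrt w, Real.sqrt_pos.2 hw,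
    (Real.sq_sqrt hw.le).symm⟩
  have hXY : X * Y = U * W := by
    have h1 : (X * Y) ^ 2 = (U * W) ^ 2 := by rw [mul_pow, mul_pow]; exact hP
    exact (sq_eq_sq₀ (by positivity) (by positivity)).1 h1
  have hsq : Real.sqrt (U ^ 2 * W ^ 2) = U * W := by
    rw [← mul_pow]; exact Real.sqrt_sq (by positivity)
  rw [hsq]
  set A := m1 / X + m2 / Y with hA
  set B := u1 / U + w1 / W with hB
  have hQ : Q a (U ^ 2) (W ^ 2) (X ^ 2) (Y ^ 2) a1 u1 w1 m1 m2 (1 / (U * W))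
      = A ^ 2 - B ^ 2 - a1 ^ 2 / a := by
    have h1 : A ^ 2 = m1 ^ 2 / X ^ 2 + m2 ^ 2 / Y ^ 2 + 2 * (m1 * m2) * (1 / (U * W)) := by
      rw [hA, ← hXY]; field_simp; ring
    have h2 : B ^ 2 = u1 ^ 2 / U ^ 2 + w1 ^ 2 / W ^ 2 + 2 * (u1 * w1) * (1 / (U * W)) := by
      rw [hB]; field_simp; ring
    rw [h1, h2]; unfold Q; ring
  rw [hQ]
  have hA1 : (X + Y) * A = a1 + (U + W) * B := by
    have h1 : (X + Y) * A = (m1 + m2) + (m1 * Y ^ 2 + X ^ 2 * m2) / (X * Y) := by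
      rw [hA]; field_simp; ring
    have h2 : (U + W) * B = (u1 + w1) + (u1 * W ^ 2 + U ^ 2 * w1) / (U * W) := by
      rw [hB]; field_simp; ring
    rw [h1, h2, hs1, hP1, hXY]; ring
  have hS : (X + Y) ^ 2 = a + (U + W) ^ 2 := by nlinarith
  have h3 : (X + Y) ^ 2 * (A ^ 2 - B ^ 2 - a1 ^ 2 / a) = -((a1 * (U + W) - a * B) ^ 2 / a) := by
    have h4 : (X + Y) ^ 2 * A ^ 2 = (a1 + (U + W) * B) ^ 2 := by rw [← mul_pow, hA1]
    have h5 : (X + Y) ^ 2 * (A ^ 2 - B ^ 2 - a1 ^ 2 / a)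
        = (a1 + (U + W) * B) ^ 2 - (a + (U + W) ^ 2) * (B ^ 2 + a1 ^ 2 / a) := by
      rw [← h4, ← hS]; ring
    rw [h5]; field_simp; ring
  have h6 : (X + Y) ^ 2 * (A ^ 2 - B ^ 2 - a1 ^ 2 / a) ≤ 0 := by
    rw [h3]
    have : 0 ≤ (a1 * (U + W) - a * B) ^ 2 / a := by positivity
    linarith
  by_contra hcon
  push Not at hcon
  have := mul_pos (show 0 < (X + Y) ^ 2 by positivity) hcon
  linarith

theorem Q_le {a u w x y a1 u1 w1 m1 m2 L : ℝ} (ha : 0 < a) (hu : 0 < u) (hw : 0 < w)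
    (hx : 0 < x) (hy : 0 < y) (hs : x + y = a + u + w) (hP : x * y = u * w)
    (hs1 : m1 + m2 = a1 + u1 + w1) (hP1 : m1 * y + x * m2 = u1 * w + u * w1)
    (hL1 : 2 / (a + u + w) ≤ L) (hL2 : L ≤ 1 / Real.sqrt (u * w)) :
    Q a u w x y a1 u1 w1 m1 m2 L ≤ 0 := by
  have h1 := Q_low ha hu hw hx hy hs hP hs1 hP1
  have h2 := Q_up ha hu hw hx hy hs hP hs1 hP1
  unfold Q at *
  rcases le_total 0 (m1 * m2 - u1 * w1) with h | h
  · nlinarith [mul_le_mul_of_nonneg_left hL2 h]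
  · nlinarith [mul_le_mul_of_nonpos_left hL1 h]

/-- logarithmic mean inequalities -/
theorem logmean_low {x y : ℝ} (hy : 0 < y) (hxy : y < x) :
    2 / (x + y) ≤ (Real.log x - Real.log y) / (x - y) := by
  have hx : 0 < x := hy.trans hxy
  rw [← Real.log_div hx.ne' hy.ne', le_div_iff₀ (by linarith)]
  have h1 := Real.le_log_one_add_of_nonneg (show 0 ≤ x / y - 1 by
    rw [sub_nonneg, le_div_iff₀ hy]; linarith)
  have h2 : 1 + (x / y - 1) = x / y := by ring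
  rw [h2] at h1
  refine le_trans (le_of_eq ?_) h1
  have h3 : x / y - 1 + 2 = (x + y) / y := by field_simp; ring
  have h4 : x / y - 1 = (x - y) / y := by field_simp
  rw [h3, h4]
  field_simp

theorem logmean_up {x y : ℝ} (hy : 0 < y) (hxy : y < x) :
    (Real.log x - Real.log y) / (x - y) ≤ 1 / Real.sqrt (x * y) := by
  have hx : 0 < x := hy.trans hxy
  obtain ⟨X, hX, rfl⟩ : ∃ X : ℝ, 0 < X ∧ x = X ^ 2 := ⟨Real.sqrt x, Real.sqrt_pos.2 hx,
    (Real.sq_sqrt hx.le).symm⟩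
  obtain ⟨Y, hY, rfl⟩ : ∃ X : ℝ, 0 < X ∧ y = X ^ 2 := ⟨Real.sqrt y, Real.sqrt_pos.2 hy,
    (Real.sq_sqrt hy.le).symm⟩
  have hXY : Y < X := lt_of_pow_lt_pow_left₀ 2 hX.le hxy
  have hsq : Real.sqrt (X ^ 2 * Y ^ 2) = X * Y := by
    rw [← mul_pow]; exact Real.sqrt_sq (by positivity)
  rw [hsq, div_le_div_iff₀ (by linarith) (by positivity), one_mul]
  have h1 : Real.log (X ^ 2) - Real.log (Y ^ 2) = 2 * Real.log (X / Y) := by
    rw [Real.log_pow, Real.log_pow, Real.log_div hX.ne' hY.ne']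
    push_cast; ring
  rw [h1]
  have hv : 1 ≤ X / Y := by rw [le_div_iff₀ hY]; linarith
  have h2 : Real.log (X / Y) ≤ Real.sinh (Real.log (X / Y)) :=
    Real.self_le_sinh_iff.2 (Real.log_nonneg hv)
  rw [Real.sinh_eq, Real.exp_neg, Real.exp_log (by positivity)] at h2
  have h3 : (X / Y - (X / Y)⁻¹) / 2 * (2 * (X * Y)) = X ^ 2 - Y ^ 2 := by
    field_simp
  have h4 := mul_le_mul_of_nonneg_right h2 (show 0 ≤ 2 * (X * Y) by positivity)
  rw [h3] at h4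
  linarith


/-- Concavity along a segment in the open octant. -/
theorem concave_line {α u w a1 u1 w1 : ℝ} (hα : 0 < α) (hu : 0 < u) (hw : 0 < w)
    (hα' : 0 < α + a1) (hu' : 0 < u + u1) (hw' : 0 < w + w1) :
    ConcaveOn ℝ (Set.Icc (0 : ℝ) 1) (fun τ => T3 (α + τ * a1) (u + τ * u1) (w + τ * w1)) := by
  -- positivity of a linear function on the segment
  have hpos : ∀ c d : ℝ, 0 < c → 0 < c + d → ∀ τ ∈ Set.Icc (0 : ℝ) 1, 0 < c + τ * d := by
    intro c d hc hd τ hτ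
    have h1 : c + τ * d = (1 - τ) * c + τ * (c + d) := by ring
    rw [h1]
    rcases eq_or_lt_of_le hτ.1 with h | h
    · rw [← h]; simpa using hc
    · have : 0 ≤ (1 - τ) * c := mul_nonneg (by linarith [hτ.2]) hc.le
      have := mul_pos h hd
      linarith
  let A : ℝ → ℝ := fun τ => α + τ * a1
  let U : ℝ → ℝ := fun τ => u + τ * u1
  let W : ℝ → ℝ := fun τ => w + τ * w1
  let S : ℝ → ℝ := fun τ => A τ + U τ + W τ
  let s1 : ℝ := a1 + u1 + w1
  let D : ℝ → ℝ := fun τ => S τ ^ 2 - 4 * (U τ * W τ)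
  let D1 : ℝ → ℝ := fun τ => 2 * S τ * s1 - 4 * (u1 * W τ + U τ * w1)
  let D2 : ℝ := 2 * s1 * s1 - 8 * (u1 * w1)
  let r : ℝ → ℝ := fun τ => Real.sqrt (D τ)
  let r1 : ℝ → ℝ := fun τ => D1 τ / (2 * r τ)
  let x : ℝ → ℝ := fun τ => (S τ + r τ) / 2
  let y : ℝ → ℝ := fun τ => (S τ - r τ) / 2
  let m1 : ℝ → ℝ := fun τ => (s1 + r1 τ) / 2
  let m2 : ℝ → ℝ := fun τ => (s1 - r1 τ) / 2
  let L : ℝ → ℝ := fun τ => (Real.log (x τ) - Real.log (y τ)) / (x τ - y τ)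
  let f : ℝ → ℝ := fun τ => T3 (A τ) (U τ) (W τ)
  let f1 : ℝ → ℝ := fun τ => -(a1 * Real.log (A τ)) - u1 * Real.log (U τ) - w1 * Real.log (W τ)
    + m1 τ * Real.log (x τ) + m2 τ * Real.log (y τ)
  let f2 : ℝ → ℝ := fun τ => Q (A τ) (U τ) (W τ) (x τ) (y τ) a1 u1 w1 (m1 τ) (m2 τ) (L τ)
  -- facts on the segment
  have hA : ∀ τ ∈ Set.Icc (0 : ℝ) 1, 0 < A τ := hpos α a1 hα hα'
  have hU : ∀ τ ∈ Set.Icc (0 : ℝ) 1, 0 < U τ := hpos u u1 hu hu'
  have hW : ∀ τ ∈ Set.Icc (0 : ℝ) 1, 0 < W τ := hpos w w1 hw hw'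
  have hS : ∀ τ ∈ Set.Icc (0 : ℝ) 1, 0 < S τ := by
    intro τ hτ
    have := hA τ hτ; have := hU τ hτ; have := hW τ hτ
    show 0 < A τ + U τ + W τ
    positivity
  have hD : ∀ τ ∈ Set.Icc (0 : ℝ) 1, 0 < D τ := by
    intro τ hτ
    have h1 := hA τ hτ; have h2 := hU τ hτ; have h3 := hW τ hτ
    have h4 : D τ = A τ ^ 2 + 2 * A τ * (U τ + W τ) + (U τ - W τ) ^ 2 := by
      show (A τ + U τ + W τ) ^ 2 - 4 * (U τ * W τ) = _
      ring
    rw [h4]; positivity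
  have hr : ∀ τ ∈ Set.Icc (0 : ℝ) 1, 0 < r τ := fun τ hτ => Real.sqrt_pos.2 (hD τ hτ)
  have hr2 : ∀ τ ∈ Set.Icc (0 : ℝ) 1, r τ ^ 2 = D τ := fun τ hτ => Real.sq_sqrt (hD τ hτ).le
  have hrS : ∀ τ ∈ Set.Icc (0 : ℝ) 1, r τ < S τ := by
    intro τ hτ
    apply lt_of_pow_lt_pow_left₀ 2 (hS τ hτ).le
    rw [hr2 τ hτ]
    show S τ ^ 2 - 4 * (U τ * W τ) < S τ ^ 2
    have := mul_pos (hU τ hτ) (hW τ hτ)
    linarith
  have hx : ∀ τ ∈ Set.Icc (0 : ℝ) 1, 0 < x τ := by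
    intro τ hτ
    have := hr τ hτ; have := hS τ hτ
    show 0 < (S τ + r τ) / 2
    positivity
  have hy : ∀ τ ∈ Set.Icc (0 : ℝ) 1, 0 < y τ := by
    intro τ hτ
    have := hrS τ hτ
    show 0 < (S τ - r τ) / 2
    linarith
  have hxy : ∀ τ, x τ - y τ = r τ := by
    intro τ
    show (S τ + r τ) / 2 - (S τ - r τ) / 2 = r τ
    ring
  have hsum : ∀ τ, x τ + y τ = S τ := by
    intro τ
    show (S τ + r τ) / 2 + (S τ - r τ) / 2 = S τ
    ring
  have hprod : ∀ τ ∈ Set.Icc (0 : ℝ) 1, x τ * y τ = U τ * W τ := by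
    intro τ hτ
    have h1 : x τ * y τ = (S τ ^ 2 - r τ ^ 2) / 4 := by
      show (S τ + r τ) / 2 * ((S τ - r τ) / 2) = _
      ring
    rw [h1, hr2 τ hτ]
    show (S τ ^ 2 - (S τ ^ 2 - 4 * (U τ * W τ))) / 4 = _
    ring
  have hrr : ∀ τ ∈ Set.Icc (0 : ℝ) 1, 2 * r τ * r1 τ = D1 τ := by
    intro τ hτ
    have := (hr τ hτ).ne'
    show 2 * r τ * (D1 τ / (2 * r τ)) = D1 τ
    field_simp
  have hm1 : ∀ τ, m1 τ + m2 τ = s1 := by
    intro τ
    show (s1 + r1 τ) / 2 + (s1 - r1 τ) / 2 = s1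
    ring
  have hm2 : ∀ τ ∈ Set.Icc (0 : ℝ) 1, m1 τ * y τ + x τ * m2 τ = u1 * W τ + U τ * w1 := by
    intro τ hτ
    have h1 : m1 τ * y τ + x τ * m2 τ = (2 * S τ * s1 - 2 * r τ * r1 τ) / 4 := by
      show (s1 + r1 τ) / 2 * ((S τ - r τ) / 2) + (S τ + r τ) / 2 * ((s1 - r1 τ) / 2) = _
      ring
    rw [h1, hrr τ hτ]
    show (2 * S τ * s1 - (2 * S τ * s1 - 4 * (u1 * W τ + U τ * w1))) / 4 = _
    ring
  -- derivatives
  have dA : ∀ τ, HasDerivAt A a1 τ := by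
    intro τ
    exact (((hasDerivAt_id τ).mul_const a1).const_add α).congr_deriv (one_mul _)
  have dU : ∀ τ, HasDerivAt U u1 τ := by
    intro τ
    exact (((hasDerivAt_id τ).mul_const u1).const_add u).congr_deriv (one_mul _)
  have dW : ∀ τ, HasDerivAt W w1 τ := by
    intro τ
    exact (((hasDerivAt_id τ).mul_const w1).const_add w).congr_deriv (one_mul _)
  have dS : ∀ τ, HasDerivAt S s1 τ := fun τ => ((dA τ).add (dU τ)).add (dW τ)
  have dD : ∀ τ, HasDerivAt D (D1 τ) τ := by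
    intro τ
    have h1 : HasDerivAt (fun τ => S τ ^ 2 - 4 * (U τ * W τ)) _ τ :=
      ((dS τ).fun_pow 2).fun_sub (((dU τ).fun_mul (dW τ)).const_mul 4)
    refine HasDerivAt.congr_deriv h1 ?_
    show _ = 2 * S τ * s1 - 4 * (u1 * W τ + U τ * w1)
    push_cast
    ring
  have dr : ∀ τ ∈ Set.Icc (0 : ℝ) 1, HasDerivAt r (r1 τ) τ := by
    intro τ hτ
    exact (dD τ).sqrt (hD τ hτ).ne'
  have dD1 : ∀ τ, HasDerivAt D1 D2 τ := by
    intro τ
    have h1 : HasDerivAt (fun τ => 2 * S τ * s1 - 4 * (u1 * W τ + U τ * w1)) _ τ :=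
      (((dS τ).const_mul 2).mul_const s1).fun_sub
      ((((dW τ).const_mul u1).fun_add ((dU τ).mul_const w1)).const_mul 4)
    refine HasDerivAt.congr_deriv h1 ?_
    show _ = 2 * s1 * s1 - 8 * (u1 * w1)
    ring
  have dr1 : ∀ τ ∈ Set.Icc (0 : ℝ) 1,
      HasDerivAt r1 ((D2 * (2 * r τ) - D1 τ * (2 * r1 τ)) / (2 * r τ) ^ 2) τ := by
    intro τ hτ
    have h0 : 2 * r τ ≠ 0 := by have := (hr τ hτ).ne'; positivity
    exact (dD1 τ).div ((dr τ hτ).const_mul 2) h0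
  have dx : ∀ τ ∈ Set.Icc (0 : ℝ) 1, HasDerivAt x (m1 τ) τ := by
    intro τ hτ
    exact ((dS τ).add (dr τ hτ)).div_const 2
  have dy : ∀ τ ∈ Set.Icc (0 : ℝ) 1, HasDerivAt y (m2 τ) τ := by
    intro τ hτ
    exact ((dS τ).sub (dr τ hτ)).div_const 2
  have dent : ∀ (g : ℝ → ℝ) (g1 τ : ℝ), HasDerivAt g g1 τ → g τ ≠ 0 →
      HasDerivAt (fun τ => Real.negMulLog (g τ)) (-(g1 * Real.log (g τ)) - g1) τ := by
    intro g g1 τ hg h0
    have h1 : HasDerivAt (fun τ => Real.negMulLog (g τ)) _ τ :=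
      (Real.hasDerivAt_negMulLog h0).comp τ hg
    refine HasDerivAt.congr_deriv h1 ?_
    ring
  have df : ∀ τ ∈ Set.Icc (0 : ℝ) 1, HasDerivAt f (f1 τ) τ := by
    intro τ hτ
    have h1 : HasDerivAt (fun τ => Real.negMulLog (A τ) + Real.negMulLog (U τ)
        + Real.negMulLog (W τ) - Real.negMulLog (x τ) - Real.negMulLog (y τ)) _ τ :=
      ((((dent A a1 τ (dA τ) (hA τ hτ).ne').fun_add
      (dent U u1 τ (dU τ) (hU τ hτ).ne')).fun_add (dent W w1 τ (dW τ) (hW τ hτ).ne')).fun_sub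
      (dent x (m1 τ) τ (dx τ hτ) (hx τ hτ).ne')).fun_sub (dent y (m2 τ) τ (dy τ hτ) (hy τ hτ).ne')
    refine HasDerivAt.congr_deriv h1 ?_
    have h3 : m1 τ + m2 τ = a1 + u1 + w1 := hm1 τ
    show _ = -(a1 * Real.log (A τ)) - u1 * Real.log (U τ) - w1 * Real.log (W τ)
      + m1 τ * Real.log (x τ) + m2 τ * Real.log (y τ)
    linarith
  have df1 : ∀ τ ∈ Set.Icc (0 : ℝ) 1, HasDerivAt f1 (f2 τ) τ := by
    intro τ hτ
    have hne := (hr τ hτ).ne'
    set c := (D2 * (2 * r τ) - D1 τ * (2 * r1 τ)) / (2 * r τ) ^ 2 with hc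
    have dm1 : HasDerivAt m1 (c / 2) τ := ((dr1 τ hτ).const_add s1).div_const 2
    have dm2 : HasDerivAt m2 (-c / 2) τ := ((dr1 τ hτ).const_sub s1).div_const 2
    have h1 : HasDerivAt (fun τ => -(a1 * Real.log (A τ)) - u1 * Real.log (U τ)
        - w1 * Real.log (W τ) + m1 τ * Real.log (x τ) + m2 τ * Real.log (y τ)) _ τ :=
      ((((((dA τ).log (hA τ hτ).ne').const_mul a1).fun_neg.fun_sub
      (((dU τ).log (hU τ hτ).ne').const_mul u1)).fun_sub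
      (((dW τ).log (hW τ hτ).ne').const_mul w1)).fun_add
      (dm1.fun_mul ((dx τ hτ).log (hx τ hτ).ne'))).fun_add
      (dm2.fun_mul ((dy τ hτ).log (hy τ hτ).ne'))
    refine HasDerivAt.congr_deriv h1 ?_
    have hcc : c / 2 * r τ = 2 * (m1 τ * m2 τ - u1 * w1) := by
      have h2 : c * (2 * r τ) ^ 2 = D2 * (2 * r τ) - D1 τ * (2 * r1 τ) := by
        rw [hc]; field_simp
      rw [← hrr τ hτ] at h2
      have h3 : c * r τ = D2 / 2 - r1 τ ^ 2 := by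
        have h4 : (c * r τ) * (4 * r τ) = (D2 / 2 - r1 τ ^ 2) * (4 * r τ) := by linarith
        exact mul_right_cancel₀ (by positivity) h4
      have h5 : m1 τ * m2 τ = (s1 ^ 2 - r1 τ ^ 2) / 4 := by
        show (s1 + r1 τ) / 2 * ((s1 - r1 τ) / 2) = _
        ring
      have h6 : D2 = 2 * s1 * s1 - 8 * (u1 * w1) := rfl
      rw [h5]
      linarith
    have hL : 2 * (m1 τ * m2 τ - u1 * w1) * L τ = c / 2 * (Real.log (x τ) - Real.log (y τ)) := by
      show 2 * (m1 τ * m2 τ - u1 * w1) * ((Real.log (x τ) - Real.log (y τ)) / (x τ - y τ)) = _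
      rw [← hcc, hxy]
      field_simp
    show _ = Q (A τ) (U τ) (W τ) (x τ) (y τ) a1 u1 w1 (m1 τ) (m2 τ) (L τ)
    unfold Q
    rw [hL]
    ring
  have hcont : ContinuousOn f (Set.Icc (0 : ℝ) 1) :=
    fun τ hτ => (df τ hτ).continuousAt.continuousWithinAt
  refine concaveOn_of_hasDerivWithinAt2_nonpos (f := f) (f' := f1) (f'' := f2) (convex_Icc 0 1)
    hcont ?_ ?_ ?_
  · intro τ hτ
    exact (df τ (interior_subset hτ)).hasDerivWithinAt
  · intro τ hτ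
    exact (df1 τ (interior_subset hτ)).hasDerivWithinAt
  · intro τ hτ
    have hτ' := interior_subset hτ
    have hlt : y τ < x τ := by
      have := hxy τ; have := hr τ hτ'; linarith
    have h1 := logmean_low (hy τ hτ') hlt
    have h2 := logmean_up (hy τ hτ') hlt
    rw [hsum τ] at h1
    rw [hprod τ hτ'] at h2
    exact Q_le (hA τ hτ') (hU τ hτ') (hW τ hτ') (hx τ hτ') (hy τ hτ') (hsum τ) (hprod τ hτ')
      (hm1 τ) (hm2 τ hτ') h1 h2


theorem mup_smul {c : ℝ} (hc : 0 ≤ c) (s P : ℝ) : mup (c * s) (c * c * P) = c * mup s P := by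
  unfold mup
  have h1 : (c * s) ^ 2 - 4 * (c * c * P) = c ^ 2 * (s ^ 2 - 4 * P) := by ring
  rw [h1, Real.sqrt_mul (by positivity), Real.sqrt_sq hc]
  ring

theorem mum_smul {c : ℝ} (hc : 0 ≤ c) (s P : ℝ) : mum (c * s) (c * c * P) = c * mum s P := by
  unfold mum
  have h1 : (c * s) ^ 2 - 4 * (c * c * P) = c ^ 2 * (s ^ 2 - 4 * P) := by ring
  rw [h1, Real.sqrt_mul (by positivity), Real.sqrt_sq hc]
  ring

theorem T3_smul {c : ℝ} (hc : 0 ≤ c) (α u w : ℝ) : T3 (c * α) (c * u) (c * w) = c * T3 α u w := by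
  unfold T3
  have h1 : c * α + c * u + c * w = c * (α + u + w) := by ring
  have h2 : c * u * (c * w) = c * c * (u * w) := by ring
  rw [h1, h2, mup_smul hc, mum_smul hc]
  simp only [Real.negMulLog_mul]
  have h3 : mup (α + u + w) (u * w) + mum (α + u + w) (u * w) = α + u + w := by
    unfold mup mum; ring
  have h4 : mum (α + u + w) (u * w) = α + u + w - mup (α + u + w) (u * w) := by linarith
  set X := Real.negMulLog (mum (α + u + w) (u * w)) with hX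
  clear_value X
  rw [h4]
  ring

theorem superadd_pos {α u w α' u' w' : ℝ} (hα : 0 < α) (hu : 0 < u) (hw : 0 < w)
    (hα' : 0 < α') (hu' : 0 < u') (hw' : 0 < w') :
    T3 α u w + T3 α' u' w' ≤ T3 (α + α') (u + u') (w + w') := by
  have h1 := concave_line (a1 := α' - α) (u1 := u' - u) (w1 := w' - w) hα hu hw
    (by linarith) (by linarith) (by linarith)
  have h2 := h1.2 (Set.left_mem_Icc.2 zero_le_one) (Set.right_mem_Icc.2 zero_le_one)
    (show (0 : ℝ) ≤ 1 / 2 by norm_num) (show (0 : ℝ) ≤ 1 / 2 by norm_num) (by norm_num)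
  simp only [smul_eq_mul, mul_zero, mul_one, zero_add, zero_mul, add_zero, one_mul] at h2
  have h3 : T3 (α + 1 / 2 * (α' - α)) (u + 1 / 2 * (u' - u)) (w + 1 / 2 * (w' - w))
      = 1 / 2 * T3 (α + α') (u + u') (w + w') := by
    rw [← T3_smul (by norm_num)]
    congr 1 <;> ring
  rw [h3] at h2
  have h4 : α + (α' - α) = α' := by ring
  have h5 : u + (u' - u) = u' := by ring
  have h6 : w + (w' - w) = w' := by ring
  rw [h4, h5, h6] at h2
  linarith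

theorem continuous_T3 : Continuous (fun p : ℝ × ℝ × ℝ => T3 p.1 p.2.1 p.2.2) := by
  unfold T3 mup mum
  fun_prop

end T3aux

open T3aux in
theorem T3_superadd {α u w α' u' w' : ℝ} (hα : 0 ≤ α) (hu : 0 ≤ u) (hw : 0 ≤ w)
    (hα' : 0 ≤ α') (hu' : 0 ≤ u') (hw' : 0 ≤ w') :
    T3 α u w + T3 α' u' w' ≤ T3 (α + α') (u + u') (w + w') := by
  let g : ℝ → ℝ := fun ε => T3 ((α + ε) + (α' + ε)) ((u + ε) + (u' + ε)) ((w + ε) + (w' + ε))
    - (T3 (α + ε) (u + ε) (w + ε) + T3 (α' + ε) (u' + ε) (w' + ε))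
  have hg : Continuous g := by
    have h1 : Continuous (fun ε : ℝ => ((α + ε) + (α' + ε), (u + ε) + (u' + ε), (w + ε) + (w' + ε))) := by
      fun_prop
    have h2 : Continuous (fun ε : ℝ => (α + ε, u + ε, w + ε)) := by fun_prop
    have h3 : Continuous (fun ε : ℝ => (α' + ε, u' + ε, w' + ε)) := by fun_prop
    exact (continuous_T3.comp h1).sub ((continuous_T3.comp h2).add (continuous_T3.comp h3))
  have hpos : ∀ ε : ℝ, 0 < ε → 0 ≤ g ε := by
    intro ε hε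
    have := superadd_pos (α := α + ε) (u := u + ε) (w := w + ε) (α' := α' + ε) (u' := u' + ε)
      (w' := w' + ε) (by positivity) (by positivity) (by positivity) (by positivity)
      (by positivity) (by positivity)
    show 0 ≤ _ - _
    linarith
  have h0 : 0 ≤ g 0 := by
    have h1 : Filter.Tendsto g (nhdsWithin 0 (Set.Ioi 0)) (nhds (g 0)) :=
      (hg.tendsto 0).mono_left nhdsWithin_le_nhds
    refine ge_of_tendsto h1 ?_
    filter_upwards [self_mem_nhdsWithin] with ε hε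
    exact hpos ε hε
  have h1 : g 0 = T3 (α + α') (u + u') (w + w') - (T3 α u w + T3 α' u' w') := by
    simp [g]
  rw [h1] at h0
  linarith

theorem T3_zero : T3 0 0 0 = 0 := by
  simp [T3, mup, mum]

theorem T3_sum_le {ι : Type*} (s : Finset ι) (α u w : ι → ℝ)
    (hα : ∀ i ∈ s, 0 ≤ α i) (hu : ∀ i ∈ s, 0 ≤ u i) (hw : ∀ i ∈ s, 0 ≤ w i) :
    ∑ i ∈ s, T3 (α i) (u i) (w i) ≤ T3 (∑ i ∈ s, α i) (∑ i ∈ s, u i) (∑ i ∈ s, w i) := by
  classical
  induction s using Finset.induction with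
  | empty => simp [T3_zero]
  | insert a s ha ih =>
    rw [Finset.sum_insert ha, Finset.sum_insert ha, Finset.sum_insert ha, Finset.sum_insert ha]
    have h1 := ih (fun i hi => hα i (Finset.mem_insert_of_mem hi))
      (fun i hi => hu i (Finset.mem_insert_of_mem hi))
      (fun i hi => hw i (Finset.mem_insert_of_mem hi))
    have h2 := T3_superadd (hα a (Finset.mem_insert_self _ _)) (hu a (Finset.mem_insert_self _ _))
      (hw a (Finset.mem_insert_self _ _))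
      (Finset.sum_nonneg (fun i hi => hα i (Finset.mem_insert_of_mem hi)))
      (Finset.sum_nonneg (fun i hi => hu i (Finset.mem_insert_of_mem hi)))
      (Finset.sum_nonneg (fun i hi => hw i (Finset.mem_insert_of_mem hi)))
    linarith

end Vale.Agent.P358
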