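import Vale.Agent.P358.Mono
import Vale.Agent.P358.DetP
import Vale.Agent.P358.T3
import Vale.Agent.P358.Entropy

/-!
# P358 [N]: the three-leaf entropy inequality

`ω = [[a X + b Y, g Z],[g Z*, δ Y]]`, `g² = a δ`, `M = [[X,Z],[Z*,Y]] ≥ 0`.

Step 1 (determinant). WLOG (block unitary conjugation) `X = diag(x_i)`. Put `K_ij = Z_ij/√x_i`
(`0` if `x_i = 0`); then `Z = X^{1/2} K` and `K*K ≤ Y`. For `l > 0`, Schur complement w.r.t.
`l + δ Y` and `K (l+δY)⁻¹ K* ≤ K (l + δ K*K)⁻¹ K* = (l+δKK*)⁻¹ K K*`: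
`det(l + ω) ≥ det(l+δY) det(l + bY + l a X^{1/2}(l+δKK*)⁻¹X^{1/2})
           ≥ det(l+δY) det(l+bY) ∏ (1 + l a x_i /((l + b Y_ii)(l + δ (KK*)_ii)))`
by `det_add_conj_inv_ge`. Any `w_i ≥ δ (KK*)_ii` may replace `δ (KK*)_ii`; choose them with
`∑ w_i = δ tr Y` (possible since `tr KK* = tr K*K ≤ tr Y`).

Step 2 (entropy). `1 + l α/((l+u)(l+w)) = (l+μ₊)(l+μ₋)/((l+u)(l+w))`, so `sum_negMulLog_le_of_log`
applies with the families (eigenvalues of `ω`, `u_i`, `w_i`) and
(eig of `δY`, eig of `bY`, `μ₊^i`, `μ₋^i`), giving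
`vn ω ≥ vn(aX) + vn(bY) + vn(δY) - ∑ T3 (a x_i, b Y_ii, w_i)
      ≥ vn(aX) + vn(bY) + vn(δY) - T3 (a x, b y, δ y)`. Rearranged: the statement below.
-/

namespace Vale.Agent.P358

open Matrix
open scoped ComplexOrder

/-- inversion reverses the order of positive definite matrices -/
theorem inv_antitone {m : Type*} [Fintype m] [DecidableEq m] {A B : Matrix m m ℂ}
    (hA : A.PosDef) (hB : B.PosDef) (h : (B - A).PosSemidef) : (A⁻¹ - B⁻¹).PosSemidef := by
  have hAi : A⁻¹.PosDef := hA.inv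
  have : Invertible B := hB.isUnit.invertible
  have : Invertible A⁻¹ := hAi.isUnit.invertible
  have hAu : IsUnit A.det := (isUnit_iff_isUnit_det A).1 hA.isUnit
  have h1 : (fromBlocks B 1 (1 : Matrix m m ℂ)ᴴ A⁻¹).PosSemidef := by
    rw [PosDef.fromBlocks₂₂ B 1 hAi]
    simpa [nonsing_inv_nonsing_inv A hAu] using h
  rw [PosDef.fromBlocks₁₁ 1 A⁻¹ hB] at h1
  simpa using h1

/-- `Z = X^{1/2} K`, `K*K ≤ Y` -/
theorem exists_K {m : Type*} [Fintype m] [DecidableEq m] (x : m → ℝ) (Z Y : Matrix m m ℂ)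
    (hM : (fromBlocks (diagonal (fun i => (x i : ℂ))) Z Zᴴ Y).PosSemidef) :
    (∀ i, 0 ≤ x i) ∧ Y.PosSemidef ∧ ∃ K : Matrix m m ℂ,
      Z = diagonal (fun i => ((Real.sqrt (x i) : ℝ) : ℂ)) * K ∧ (Y - Kᴴ * K).PosSemidef := by
  have hx : ∀ i, 0 ≤ x i := by
    intro i
    have := hM.diag_nonneg (i := Sum.inl i)
    simpa using this
  have hY : Y.PosSemidef := by
    have := hM.submatrix Sum.inr
    have h2 : (fromBlocks (diagonal (fun i => (x i : ℂ))) Z Zᴴ Y).submatrix Sum.inr Sum.inr = Y := by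
      ext i j; simp
    rwa [h2] at this
  refine ⟨hx, hY, ?_⟩
  have hz : ∀ i j, x i = 0 → Z i j = 0 := by
    intro i j hi
    have h1 := (hM.dotProduct_mulVec_zero_iff (Pi.single (Sum.inl i) 1)).1 (by
      simp [hi])
    have h2 := congrFun h1 (Sum.inr j)
    simpa using h2
  refine ⟨diagonal (fun i => (((Real.sqrt (x i))⁻¹ : ℝ) : ℂ)) * Z, ?_, ?_⟩
  · ext i j
    rw [← Matrix.mul_assoc, diagonal_mul_diagonal, diagonal_mul]
    by_cases hi : x i = 0
    · simp [hi, hz i j hi]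
    · have : Real.sqrt (x i) ≠ 0 := by
        rw [Real.sqrt_ne_zero (hx i)]; exact hi
      rw [← Complex.ofReal_mul, mul_inv_cancel₀ this]
      simp
  · set D : Matrix m m ℂ := diagonal (fun i => (((Real.sqrt (x i))⁻¹ : ℝ) : ℂ)) with hD
    have hDh : Dᴴ = D := by
      rw [hD, diagonal_conjTranspose]
      congr 1
      ext i
      simp
    have hDXD : D * (diagonal (fun i => (x i : ℂ)) * (D * (D * Z))) = D * Z := by
      ext i j
      rw [hD, diagonal_mul, diagonal_mul, diagonal_mul, diagonal_mul]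
      by_cases hi : x i = 0
      · simp [hi]
      · have h1 : (Real.sqrt (x i))⁻¹ * (x i * ((Real.sqrt (x i))⁻¹ * ((Real.sqrt (x i))⁻¹))) =
            (Real.sqrt (x i))⁻¹ := by
          have h2 : Real.sqrt (x i) ≠ 0 := by
            rw [Real.sqrt_ne_zero (hx i)]; exact hi
          have h3 := Real.sq_sqrt (hx i)
          field_simp
          rw [h3]
        have h2 : (((Real.sqrt (x i))⁻¹ : ℝ) : ℂ) * ((x i : ℂ) * ((((Real.sqrt (x i))⁻¹ : ℝ) : ℂ) *
            (((Real.sqrt (x i))⁻¹ : ℝ) : ℂ))) = (((Real.sqrt (x i))⁻¹ : ℝ) : ℂ) := by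
          exact_mod_cast h1
        linear_combination (Z i j) * h2
    have hW := hM.conjTranspose_mul_mul_same (fromRows (-(D * (D * Z))) (1 : Matrix m m ℂ))
    have h3 : (fromRows (-(D * (D * Z))) (1 : Matrix m m ℂ))ᴴ *
        (fromBlocks (diagonal (fun i => (x i : ℂ))) Z Zᴴ Y) *
        (fromRows (-(D * (D * Z))) (1 : Matrix m m ℂ)) = Y - (D * Z)ᴴ * (D * Z) := by
      rw [Matrix.mul_assoc, fromBlocks_mul_fromRows, conjTranspose_fromRows_eq_fromCols_conjTranspose,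
        fromCols_mul_fromRows]
      simp only [conjTranspose_neg, conjTranspose_mul, hDh, conjTranspose_one, Matrix.one_mul,
        Matrix.mul_one, Matrix.mul_neg, Matrix.neg_mul, Matrix.mul_add, neg_neg, Matrix.mul_assoc]
      rw [hDXD]
      abel
    rwa [h3] at hW


theorem posDef_smul_one_add {m : Type*} [Fintype m] [DecidableEq m] {A : Matrix m m ℂ}
    (hA : A.PosSemidef) {l c : ℝ} (hl : 0 < l) (hc : 0 ≤ c) :
    ((l : ℂ) • (1 : Matrix m m ℂ) + (c : ℂ) • A).PosDef :=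
  (PosDef.one.smul (by exact_mod_cast hl)).add_posSemidef (hA.smul (by exact_mod_cast hc))

/-- Step 1, with `w_i = δ (K K*)_ii`. -/
theorem det_three_leaf_core {m : Type*} [Fintype m] [DecidableEq m] (x : m → ℝ)
    (Z Y K : Matrix m m ℂ) (hx : ∀ i, 0 ≤ x i) (hY : Y.PosSemidef)
    (hZ : Z = diagonal (fun i => ((Real.sqrt (x i) : ℝ) : ℂ)) * K)
    (hK : (Y - Kᴴ * K).PosSemidef)
    {a b δ g : ℝ} (ha : 0 ≤ a) (hb : 0 ≤ b) (hδ : 0 ≤ δ) (hg : g ^ 2 = a * δ) {l : ℝ}
    (hl : 0 < l) :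
      ((l : ℂ) • (1 : Matrix m m ℂ) + (δ : ℂ) • Y).det.re *
        ((l : ℂ) • (1 : Matrix m m ℂ) + (b : ℂ) • Y).det.re *
        ∏ i, (1 + l * (a * x i) / ((l + b * (Y i i).re) * (l + δ * ((K * Kᴴ) i i).re))) ≤
      ((l : ℂ) • (1 : Matrix (m ⊕ m) (m ⊕ m) ℂ) +
        fromBlocks ((a : ℂ) • diagonal (fun i => (x i : ℂ)) + (b : ℂ) • Y) ((g : ℂ) • Z)
          ((g : ℂ) • Zᴴ) ((δ : ℂ) • Y)).det.re := by
  have hKK : (Kᴴ * K).PosSemidef := posSemidef_conjTranspose_mul_self K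
  have hKK' : (K * Kᴴ).PosSemidef := posSemidef_self_mul_conjTranspose K
  set H : Matrix m m ℂ := (l : ℂ) • (1 : Matrix m m ℂ) + (δ : ℂ) • Y with hH
  set H0 : Matrix m m ℂ := (l : ℂ) • (1 : Matrix m m ℂ) + (δ : ℂ) • (Kᴴ * K) with hH0
  set F : Matrix m m ℂ := (l : ℂ) • (1 : Matrix m m ℂ) + (δ : ℂ) • (K * Kᴴ) with hF
  set G : Matrix m m ℂ := (l : ℂ) • (1 : Matrix m m ℂ) + (b : ℂ) • Y with hG
  have hHp : H.PosDef := posDef_smul_one_add hY hl hδ
  have hH0p : H0.PosDef := posDef_smul_one_add hKK hl hδ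
  have hFp : F.PosDef := posDef_smul_one_add hKK' hl hδ
  have hGp : G.PosDef := posDef_smul_one_add hY hl hb
  have hdiff : (H - H0).PosSemidef := by
    have : H - H0 = (δ : ℂ) • (Y - Kᴴ * K) := by
      rw [hH, hH0, smul_sub]; abel
    rw [this]
    exact hK.smul (by exact_mod_cast hδ)
  have hanti := inv_antitone hH0p hHp hdiff
  have hH0u : IsUnit H0.det := (isUnit_iff_isUnit_det H0).1 hH0p.isUnit
  have hFu : IsUnit F.det := (isUnit_iff_isUnit_det F).1 hFp.isUnit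
  -- push-through
  have hpush : (l : ℂ) • F⁻¹ = 1 - (δ : ℂ) • (K * H0⁻¹ * Kᴴ) := by
    have h1 : F * (1 - (δ : ℂ) • (K * H0⁻¹ * Kᴴ)) = (l : ℂ) • 1 := by
      have h2 : F * K = K * H0 := by
        rw [hF, hH0, add_mul, mul_add]
        simp [Matrix.mul_assoc]
      rw [mul_sub, mul_one, Matrix.mul_smul, ← Matrix.mul_assoc, ← Matrix.mul_assoc, h2,
        Matrix.mul_assoc K H0, mul_nonsing_inv _ hH0u, Matrix.mul_one, hF]
      abel
    have h3 : F⁻¹ * (F * (1 - (δ : ℂ) • (K * H0⁻¹ * Kᴴ))) = F⁻¹ * ((l : ℂ) • 1) := by rw [h1]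
    rw [← Matrix.mul_assoc, nonsing_inv_mul _ hFu, Matrix.one_mul, Matrix.mul_smul,
      Matrix.mul_one] at h3
    exact h3.symm
  set R : Matrix m m ℂ := diagonal (fun i => ((Real.sqrt (x i) : ℝ) : ℂ)) with hR
  have hRh : Rᴴ = R := by
    rw [hR, diagonal_conjTranspose]
    congr 1
    ext i
    simp
  have hRR : R * R = diagonal (fun i => (x i : ℂ)) := by
    rw [hR, diagonal_mul_diagonal]
    congr 1
    ext i
    rw [← Complex.ofReal_mul, Real.mul_self_sqrt (hx i)]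
  have hZH : Zᴴ = Kᴴ * R := by rw [hZ, conjTranspose_mul, hRh]
  have hblock : (l : ℂ) • (1 : Matrix (m ⊕ m) (m ⊕ m) ℂ) +
        fromBlocks ((a : ℂ) • diagonal (fun i => (x i : ℂ)) + (b : ℂ) • Y) ((g : ℂ) • Z)
          ((g : ℂ) • Zᴴ) ((δ : ℂ) • Y) =
      fromBlocks (G + (a : ℂ) • (R * R)) ((g : ℂ) • Z) ((g : ℂ) • Zᴴ) H := by
    rw [← fromBlocks_one, fromBlocks_smul, fromBlocks_add, hRR, hG, hH]
    congr 1
    · abel
    · simp
    · simp
  have hdet : (fromBlocks (G + (a : ℂ) • (R * R)) ((g : ℂ) • Z) ((g : ℂ) • Zᴴ) H).det =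
      H.det * (G + ((l * a : ℝ) : ℂ) • (R * F⁻¹ * R) +
        ((a * δ : ℝ) : ℂ) • (R * K * (H0⁻¹ - H⁻¹) * (R * K)ᴴ)).det := by
    have : Invertible H := hHp.isUnit.invertible
    rw [det_fromBlocks₂₂, invOf_eq_nonsing_inv]
    congr 2
    have h1 : ((l * a : ℝ) : ℂ) • (R * F⁻¹ * R) = (a : ℂ) • (R * ((l : ℂ) • F⁻¹) * R) := by
      rw [Matrix.mul_smul, Matrix.smul_mul, smul_smul]
      push_cast
      rw [mul_comm]
    have h2 : (g : ℂ) * g = ((a * δ : ℝ) : ℂ) := by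
      rw [← hg]; push_cast; ring
    rw [h1, hpush, hZH, hZ]
    simp only [Matrix.mul_smul, Matrix.smul_mul, smul_smul, h2, conjTranspose_mul, hRh,
      Matrix.mul_sub, Matrix.sub_mul, Matrix.mul_one, Matrix.mul_assoc, smul_sub]
    push_cast
    module
  have hpsdN : (((a * δ : ℝ) : ℂ) • (R * K * (H0⁻¹ - H⁻¹) * (R * K)ᴴ)).PosSemidef :=
    (hanti.mul_mul_conjTranspose_same (R * K)).smul (by
      have : 0 ≤ a * δ := by positivity
      exact_mod_cast this)
  have hpsd1 : (((l * a : ℝ) : ℂ) • (R * F⁻¹ * R)).PosSemidef := by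
    have h1 := hFp.inv.posSemidef.mul_mul_conjTranspose_same R
    rw [hRh] at h1
    exact h1.smul (by
      have : 0 ≤ l * a := by positivity
      exact_mod_cast this)
  have hmono := det_re_mono (hGp.posSemidef.add hpsd1) hpsdN
  have hP := det_add_conj_inv_ge G F hGp hFp (fun i => Real.sqrt (l * a) * Real.sqrt (x i))
  have hdiag : diagonal (fun i => ((Real.sqrt (l * a) * Real.sqrt (x i) : ℝ) : ℂ)) =
      ((Real.sqrt (l * a) : ℝ) : ℂ) • R := by
    rw [hR, ← diagonal_smul]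
    congr 1
    ext i
    simp
  rw [hdiag] at hP
  have hsq : ((Real.sqrt (l * a) : ℝ) : ℂ) * ((Real.sqrt (l * a) : ℝ) : ℂ) = ((l * a : ℝ) : ℂ) := by
    rw [← Complex.ofReal_mul, Real.mul_self_sqrt (by positivity)]
  have hP2 : ((Real.sqrt (l * a) : ℝ) : ℂ) • R * F⁻¹ * ((Real.sqrt (l * a) : ℝ) : ℂ) • R =
      ((l * a : ℝ) : ℂ) • (R * F⁻¹ * R) := by
    rw [Matrix.smul_mul, Matrix.smul_mul, Matrix.mul_smul, smul_smul, hsq]
  rw [hP2] at hP
  rw [hblock, hdet]
  have hHdet : H.det = ((H.det.re : ℝ) : ℂ) := by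
    have := hHp.det_pos
    rw [Complex.lt_def] at this
    apply Complex.ext
    · simp
    · simpa using this.2.symm
  have hHpos : 0 < H.det.re := (Complex.lt_def.1 hHp.det_pos).1
  rw [hHdet, Complex.re_ofReal_mul, Complex.ofReal_re, mul_assoc]
  refine mul_le_mul_of_nonneg_left ?_ hHpos.le
  refine le_trans (le_of_eq ?_) (hP.trans hmono)
  congr 1
  apply Finset.prod_congr rfl
  intro i _
  congr 1
  have e1 : (Real.sqrt (l * a) * Real.sqrt (x i)) ^ 2 = l * (a * x i) := by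
    rw [mul_pow, Real.sq_sqrt (by positivity), Real.sq_sqrt (hx i)]; ring
  have e2 : (G i i).re = l + b * (Y i i).re := by
    rw [hG, Matrix.add_apply, Matrix.smul_apply, Matrix.smul_apply, Matrix.one_apply_eq]
    simp
  have e3 : (F i i).re = l + δ * ((K * Kᴴ) i i).re := by
    rw [hF, Matrix.add_apply, Matrix.smul_apply, Matrix.smul_apply, Matrix.one_apply_eq]
    simp
  rw [e1, e2, e3]

/-- Step 1 with `X` diagonal. -/
theorem det_three_leaf {m : Type*} [Fintype m] [DecidableEq m] (x : m → ℝ) (Z Y : Matrix m m ℂ)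
    (hM : (fromBlocks (diagonal (fun i => (x i : ℂ))) Z Zᴴ Y).PosSemidef)
    {a b δ g : ℝ} (ha : 0 ≤ a) (hb : 0 ≤ b) (hδ : 0 ≤ δ) (hg : g ^ 2 = a * δ) :
    ∃ w : m → ℝ, (∀ i, 0 ≤ w i) ∧ ∑ i, w i = δ * rtr Y ∧ ∀ l : ℝ, 0 < l →
      ((l : ℂ) • (1 : Matrix m m ℂ) + (δ : ℂ) • Y).det.re *
        ((l : ℂ) • (1 : Matrix m m ℂ) + (b : ℂ) • Y).det.re *
        ∏ i, (1 + l * (a * x i) / ((l + b * (Y i i).re) * (l + w i))) ≤
      ((l : ℂ) • (1 : Matrix (m ⊕ m) (m ⊕ m) ℂ) +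
        fromBlocks ((a : ℂ) • diagonal (fun i => (x i : ℂ)) + (b : ℂ) • Y) ((g : ℂ) • Z)
          ((g : ℂ) • Zᴴ) ((δ : ℂ) • Y)).det.re := by
  obtain ⟨hx, hY, K, hZ, hK⟩ := exists_K x Z Y hM
  have hYd : ∀ i, 0 ≤ (Y i i).re := fun i => (Complex.le_def.1 (hY.diag_nonneg (i := i))).1
  have hKKd : ∀ i, 0 ≤ ((K * Kᴴ) i i).re := fun i =>
    (Complex.le_def.1 ((posSemidef_self_mul_conjTranspose K).diag_nonneg (i := i))).1
  have htr : ∑ i, ((K * Kᴴ) i i).re ≤ rtr Y := by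
    have h1 := rtr_nonneg hK
    have h2 : rtr (Y - Kᴴ * K) = rtr Y - rtr (Kᴴ * K) := by simp [rtr]
    have h3 : rtr (Kᴴ * K) = ∑ i, ((K * Kᴴ) i i).re := by
      unfold rtr
      rw [Matrix.trace_mul_comm]
      simp [Matrix.trace]
    linarith
  set sl : ℝ := δ * rtr Y - ∑ i, δ * ((K * Kᴴ) i i).re with hsl
  have hsl0 : 0 ≤ sl := by
    rw [hsl, ← Finset.mul_sum, ← mul_sub]
    exact mul_nonneg hδ (by linarith)
  refine ⟨fun i => δ * ((K * Kᴴ) i i).re + sl / Fintype.card m, ?_, ?_, ?_⟩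
  · intro i
    have := hKKd i
    positivity
  · rcases isEmpty_or_nonempty m with hm | hm
    · simp [rtr, Matrix.trace]
    · rw [Finset.sum_add_distrib, Finset.sum_const, Finset.card_univ, nsmul_eq_mul,
        mul_div_cancel₀]
      · rw [hsl]; ring
      · exact_mod_cast Fintype.card_ne_zero
  · intro l hl
    refine le_trans ?_ (det_three_leaf_core x Z Y K hx hY hZ hK ha hb hδ hg hl)
    have h1 : 0 < ((l : ℂ) • (1 : Matrix m m ℂ) + (δ : ℂ) • Y).det.re :=
      (Complex.lt_def.1 (posDef_smul_one_add hY hl hδ).det_pos).1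
    have h2 : 0 < ((l : ℂ) • (1 : Matrix m m ℂ) + (b : ℂ) • Y).det.re :=
      (Complex.lt_def.1 (posDef_smul_one_add hY hl hb).det_pos).1
    apply mul_le_mul_of_nonneg_left _ (mul_pos h1 h2).le
    apply Finset.prod_le_prod
    · intro i _
      have := hKKd i
      have := hYd i
      have := hx i
      positivity
    · intro i _
      have h3 := hKKd i
      have h4 := hYd i
      have h5 := hx i
      have h6 : 0 ≤ sl / Fintype.card m := by positivity
      gcongr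
      linarith

theorem mup_mul {s P l : ℝ} (h : 0 ≤ s ^ 2 - 4 * P) :
    (l + mup s P) * (l + mum s P) = l ^ 2 + l * s + P := by
  unfold mup mum
  have := Real.sq_sqrt h
  nlinarith

theorem mup_mum_nonneg {s P : ℝ} (hs : 0 ≤ s) (hP : 0 ≤ P) :
    0 ≤ mup s P ∧ 0 ≤ mum s P := by
  unfold mup mum
  have h1 : Real.sqrt (s ^ 2 - 4 * P) ≤ s := by
    rw [Real.sqrt_le_left hs]
    linarith
  have h2 := Real.sqrt_nonneg (s ^ 2 - 4 * P)
  constructor <;> linarith

theorem mup_add_mum (s P : ℝ) : mup s P + mum s P = s := by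
  unfold mup mum; ring

theorem leaf_posSemidef {m : Type*} [Fintype m] [DecidableEq m] (X Z Y : Matrix m m ℂ)
    (hM : (fromBlocks X Z Zᴴ Y).PosSemidef) (hY : Y.PosSemidef)
    {a b δ g : ℝ} (ha : 0 ≤ a) (hb : 0 ≤ b) (hδ : 0 ≤ δ) (hg : g ^ 2 = a * δ) :
    (fromBlocks ((a : ℂ) • X + (b : ℂ) • Y) ((g : ℂ) • Z)
        ((g : ℂ) • Zᴴ) ((δ : ℂ) • Y)).PosSemidef := by
  obtain ⟨ε, hε, hgε⟩ : ∃ ε : ℝ, ε ^ 2 = 1 ∧ g = ε * (Real.sqrt a * Real.sqrt δ) := by
    have h1 : g ^ 2 = (Real.sqrt a * Real.sqrt δ) ^ 2 := by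
      rw [mul_pow, Real.sq_sqrt ha, Real.sq_sqrt hδ, hg]
    rcases sq_eq_sq_iff_eq_or_eq_neg.1 h1 with h | h
    · exact ⟨1, by norm_num, by rw [h]; ring⟩
    · exact ⟨-1, by norm_num, by rw [h]; ring⟩
  have h1 := hM.mul_mul_conjTranspose_same
    (fromBlocks (((Real.sqrt a : ℝ) : ℂ) • (1 : Matrix m m ℂ)) 0 0
      (((ε * Real.sqrt δ : ℝ) : ℂ) • (1 : Matrix m m ℂ)))
  have h2 := (hY.smul (a := (b : ℂ)) (by exact_mod_cast hb)).mul_mul_conjTranspose_same
    (fromRows (1 : Matrix m m ℂ) (0 : Matrix m m ℂ))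
  have h3 := h1.add h2
  have ea : ((Real.sqrt a : ℝ) : ℂ) * ((Real.sqrt a : ℝ) : ℂ) = (a : ℂ) := by
    rw [← Complex.ofReal_mul, Real.mul_self_sqrt ha]
  have eδ : ((ε * Real.sqrt δ : ℝ) : ℂ) * ((ε * Real.sqrt δ : ℝ) : ℂ) = (δ : ℂ) := by
    rw [← Complex.ofReal_mul]
    congr 1
    have := Real.mul_self_sqrt hδ
    calc ε * Real.sqrt δ * (ε * Real.sqrt δ) = ε ^ 2 * (Real.sqrt δ * Real.sqrt δ) := by ring
      _ = δ := by rw [this, hε, one_mul]
  have eg : ((Real.sqrt a : ℝ) : ℂ) * ((ε * Real.sqrt δ : ℝ) : ℂ) = (g : ℂ) := by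
    rw [← Complex.ofReal_mul, hgε]
    congr 1
    ring
  have eg' : ((ε * Real.sqrt δ : ℝ) : ℂ) * ((Real.sqrt a : ℝ) : ℂ) = (g : ℂ) := by
    rw [mul_comm, eg]
  convert! h3 using 1
  rw [fromBlocks_conjTranspose, fromBlocks_multiply, fromBlocks_multiply, fromRows_mul,
    conjTranspose_fromRows_eq_fromCols_conjTranspose, fromRows_mul_fromCols, fromBlocks_add]
  simp only [conjTranspose_smul, conjTranspose_one, conjTranspose_zero, Matrix.smul_mul,
    Matrix.one_mul, Matrix.mul_smul, Matrix.mul_one, Matrix.mul_zero, Matrix.zero_mul, add_zero,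
    zero_add, smul_smul, smul_zero, Complex.star_def, Complex.conj_ofReal, ea, eg, eg', eδ]

/-- the three-leaf inequality, `X` diagonal -/
theorem three_leaf_diag {m : Type*} [Fintype m] [DecidableEq m] (x : m → ℝ)
    (Z Y : Matrix m m ℂ)
    (hM : (fromBlocks (diagonal (fun i => (x i : ℂ))) Z Zᴴ Y).PosSemidef)
    {a b δ g : ℝ} (ha : 0 ≤ a) (hb : 0 ≤ b) (hδ : 0 ≤ δ) (hg : g ^ 2 = a * δ) :
    sc (a * ∑ i, x i + (b + δ) * rtr Y) (b * δ * rtr Y ^ 2) +
      a * vnh (diagonal (fun i => (x i : ℂ))) + (b + δ) * vnh Y ≤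
      vnh (fromBlocks ((a : ℂ) • diagonal (fun i => (x i : ℂ)) + (b : ℂ) • Y) ((g : ℂ) • Z)
        ((g : ℂ) • Zᴴ) ((δ : ℂ) • Y)) := by
  obtain ⟨w, hw0, hwsum, hdet⟩ := det_three_leaf x Z Y hM ha hb hδ hg
  obtain ⟨hx, hY, K, hZ, hK⟩ := exists_K x Z Y hM
  have hYd : ∀ i, 0 ≤ (Y i i).re := fun i => (Complex.le_def.1 (hY.diag_nonneg (i := i))).1
  have hYδ : ((δ : ℂ) • Y).PosSemidef := hY.smul (by exact_mod_cast hδ)
  have hYb : ((b : ℂ) • Y).PosSemidef := hY.smul (by exact_mod_cast hb)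
  set ω := fromBlocks ((a : ℂ) • diagonal (fun i => (x i : ℂ)) + (b : ℂ) • Y) ((g : ℂ) • Z)
          ((g : ℂ) • Zᴴ) ((δ : ℂ) • Y) with hω
  have hωp : ω.PosSemidef := leaf_posSemidef _ Z Y hM hY ha hb hδ hg
  set u : m → ℝ := fun i => b * (Y i i).re with hu
  have hu0 : ∀ i, 0 ≤ u i := fun i => mul_nonneg hb (hYd i)
  have hax : ∀ i, 0 ≤ a * x i := fun i => mul_nonneg ha (hx i)
  have hsum_u : ∑ i, u i = b * rtr Y := by
    rw [hu, ← Finset.mul_sum]
    congr 1
    simp [rtr, Matrix.trace]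
  have hrω : rtr ω = a * ∑ i, x i + b * rtr Y + δ * rtr Y := by
    rw [hω]
    simp only [rtr, Matrix.trace, Fintype.sum_sum_type, diag_apply, fromBlocks_apply₁₁,
      fromBlocks_apply₂₂, Matrix.add_apply, Matrix.smul_apply, smul_eq_mul, Complex.re_sum,
      Complex.add_re, Complex.re_ofReal_mul, diagonal_apply_eq, Complex.ofReal_re,
      Finset.sum_add_distrib, ← Finset.mul_sum]
  have hmono := sum_negMulLog_le_of_log
    (Sum.elim hωp.1.eigenvalues (Sum.elim u w))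
    (Sum.elim (Sum.elim hYδ.1.eigenvalues hYb.1.eigenvalues)
      (Sum.elim (fun i => mup (a * x i + u i + w i) (u i * w i))
        (fun i => mum (a * x i + u i + w i) (u i * w i))))
    (by
      rintro (i | i | i)
      · exact hωp.eigenvalues_nonneg i
      · exact hu0 i
      · exact hw0 i)
    (by
      have hh : ∀ i, 0 ≤ mup (a * x i + u i + w i) (u i * w i) ∧
          0 ≤ mum (a * x i + u i + w i) (u i * w i) := fun i =>
        mup_mum_nonneg (add_nonneg (add_nonneg (hax i) (hu0 i)) (hw0 i))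
          (mul_nonneg (hu0 i) (hw0 i))
      rintro ((i | i) | (i | i))
      · exact hYδ.eigenvalues_nonneg i
      · exact hYb.eigenvalues_nonneg i
      · exact (hh i).1
      · exact (hh i).2)
    (by simp)
    (by
      simp only [Fintype.sum_sum_type, Sum.elim_inl, Sum.elim_inr]
      have e1 := rtr_eq_sum_eigenvalues hωp.1
      have e2 := rtr_eq_sum_eigenvalues hYδ.1
      have e3 := rtr_eq_sum_eigenvalues hYb.1
      rw [rtr_smul] at e2 e3
      rw [Fintype.sum_sum_type] at e1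
      have e4 : ∑ i, mup (a * x i + u i + w i) (u i * w i) +
          ∑ i, mum (a * x i + u i + w i) (u i * w i) = a * ∑ i, x i + b * rtr Y + δ * rtr Y := by
        rw [← Finset.sum_add_distrib]
        simp only [mup_add_mum]
        rw [Finset.sum_add_distrib, Finset.sum_add_distrib, hsum_u, hwsum, ← Finset.mul_sum]
      rw [← e2, ← e3, ← e1, hrω, e4, hsum_u, hwsum]
      ring)
    (by
      intro l hl
      have hd := hdet l hl
      rw [det_smul_one_add hYδ.1, det_smul_one_add hYb.1, det_smul_one_add hωp.1,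
        Complex.ofReal_re, Complex.ofReal_re, Complex.ofReal_re] at hd
      have p1 : ∀ i, 0 < l + hYδ.1.eigenvalues i := fun i => by
        have := hYδ.eigenvalues_nonneg i; linarith
      have p2 : ∀ i, 0 < l + hYb.1.eigenvalues i := fun i => by
        have := hYb.eigenvalues_nonneg i; linarith
      have p3 : ∀ i, 0 < l + hωp.1.eigenvalues i := fun i => by
        have := hωp.eigenvalues_nonneg i; linarith
      have p4 : ∀ i, 0 < 1 + l * (a * x i) / ((l + b * (Y i i).re) * (l + w i)) := fun i => by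
        have := hax i
        have := hYd i
        have := hw0 i
        positivity
      have q1 := Finset.prod_pos (s := Finset.univ) (fun i _ => p1 i)
      have q2 := Finset.prod_pos (s := Finset.univ) (fun i _ => p2 i)
      have q4 := Finset.prod_pos (s := Finset.univ) (fun i _ => p4 i)
      have hl1 := Real.log_le_log (mul_pos (mul_pos q1 q2) q4) hd
      rw [Real.log_mul (mul_pos q1 q2).ne' q4.ne', Real.log_mul q1.ne' q2.ne',
        Real.log_prod (fun i _ => (p1 i).ne'), Real.log_prod (fun i _ => (p2 i).ne'),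
        Real.log_prod (fun i _ => (p3 i).ne'), Real.log_prod (fun i _ => (p4 i).ne')] at hl1
      have hterm : ∀ i, Real.log (1 + l * (a * x i) / ((l + b * (Y i i).re) * (l + w i))) =
          Real.log (l + mup (a * x i + u i + w i) (u i * w i)) +
          Real.log (l + mum (a * x i + u i + w i) (u i * w i)) -
          Real.log (l + u i) - Real.log (l + w i) := by
        intro i
        have h1 := hax i
        have h2 := hu0 i
        have h3 := hw0 i
        have hh := mup_mum_nonneg (add_nonneg (add_nonneg h1 h2) h3) (mul_nonneg h2 h3)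
        have hp : 0 < l + mup (a * x i + u i + w i) (u i * w i) := by linarith [hh.1]
        have hm : 0 < l + mum (a * x i + u i + w i) (u i * w i) := by linarith [hh.2]
        have hlu : 0 < l + u i := by linarith
        have hlw : 0 < l + w i := by linarith
        rw [← Real.log_mul hp.ne' hm.ne', ← Real.log_div (mul_pos hp hm).ne' hlu.ne',
          ← Real.log_div (div_pos (mul_pos hp hm) hlu).ne' hlw.ne', mup_mul]
        · congr 1
          change 1 + l * (a * x i) / ((l + u i) * (l + w i)) = _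
          field_simp
          ring
        · nlinarith [mul_nonneg h1 h2, mul_nonneg h1 h3, sq_nonneg (u i - w i), sq_nonneg (a * x i)]
      simp only [hterm] at hl1
      rw [Finset.sum_sub_distrib, Finset.sum_sub_distrib, Finset.sum_add_distrib] at hl1
      simp only [Fintype.sum_sum_type, Sum.elim_inl, Sum.elim_inr] at hl1 ⊢
      linarith)
  have hT3 := T3_sum_le Finset.univ (fun i => a * x i) u w (fun i _ => hax i) (fun i _ => hu0 i)
    (fun i _ => hw0 i)
  have hT3' : T3 (∑ i, a * x i) (∑ i, u i) (∑ i, w i) =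
      Real.negMulLog (a * ∑ i, x i) + Real.negMulLog (b * rtr Y) + Real.negMulLog (δ * rtr Y) -
      (sc (a * ∑ i, x i + (b + δ) * rtr Y) (b * δ * rtr Y ^ 2) +
        Real.negMulLog (a * ∑ i, x i + (b + δ) * rtr Y)) := by
    rw [hsum_u, hwsum, ← Finset.mul_sum]
    unfold T3 sc
    have e1 : a * ∑ i, x i + b * rtr Y + δ * rtr Y = a * ∑ i, x i + (b + δ) * rtr Y := by ring
    have e2 : b * rtr Y * (δ * rtr Y) = b * δ * rtr Y ^ 2 := by ring
    rw [e1, e2]
    ring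
  rw [hT3'] at hT3
  have hsumT : ∑ i, T3 (a * x i) (u i) (w i) =
      ∑ i, Real.negMulLog (a * x i) + ∑ i, Real.negMulLog (u i) + ∑ i, Real.negMulLog (w i) -
      ∑ i, Real.negMulLog (mup (a * x i + u i + w i) (u i * w i)) -
      ∑ i, Real.negMulLog (mum (a * x i + u i + w i) (u i * w i)) := by
    unfold T3
    rw [Finset.sum_sub_distrib, Finset.sum_sub_distrib, Finset.sum_add_distrib,
      Finset.sum_add_distrib]
  rw [hsumT] at hT3
  simp only [Fintype.sum_sum_type, Sum.elim_inl, Sum.elim_inr] at hmono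
  -- rewrite entropies
  have v1 : vnh ω = (∑ i, Real.negMulLog (hωp.1.eigenvalues i)) -
      Real.negMulLog (a * ∑ i, x i + (b + δ) * rtr Y) := by
    unfold vnh
    rw [vn_of_isHermitian hωp.1, hrω]
    congr 2
    ring
  have v2 : δ * vnh Y = (∑ i, Real.negMulLog (hYδ.1.eigenvalues i)) -
      Real.negMulLog (δ * rtr Y) := by
    rw [← vnh_smul hY.1]
    unfold vnh
    rw [vn_of_isHermitian hYδ.1, rtr_smul]
  have v3 : b * vnh Y = (∑ i, Real.negMulLog (hYb.1.eigenvalues i)) -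
      Real.negMulLog (b * rtr Y) := by
    rw [← vnh_smul hY.1]
    unfold vnh
    rw [vn_of_isHermitian hYb.1, rtr_smul]
  have hXh : (diagonal (fun i => (x i : ℂ)) : Matrix m m ℂ).IsHermitian := by
    rw [Matrix.isHermitian_diagonal_iff]
    intro i
    exact Complex.conj_ofReal _
  have v4 : a * vnh (diagonal (fun i => (x i : ℂ))) = (∑ i, Real.negMulLog (a * x i)) -
      Real.negMulLog (a * ∑ i, x i) := by
    rw [← vnh_smul hXh]
    have e1 : (a : ℂ) • (diagonal (fun i => (x i : ℂ)) : Matrix m m ℂ) =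
        diagonal (fun i => ((a * x i : ℝ) : ℂ)) := by
      rw [← diagonal_smul]
      congr 1
      ext i
      simp
    unfold vnh
    rw [e1, vn_diagonal]
    congr 2
    unfold rtr
    rw [Matrix.trace_diagonal, Finset.mul_sum]
    simp
  have e5 : (b + δ) * vnh Y = b * vnh Y + δ * vnh Y := by ring
  rw [Fintype.sum_sum_type] at v1
  rw [v1, v4, e5, v2, v3]
  linarith

theorem vnh_conj_unitary {m : Type*} [Fintype m] [DecidableEq m] (A U : Matrix m m ℂ)
    (hA : A.IsHermitian) (hU : Uᴴ * U = 1) : vnh (U * A * Uᴴ) = vnh A := by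
  unfold vnh
  rw [vn_conj_unitary A U hA hU, rtr_conj A U hU]

/-- The three-leaf inequality. -/
theorem three_leaf {m : Type*} [Fintype m] [DecidableEq m] (X Z Y : Matrix m m ℂ)
    (hM : (fromBlocks X Z Zᴴ Y).PosSemidef)
    {a b δ g : ℝ} (ha : 0 ≤ a) (hb : 0 ≤ b) (hδ : 0 ≤ δ) (hg : g ^ 2 = a * δ) :
    sc (a * rtr X + (b + δ) * rtr Y) (b * δ * rtr Y ^ 2) + a * vnh X + (b + δ) * vnh Y ≤
      vnh (fromBlocks ((a : ℂ) • X + (b : ℂ) • Y) ((g : ℂ) • Z) ((g : ℂ) • Zᴴ)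
        ((δ : ℂ) • Y)) := by
  have hX : X.PosSemidef := by
    have := hM.submatrix Sum.inl
    have h2 : (fromBlocks X Z Zᴴ Y).submatrix Sum.inl Sum.inl = X := by
      ext i j; simp
    rwa [h2] at this
  have hY : Y.PosSemidef := by
    have := hM.submatrix Sum.inr
    have h2 : (fromBlocks X Z Zᴴ Y).submatrix Sum.inr Sum.inr = Y := by
      ext i j; simp
    rwa [h2] at this
  obtain ⟨U, hU1, hU2, hXU⟩ := exists_diag hX.1
  set x := hX.1.eigenvalues with hx
  set Y0 := Uᴴ * Y * U with hY0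
  set Z0 := Uᴴ * Z * U with hZ0
  have hcancel : ∀ A : Matrix m m ℂ, U * (Uᴴ * A * U) * Uᴴ = A := by
    intro A
    calc U * (Uᴴ * A * U) * Uᴴ = (U * Uᴴ) * A * (U * Uᴴ) := by simp only [Matrix.mul_assoc]
      _ = A := by rw [hU2, Matrix.one_mul, Matrix.mul_one]
  have hcancel' : ∀ A : Matrix m m ℂ, Uᴴ * (U * A * Uᴴ) * U = A := by
    intro A
    calc Uᴴ * (U * A * Uᴴ) * U = (Uᴴ * U) * A * (Uᴴ * U) := by simp only [Matrix.mul_assoc]
      _ = A := by rw [hU1, Matrix.one_mul, Matrix.mul_one]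
  have hZ0H : Z0ᴴ = Uᴴ * Zᴴ * U := by
    rw [hZ0, conjTranspose_mul, conjTranspose_mul, conjTranspose_conjTranspose, Matrix.mul_assoc]
  have hM0 : (fromBlocks (diagonal (fun i => (x i : ℂ))) Z0 Z0ᴴ Y0).PosSemidef := by
    have h1 := hM.conjTranspose_mul_mul_same (fromBlocks U 0 0 U)
    rw [fromBlocks_conjTranspose, fromBlocks_multiply, fromBlocks_multiply] at h1
    simp only [conjTranspose_zero, Matrix.mul_zero, Matrix.zero_mul, add_zero, zero_add] at h1
    have h2 : Uᴴ * X * U = diagonal (fun i => (x i : ℂ)) := by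
      conv_lhs => rw [hXU]
      exact hcancel' _
    rw [h2] at h1
    rw [hZ0H]
    exact h1
  have hY0p : Y0.PosSemidef := hY.conjTranspose_mul_mul_same U
  have hmain := three_leaf_diag x Z0 Y0 hM0 ha hb hδ hg
  have r1 : rtr X = ∑ i, x i := rtr_eq_sum_eigenvalues hX.1
  have r2 : rtr Y0 = rtr Y := by
    have := rtr_conj Y0 U hU1
    rw [hY0, hcancel] at this
    exact this.symm
  have hXh : (diagonal (fun i => (x i : ℂ)) : Matrix m m ℂ).IsHermitian := by
    rw [Matrix.isHermitian_diagonal_iff]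
    intro i
    exact Complex.conj_ofReal _
  have r3 : vnh (diagonal (fun i => (x i : ℂ)) : Matrix m m ℂ) = vnh X := by
    rw [← vnh_conj_unitary _ U hXh hU1, ← hXU]
  have r4 : vnh Y0 = vnh Y := by
    rw [← vnh_conj_unitary _ U hY0p.1 hU1, hY0, hcancel]
  have hωp := leaf_posSemidef _ Z0 Y0 hM0 hY0p ha hb hδ hg
  have r5 := vnh_fromBlocks_conj _ _ _ _ U hωp.1 hU1
  have c1 : U * ((a : ℂ) • diagonal (fun i => (x i : ℂ)) + (b : ℂ) • Y0) * Uᴴ =
      (a : ℂ) • X + (b : ℂ) • Y := by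
    rw [Matrix.mul_add, Matrix.add_mul, Matrix.mul_smul, Matrix.smul_mul, ← hXU, Matrix.mul_smul,
      Matrix.smul_mul, hY0, hcancel]
  have c2 : U * ((g : ℂ) • Z0) * Uᴴ = (g : ℂ) • Z := by
    rw [Matrix.mul_smul, Matrix.smul_mul, hZ0, hcancel]
  have c3 : U * ((g : ℂ) • Z0ᴴ) * Uᴴ = (g : ℂ) • Zᴴ := by
    rw [Matrix.mul_smul, Matrix.smul_mul, hZ0H, hcancel]
  have c4 : U * ((δ : ℂ) • Y0) * Uᴴ = (δ : ℂ) • Y := by
    rw [Matrix.mul_smul, Matrix.smul_mul, hY0, hcancel]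
  rw [c1, c2, c3, c4] at r5
  rw [r5, r1, ← r2, ← r3, ← r4]
  exact hmain

/-- The mirrored three-leaf inequality. -/
theorem three_leaf' {m : Type*} [Fintype m] [DecidableEq m] (X Z Y : Matrix m m ℂ)
    (hM : (fromBlocks X Z Zᴴ Y).PosSemidef)
    {a a' δ g : ℝ} (ha : 0 ≤ a) (ha' : 0 ≤ a') (hδ : 0 ≤ δ) (hg : g ^ 2 = a * δ) :
    sc ((a + a') * rtr X + δ * rtr Y) (a * a' * rtr X ^ 2) + (a + a') * vnh X + δ * vnh Y ≤
      vnh (fromBlocks ((a : ℂ) • X) ((g : ℂ) • Z) ((g : ℂ) • Zᴴ)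
        ((a' : ℂ) • X + (δ : ℂ) • Y)) := by
  have hM' : (fromBlocks Y Zᴴ (Zᴴ)ᴴ X).PosSemidef := by
    rw [conjTranspose_conjTranspose]
    have := hM.submatrix (Equiv.sumComm m m)
    rwa [Equiv.sumComm_apply, fromBlocks_submatrix_sum_swap_sum_swap] at this
  have h := three_leaf Y Zᴴ X hM' hδ ha' ha (by rw [hg]; ring)
  rw [conjTranspose_conjTranspose] at h
  rw [vnh_fromBlocks_swap]
  have e1 : (a' : ℂ) • X + (δ : ℂ) • Y = (δ : ℂ) • Y + (a' : ℂ) • X := add_comm _ _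
  have e2 : (a + a') * rtr X + δ * rtr Y = δ * rtr Y + (a' + a) * rtr X := by ring
  have e3 : a * a' * rtr X ^ 2 = a' * a * rtr X ^ 2 := by ring
  rw [e1, e2, e3]
  linarith

end Vale.Agent.P358
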