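import Vale.Agent.P358.Main
import Vale.Agent.P358.Scalar
import Vale.Agent.P358.Classical

/-!
# P358 [Q]: the tensor power of the channel and the upper bound

Blocks: `blk ρ a b` is the block of `ρ` with first bits `a, b`. The recursion `tensorPow_blk`
says that `A^{⊗(n+1)} ρ` is obtained by applying `A^{⊗n}` to the four blocks and then `A` on the
first bit. Complete positivity (`blocks_posSemidef`) via the Kraus form: `A` has Kraus operators,
so `A^{⊗n}` with a spectator qubit is `ρ ↦ ∑_j K_j ρ K_j*` with product Kraus operators.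
-/

namespace Vale.Agent.P358

open Matrix
open scoped ComplexOrder

/-- block of a matrix on bit strings according to the first bit -/
def blk {n : ℕ} (ρ : Matrix (Fin (n + 1) → Fin 2) (Fin (n + 1) → Fin 2) ℂ) (a b : Fin 2) :
    Matrix (Fin n → Fin 2) (Fin n → Fin 2) ℂ :=
  fun x y => ρ (Fin.cons a x) (Fin.cons b y)

/-- population of bit `i` in value `b` -/
noncomputable def pop {n : ℕ} (ρ : Matrix (Fin n → Fin 2) (Fin n → Fin 2) ℂ) (i : Fin n)
    (b : Fin 2) : ℝ :=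
  marg (fun x => (ρ x x).re) i b

/-- Kraus operators of the generalized amplitude-damping channel -/
noncomputable def kraus (γ ν : ℝ) (k : Fin 4) : Matrix (Fin 2) (Fin 2) ℂ :=
  match k with
  | 0 => !![(Real.sqrt (1 - ν) : ℂ), 0; 0, (Real.sqrt (1 - ν) * Real.sqrt (1 - γ) : ℝ)]
  | 1 => !![0, (Real.sqrt (1 - ν) * Real.sqrt γ : ℝ); 0, 0]
  | 2 => !![((Real.sqrt ν * Real.sqrt (1 - γ) : ℝ) : ℂ), 0; 0, (Real.sqrt ν : ℂ)]
  | 3 => !![0, 0; ((Real.sqrt ν * Real.sqrt γ : ℝ) : ℂ), 0]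

theorem gadc_single_kraus {γ ν : ℝ} (hγ : γ ∈ Set.Icc (0 : ℝ) 1) (hν : ν ∈ Set.Icc (0 : ℝ) 1)
    (a b c d : Fin 2) :
    gadc γ ν (Matrix.single a b 1) c d = ∑ k, kraus γ ν k c a * star (kraus γ ν k d b) := by
  obtain ⟨hγ0, hγ1⟩ := hγ
  obtain ⟨hν0, hν1⟩ := hν
  have e1 : ((Real.sqrt (1 - ν) : ℝ) : ℂ) ^ 2 = 1 - ν := by
    rw [← Complex.ofReal_pow, Real.sq_sqrt (by linarith)]; push_cast; ring
  have e2 : ((Real.sqrt ν : ℝ) : ℂ) ^ 2 = ν := by
    rw [← Complex.ofReal_pow, Real.sq_sqrt (by linarith)]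
  have e3 : ((Real.sqrt (1 - γ) : ℝ) : ℂ) ^ 2 = 1 - γ := by
    rw [← Complex.ofReal_pow, Real.sq_sqrt (by linarith)]; push_cast; ring
  have e4 : ((Real.sqrt γ : ℝ) : ℂ) ^ 2 = γ := by
    rw [← Complex.ofReal_pow, Real.sq_sqrt (by linarith)]
  fin_cases a <;> fin_cases b <;> fin_cases c <;> fin_cases d <;>
    simp [gadc, kraus, Fin.sum_univ_four]
  · linear_combination -e1 - ((Real.sqrt (1 - γ) : ℝ) : ℂ) ^ 2 * e2 - (ν : ℂ) * e3
  · linear_combination -((Real.sqrt γ : ℝ) : ℂ) ^ 2 * e2 - (ν : ℂ) * e4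
  · linear_combination -((Real.sqrt (1 - γ) : ℝ) : ℂ) * e1 - ((Real.sqrt (1 - γ) : ℝ) : ℂ) * e2
  · linear_combination -((Real.sqrt (1 - γ) : ℝ) : ℂ) * e1 - ((Real.sqrt (1 - γ) : ℝ) : ℂ) * e2
  · linear_combination -((Real.sqrt γ : ℝ) : ℂ) ^ 2 * e1 - (1 - (ν : ℂ)) * e4
  · linear_combination -((Real.sqrt (1 - γ) : ℝ) : ℂ) ^ 2 * e1 - (1 - (ν : ℂ)) * e3 - e2

/-- product Kraus operator -/
noncomputable def krausN (γ ν : ℝ) {n : ℕ} (κ : Fin n → Fin 4) :
    Matrix (Fin n → Fin 2) (Fin n → Fin 2) ℂ :=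
  fun x x' => ∏ i, kraus γ ν (κ i) (x i) (x' i)

theorem tensorPow_eq_kraus {n : ℕ} {γ ν : ℝ} (hγ : γ ∈ Set.Icc (0 : ℝ) 1)
    (hν : ν ∈ Set.Icc (0 : ℝ) 1) (ρ : Matrix (Fin n → Fin 2) (Fin n → Fin 2) ℂ) :
    tensorPow (gadc γ ν) n ρ = ∑ κ : Fin n → Fin 4, krausN γ ν κ * ρ * (krausN γ ν κ)ᴴ := by
  ext x y
  rw [Matrix.sum_apply]
  have h1 : ∀ x' y' : Fin n → Fin 2, ∏ i, gadc γ ν (Matrix.single (x' i) (y' i) 1) (x i) (y i) =
      ∑ κ : Fin n → Fin 4, (∏ i, kraus γ ν (κ i) (x i) (x' i)) *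
        star (∏ i, kraus γ ν (κ i) (y i) (y' i)) := by
    intro x' y'
    simp_rw [gadc_single_kraus hγ hν]
    rw [Finset.prod_univ_sum, Fintype.piFinset_univ]
    apply Finset.sum_congr rfl
    intro κ _
    rw [Finset.prod_mul_distrib]
    congr 1
    rw [star_prod]
  simp only [tensorPow, h1, Matrix.mul_apply, conjTranspose_apply, krausN, Finset.sum_mul]
  rw [Finset.sum_comm]
  symm
  rw [Finset.sum_comm]
  apply Finset.sum_congr rfl
  intro y' _
  rw [Finset.sum_comm]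
  apply Finset.sum_congr rfl
  intro x' _
  apply Finset.sum_congr rfl
  intro κ _
  ring

/-- splitting off the first bit -/
def consBit (n : ℕ) : (Fin n → Fin 2) ⊕ (Fin n → Fin 2) ≃ (Fin (n + 1) → Fin 2) where
  toFun := Sum.elim (fun x => Fin.cons 0 x) (fun x => Fin.cons 1 x)
  invFun := fun x => if x 0 = 0 then Sum.inl (Fin.tail x) else Sum.inr (Fin.tail x)
  left_inv := by
    rintro (x | x) <;> simp
  right_inv := by
    intro x
    by_cases h : x 0 = 0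
    · simp only [h, if_true, Sum.elim_inl]
      conv_rhs => rw [← Fin.cons_self_tail x, h]
    · have h1 : x 0 = 1 := by
        rcases Fin.exists_fin_two.1 ⟨x 0, rfl⟩ with h2 | h2
        · exact absurd h2 h
        · exact h2
      simp only [h, if_false, Sum.elim_inr]
      conv_rhs => rw [← Fin.cons_self_tail x, h1]

theorem submatrix_consBit {n : ℕ}
    (ρ : Matrix (Fin (n + 1) → Fin 2) (Fin (n + 1) → Fin 2) ℂ) :
    ρ.submatrix (consBit n) (consBit n) =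
      fromBlocks (blk ρ 0 0) (blk ρ 0 1) (blk ρ 1 0) (blk ρ 1 1) := by
  ext i j
  rcases i with i | i <;> rcases j with j | j <;> rfl

theorem fromBlocks_sum {m ι : Type*} (s : Finset ι) (A B C D : ι → Matrix m m ℂ) :
    fromBlocks (∑ i ∈ s, A i) (∑ i ∈ s, B i) (∑ i ∈ s, C i) (∑ i ∈ s, D i) =
      ∑ i ∈ s, fromBlocks (A i) (B i) (C i) (D i) := by
  ext i j
  rcases i with i | i <;> rcases j with j | j <;> simp [Matrix.sum_apply]

theorem blocks_posSemidef {n : ℕ} {γ ν : ℝ} (hγ : γ ∈ Set.Icc (0 : ℝ) 1)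
    (hν : ν ∈ Set.Icc (0 : ℝ) 1)
    (ρ : Matrix (Fin (n + 1) → Fin 2) (Fin (n + 1) → Fin 2) ℂ) (hρ : ρ.PosSemidef) :
    (fromBlocks (tensorPow (gadc γ ν) n (blk ρ 0 0)) (tensorPow (gadc γ ν) n (blk ρ 0 1))
      (tensorPow (gadc γ ν) n (blk ρ 1 0)) (tensorPow (gadc γ ν) n (blk ρ 1 1))).PosSemidef := by
  have h0 := hρ.submatrix (consBit n)
  rw [submatrix_consBit] at h0
  simp only [tensorPow_eq_kraus hγ hν]
  rw [fromBlocks_sum]
  apply posSemidef_sum
  intro κ _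
  have h1 := h0.mul_mul_conjTranspose_same (fromBlocks (krausN γ ν κ) 0 0 (krausN γ ν κ))
  rw [fromBlocks_conjTranspose, fromBlocks_multiply, fromBlocks_multiply] at h1
  simpa using h1

theorem tensorPow_posSemidef {n : ℕ} {γ ν : ℝ} (hγ : γ ∈ Set.Icc (0 : ℝ) 1)
    (hν : ν ∈ Set.Icc (0 : ℝ) 1)
    (ρ : Matrix (Fin n → Fin 2) (Fin n → Fin 2) ℂ) (hρ : ρ.PosSemidef) :
    (tensorPow (gadc γ ν) n ρ).PosSemidef := by
  rw [tensorPow_eq_kraus hγ hν]
  exact posSemidef_sum _ fun κ _ => hρ.mul_mul_conjTranspose_same _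

/-- recursion of the tensor power -/
theorem blk_tensorPow {n : ℕ} (N : Matrix (Fin 2) (Fin 2) ℂ → Matrix (Fin 2) (Fin 2) ℂ)
    (ρ : Matrix (Fin (n + 1) → Fin 2) (Fin (n + 1) → Fin 2) ℂ) (a b : Fin 2) :
    blk (tensorPow N (n + 1) ρ) a b =
      ∑ a' : Fin 2, ∑ b' : Fin 2, N (Matrix.single a' b' 1) a b • tensorPow N n (blk ρ a' b') := by
  ext x y
  have hs : ∀ f : (Fin (n + 1) → Fin 2) → ℂ, ∑ z, f z = ∑ c : Fin 2, ∑ z : Fin n → Fin 2,
      f (Fin.cons c z) := by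
    intro f
    rw [← (consBit n).sum_comp, Fintype.sum_sum_type, Fin.sum_univ_two]
    rfl
  simp only [blk, tensorPow, Matrix.sum_apply, Matrix.smul_apply, smul_eq_mul, Finset.mul_sum]
  rw [hs]
  apply Finset.sum_congr rfl
  intro a' _
  simp_rw [hs]
  rw [Finset.sum_comm]
  apply Finset.sum_congr rfl
  intro b' _
  apply Finset.sum_congr rfl
  intro x' _
  apply Finset.sum_congr rfl
  intro y' _
  rw [Fin.prod_univ_succ]
  simp only [Fin.cons_zero, Fin.cons_succ]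
  ring

theorem blk_gadc {n : ℕ} (γ ν : ℝ)
    (ρ : Matrix (Fin (n + 1) → Fin 2) (Fin (n + 1) → Fin 2) ℂ) :
    fromBlocks (blk (tensorPow (gadc γ ν) (n + 1) ρ) 0 0)
      (blk (tensorPow (gadc γ ν) (n + 1) ρ) 0 1) (blk (tensorPow (gadc γ ν) (n + 1) ρ) 1 0)
      (blk (tensorPow (gadc γ ν) (n + 1) ρ) 1 1) =
    fromBlocks
        (((1 - γ * ν : ℝ) : ℂ) • tensorPow (gadc γ ν) n (blk ρ 0 0) +
          ((γ * (1 - ν) : ℝ) : ℂ) • tensorPow (gadc γ ν) n (blk ρ 1 1))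
        ((Real.sqrt (1 - γ) : ℂ) • tensorPow (gadc γ ν) n (blk ρ 0 1))
        ((Real.sqrt (1 - γ) : ℂ) • tensorPow (gadc γ ν) n (blk ρ 1 0))
        (((γ * ν : ℝ) : ℂ) • tensorPow (gadc γ ν) n (blk ρ 0 0) +
          ((1 - γ * (1 - ν) : ℝ) : ℂ) • tensorPow (gadc γ ν) n (blk ρ 1 1)) := by
  have e : ∀ a b, blk (tensorPow (gadc γ ν) (n + 1) ρ) a b = _ :=
    fun a b => blk_tensorPow (gadc γ ν) ρ a b
  simp only [e, Fin.sum_univ_two]
  have g : ∀ a b c d : Fin 2, gadc γ ν (Matrix.single a b 1) c d =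
      if a = b then (if c = d then
        (if c = 0 then (if a = 0 then ((1 - γ * ν : ℝ) : ℂ) else ((γ * (1 - ν) : ℝ) : ℂ))
          else (if a = 0 then ((γ * ν : ℝ) : ℂ) else ((1 - γ * (1 - ν) : ℝ) : ℂ))) else 0)
      else (if a = c ∧ b = d then (Real.sqrt (1 - γ) : ℂ) else 0) := by
    intro a b c d
    fin_cases a <;> fin_cases b <;> fin_cases c <;> fin_cases d <;>
      simp [gadc] <;> ring
  simp only [g]
  congr 1 <;> simp

/-- classical transition probabilities of the channel -/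
noncomputable def trW (γ ν : ℝ) (c a : Fin 2) : ℝ :=
  if a = 0 then (if c = 0 then 1 - γ * ν else γ * ν)
  else (if c = 0 then 1 - ((1 - γ) + γ * ν) else (1 - γ) + γ * ν)

theorem gadc_single_diag (γ ν : ℝ) (a b c : Fin 2) :
    gadc γ ν (Matrix.single a b 1) c c = if a = b then ((trW γ ν c a : ℝ) : ℂ) else 0 := by
  fin_cases a <;> fin_cases b <;> fin_cases c <;>
    simp [gadc, trW]

theorem trW_sum (γ ν : ℝ) (a : Fin 2) : ∑ c, trW γ ν c a = 1 := by
  fin_cases a <;> simp [trW, Fin.sum_univ_two]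

theorem tensorPow_diag {n : ℕ} (γ ν : ℝ) (ρ : Matrix (Fin n → Fin 2) (Fin n → Fin 2) ℂ)
    (x : Fin n → Fin 2) :
    tensorPow (gadc γ ν) n ρ x x = ∑ x', ((∏ i, trW γ ν (x i) (x' i) : ℝ) : ℂ) * ρ x' x' := by
  unfold tensorPow
  apply Finset.sum_congr rfl
  intro x' _
  rw [Finset.sum_eq_single x']
  · congr 1
    simp_rw [gadc_single_diag]
    simp
  · intro y' _ hne
    obtain ⟨i, hi⟩ : ∃ i, x' i ≠ y' i := by
      by_contra hcon
      push Not at hcon
      exact hne (funext fun i => (hcon i).symm)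
    rw [Finset.prod_eq_zero (Finset.mem_univ i), zero_mul]
    rw [gadc_single_diag, if_neg hi]
  · intro h
    exact absurd (Finset.mem_univ _) h

theorem sum_trW_fiber {n : ℕ} (γ ν : ℝ) (x' : Fin n → Fin 2) (i : Fin n) (b : Fin 2) :
    ∑ x : Fin n → Fin 2, (if x i = b then ∏ j, trW γ ν (x j) (x' j) else 0) =
      trW γ ν b (x' i) := by
  have h1 : ∀ x : Fin n → Fin 2, (if x i = b then ∏ j, trW γ ν (x j) (x' j) else 0) =
      ∏ j, (trW γ ν (x j) (x' j) * (if j = i then (if x j = b then 1 else 0) else 1)) := by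
    intro x
    rw [Finset.prod_mul_distrib, Finset.prod_ite_eq' Finset.univ i]
    simp
  simp_rw [h1]
  have h2 := Finset.prod_univ_sum (fun _ : Fin n => (Finset.univ : Finset (Fin 2)))
    (fun j c => trW γ ν c (x' j) * (if j = i then (if c = b then 1 else 0) else 1))
  rw [Fintype.piFinset_univ] at h2
  rw [← h2]
  rw [Finset.prod_eq_single i]
  · simp
  · intro j _ hj
    have h3 := trW_sum γ ν (x' j)
    rw [Fin.sum_univ_two] at h3
    simp [hj, h3]
  · intro h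
    exact absurd (Finset.mem_univ _) h

theorem pop_tensorPow_aux {n : ℕ} (γ ν : ℝ) (ρ : Matrix (Fin n → Fin 2) (Fin n → Fin 2) ℂ)
    (i : Fin n) (b : Fin 2) :
    pop (tensorPow (gadc γ ν) n ρ) i b = trW γ ν b 0 * pop ρ i 0 + trW γ ν b 1 * pop ρ i 1 := by
  unfold pop marg
  simp_rw [tensorPow_diag, Complex.re_sum, Complex.re_ofReal_mul]
  have h1 : ∀ x : Fin n → Fin 2, (if x i = b then ∑ x', (∏ j, trW γ ν (x j) (x' j)) *
      (ρ x' x').re else 0) = ∑ x', (if x i = b then ∏ j, trW γ ν (x j) (x' j) else 0) *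
      (ρ x' x').re := by
    intro x
    split_ifs <;> simp
  simp_rw [h1]
  rw [Finset.sum_comm]
  simp_rw [← Finset.sum_mul, sum_trW_fiber]
  rw [Finset.mul_sum, Finset.mul_sum, ← Finset.sum_add_distrib]
  apply Finset.sum_congr rfl
  intro x _
  rcases Fin.exists_fin_two.1 ⟨x i, rfl⟩ with h | h <;> simp [h]

theorem pop_tensorPow {n : ℕ} (γ ν : ℝ) (ρ : Matrix (Fin n → Fin 2) (Fin n → Fin 2) ℂ)
    (h1 : ρ.trace = 1) (i : Fin n) :
    pop (tensorPow (gadc γ ν) n ρ) i 1 = (1 - γ) * pop ρ i 1 + γ * ν ∧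
    pop (tensorPow (gadc γ ν) n ρ) i 0 = 1 - ((1 - γ) * pop ρ i 1 + γ * ν) := by
  have h2 : pop ρ i 0 = 1 - pop ρ i 1 := by
    have h3 : pop ρ i 0 + pop ρ i 1 = ρ.trace.re := by
      unfold pop marg
      rw [← Finset.sum_add_distrib, Matrix.trace, Complex.re_sum]
      apply Finset.sum_congr rfl
      intro x _
      rcases Fin.exists_fin_two.1 ⟨x i, rfl⟩ with h | h <;> simp [h]
    rw [h1, Complex.one_re] at h3
    linarith
  rw [pop_tensorPow_aux, pop_tensorPow_aux, h2]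
  simp only [trW, if_true, one_ne_zero, if_false]
  constructor <;> ring

theorem tensorPow_trace {n : ℕ} (γ ν : ℝ)
    (ρ : Matrix (Fin n → Fin 2) (Fin n → Fin 2) ℂ) :
    (tensorPow (gadc γ ν) n ρ).trace = ρ.trace := by
  rw [Matrix.trace, Matrix.trace]
  simp_rw [diag_apply, tensorPow_diag]
  rw [Finset.sum_comm]
  apply Finset.sum_congr rfl
  intro x' _
  rw [← Finset.sum_mul, ← Complex.ofReal_sum]
  have h2 := Finset.prod_univ_sum (fun _ : Fin n => (Finset.univ : Finset (Fin 2)))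
    (fun j c => trW γ ν c (x' j))
  rw [Fintype.piFinset_univ] at h2
  rw [← h2, Finset.prod_eq_one (fun j _ => trW_sum γ ν (x' j))]
  simp

theorem tensorPow_sum {n : ℕ} (N : Matrix (Fin 2) (Fin 2) ℂ → Matrix (Fin 2) (Fin 2) ℂ)
    {ι : Type*} (s : Finset ι) (c : ι → ℂ)
    (ρ : ι → Matrix (Fin n → Fin 2) (Fin n → Fin 2) ℂ) :
    tensorPow N n (∑ i ∈ s, c i • ρ i) = ∑ i ∈ s, c i • tensorPow N n (ρ i) := by
  ext x y
  rw [Matrix.sum_apply]
  simp only [tensorPow, Matrix.smul_apply, Matrix.sum_apply, smul_eq_mul, Finset.mul_sum]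
  symm
  rw [Finset.sum_comm]
  apply Finset.sum_congr rfl
  intro x' _
  rw [Finset.sum_comm]
  apply Finset.sum_congr rfl
  intro y' _
  apply Finset.sum_congr rfl
  intro a _
  ring

theorem entropy_lower_aux {γ ν : ℝ} (hγ : γ ∈ Set.Icc (0 : ℝ) 1)
    (hν : ν ∈ Set.Icc (0 : ℝ) 1) : ∀ {n : ℕ}
    (ρ : Matrix (Fin n → Fin 2) (Fin n → Fin 2) ℂ), ρ.PosSemidef →
    ∑ i, shat γ ν (pop ρ i 0) (pop ρ i 1) ≤ vnh (tensorPow (gadc γ ν) n ρ) := by
  intro n
  induction n with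
  | zero =>
    intro ρ hρ
    simpa using vnh_nonneg (tensorPow_posSemidef hγ hν ρ hρ)
  | succ n ih =>
    intro ρ hρ
    have hb := blocks_posSemidef hγ hν ρ hρ
    have h0 := hρ.submatrix (consBit n)
    rw [submatrix_consBit] at h0
    have h00 : (blk ρ 0 0).PosSemidef := h0.submatrix Sum.inl
    have h11 : (blk ρ 1 1).PosSemidef := h0.submatrix Sum.inr
    have hH : tensorPow (gadc γ ν) n (blk ρ 1 0) = (tensorPow (gadc γ ν) n (blk ρ 0 1))ᴴ := by
      have := hb.1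
      rw [isHermitian_fromBlocks_iff] at this
      exact this.2.1.symm
    rw [hH] at hb
    have hmain := main_ineq _ _ _ hb hγ hν
    rw [← hH, ← blk_gadc, ← submatrix_consBit, vnh_submatrix_equiv] at hmain
    have i0 := ih (blk ρ 0 0) h00
    have i1 := ih (blk ρ 1 1) h11
    have t0 : rtr (tensorPow (gadc γ ν) n (blk ρ 0 0)) = pop ρ 0 0 := by
      unfold rtr pop marg
      rw [tensorPow_trace, ← (consBit n).sum_comp, Fintype.sum_sum_type, Matrix.trace,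
        Complex.re_sum]
      simp [consBit, blk]
    have t1 : rtr (tensorPow (gadc γ ν) n (blk ρ 1 1)) = pop ρ 0 1 := by
      unfold rtr pop marg
      rw [tensorPow_trace, ← (consBit n).sum_comp, Fintype.sum_sum_type, Matrix.trace,
        Complex.re_sum]
      simp [consBit, blk]
    have hp : ∀ (i : Fin n) (b : Fin 2), pop ρ i.succ b = pop (blk ρ 0 0) i b + pop (blk ρ 1 1) i b := by
      intro i b
      unfold pop marg
      rw [← (consBit n).sum_comp, Fintype.sum_sum_type]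
      simp [consBit, blk]
    rw [t0, t1] at hmain
    rw [Fin.sum_univ_succ]
    have hsub : ∑ i : Fin n, shat γ ν (pop ρ i.succ 0) (pop ρ i.succ 1) ≤
        ∑ i, shat γ ν (pop (blk ρ 0 0) i 0) (pop (blk ρ 0 0) i 1) +
        ∑ i, shat γ ν (pop (blk ρ 1 1) i 0) (pop (blk ρ 1 1) i 1) := by
      rw [← Finset.sum_add_distrib]
      apply Finset.sum_le_sum
      intro i _
      rw [hp, hp]
      have pn : ∀ {M : Matrix (Fin n → Fin 2) (Fin n → Fin 2) ℂ}, M.PosSemidef →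
          ∀ (i : Fin n) (b : Fin 2), 0 ≤ pop M i b := fun hM i b =>
        marg_nonneg (fun x => (Complex.le_def.1 (hM.diag_nonneg (i := x))).1) i b
      exact shat_subadd hγ hν (pn h00 i 0) (pn h00 i 1) (pn h11 i 0) (pn h11 i 1)
    linarith

/-- The lower bound on the output entropy of an arbitrary (entangled) input. Induction on `n`
by `main_ineq` (first bit), the induction hypothesis for the two diagonal blocks, and
`shat_subadd`. -/
theorem entropy_lower {n : ℕ} {γ ν : ℝ} (hγ : γ ∈ Set.Icc (0 : ℝ) 1)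
    (hν : ν ∈ Set.Icc (0 : ℝ) 1)
    (ρ : Matrix (Fin n → Fin 2) (Fin n → Fin 2) ℂ) (hρ : ρ.PosSemidef) :
    ∑ i, shat γ ν (pop ρ i 0) (pop ρ i 1) ≤ vnh (tensorPow (gadc γ ν) n ρ) :=
  entropy_lower_aux hγ hν ρ hρ

/-- The upper bound on the output entropy -/
theorem entropy_upper {n : ℕ} {γ ν : ℝ} (hγ : γ ∈ Set.Icc (0 : ℝ) 1)
    (hν : ν ∈ Set.Icc (0 : ℝ) 1)
    (ρ : Matrix (Fin n → Fin 2) (Fin n → Fin 2) ℂ) (hρ : ρ.PosSemidef) (h1 : ρ.trace = 1) :
    vn (tensorPow (gadc γ ν) n ρ) ≤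
      ∑ i, Real.binEntropy ((1 - γ) * pop ρ i 1 + γ * ν) := by
  have hT := tensorPow_posSemidef hγ hν ρ hρ
  have hT1 : (tensorPow (gadc γ ν) n ρ).trace = 1 := by rw [tensorPow_trace, h1]
  refine (vn_le_diag hT).trans ?_
  have h2 := entropy_le_sum_marg (fun x => (tensorPow (gadc γ ν) n ρ x x).re)
    (fun x => (Complex.le_def.1 (hT.diag_nonneg (i := x))).1) (by
      rw [← Complex.re_sum]
      have : ∑ x, tensorPow (gadc γ ν) n ρ x x = (tensorPow (gadc γ ν) n ρ).trace := rfl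
      rw [this, hT1, Complex.one_re])
  refine h2.trans (le_of_eq ?_)
  apply Finset.sum_congr rfl
  intro i _
  have h3 := pop_tensorPow γ ν ρ h1 i
  unfold pop at h3
  rw [Fin.sum_univ_two, Real.binEntropy_eq_negMulLog_add_negMulLog_one_sub, h3.1, h3.2, add_comm]
  rfl

theorem entropyBits_eq' {m : Type*} [Fintype m] [DecidableEq m] (ρ : Matrix m m ℂ) :
    entropyBits ρ = vn ρ / Real.log 2 := by
  unfold entropyBits vn
  split_ifs <;> simp

theorem pop_sum {n : ℕ} {K : ℕ} (q : Fin K → ℝ)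
    (ρ : Fin K → Matrix (Fin n → Fin 2) (Fin n → Fin 2) ℂ) (i : Fin n) (b : Fin 2) :
    pop (∑ a, (q a : ℂ) • ρ a) i b = ∑ a, q a * pop (ρ a) i b := by
  unfold pop marg
  simp_rw [Finset.mul_sum]
  rw [Finset.sum_comm]
  apply Finset.sum_congr rfl
  intro x _
  split_ifs with h
  · rw [Matrix.sum_apply, Complex.re_sum]
    apply Finset.sum_congr rfl
    intro a _
    rw [Matrix.smul_apply, smul_eq_mul, Complex.re_ofReal_mul]
  · simp

theorem pop_add_pop {n : ℕ} (ρ : Matrix (Fin n → Fin 2) (Fin n → Fin 2) ℂ) (i : Fin n) :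
    pop ρ i 0 + pop ρ i 1 = ρ.trace.re := by
  unfold pop marg
  rw [← Finset.sum_add_distrib, Matrix.trace, Complex.re_sum]
  apply Finset.sum_congr rfl
  intro x _
  rcases Fin.exists_fin_two.1 ⟨x i, rfl⟩ with h | h <;> simp [h]

theorem pop_nonneg {n : ℕ} {ρ : Matrix (Fin n → Fin 2) (Fin n → Fin 2) ℂ} (hρ : ρ.PosSemidef)
    (i : Fin n) (b : Fin 2) : 0 ≤ pop ρ i b :=
  marg_nonneg (fun x => (Complex.le_def.1 (hρ.diag_nonneg (i := x))).1) i b

theorem holevo_upper {n : ℕ} {γ ν : ℝ} (hγ : γ ∈ Set.Icc (0 : ℝ) 1)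
    (hν : ν ∈ Set.Icc (0 : ℝ) 1) {R : ℝ} (hR : ∀ q ∈ Set.Icc (0 : ℝ) 1, rate γ ν q ≤ R)
    {v : ℝ} (hv : v ∈ holevoSet (tensorPow (gadc γ ν) n)) : v ≤ n * R := by
  obtain ⟨K, q, ρ, hq, hq1, hρ, rfl⟩ := hv
  have hlog : 0 < Real.log 2 := Real.log_pos (by norm_num)
  set T := tensorPow (gadc γ ν) n with hT
  set σ := ∑ a, (q a : ℂ) • ρ a with hσ
  have hTσ : ∑ a, (q a : ℂ) • T (ρ a) = T σ := by
    rw [hσ, hT]
    exact (tensorPow_sum (gadc γ ν) Finset.univ (fun a => (q a : ℂ)) ρ).symm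
  have hσp : σ.PosSemidef :=
    posSemidef_sum _ fun a _ => (hρ a).1.smul (by exact_mod_cast hq a)
  have hσ1 : σ.trace = 1 := by
    rw [hσ, Matrix.trace_sum]
    simp_rw [Matrix.trace_smul, (hρ _).2, smul_eq_mul, mul_one]
    rw [← Complex.ofReal_sum, hq1]
    simp
  have hup := entropy_upper hγ hν σ hσp hσ1
  have hmem : ∀ a i, pop (ρ a) i 1 ∈ Set.Icc (0 : ℝ) 1 := by
    intro a i
    have h0 := pop_nonneg (hρ a).1 i 0
    have h1 := pop_nonneg (hρ a).1 i 1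
    have h2 := pop_add_pop (ρ a) i
    rw [(hρ a).2, Complex.one_re] at h2
    exact ⟨h1, by linarith⟩
  have hlow : ∀ a, ∑ i, sq γ ν (pop (ρ a) i 1) ≤ vn (T (ρ a)) := by
    intro a
    have h := entropy_lower hγ hν (ρ a) (hρ a).1
    have h2 : vnh (T (ρ a)) = vn (T (ρ a)) := by
      unfold vnh rtr
      rw [hT, tensorPow_trace, (hρ a).2]
      simp
    rw [← hT, h2] at h
    refine le_trans (le_of_eq ?_) h
    apply Finset.sum_congr rfl
    intro i _
    have h3 := pop_add_pop (ρ a) i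
    rw [(hρ a).2, Complex.one_re] at h3
    rw [← shat_eq_sq hγ hν (hmem a i), show 1 - pop (ρ a) i 1 = pop (ρ a) i 0 by linarith]
  have hpopσ : ∀ i, pop σ i 1 = ∑ a, q a * pop (ρ a) i 1 := fun i => pop_sum q ρ i 1
  have hconv : ∀ i, sq γ ν (pop σ i 1) ≤ ∑ a, q a * sq γ ν (pop (ρ a) i 1) := by
    intro i
    rw [hpopσ]
    have := (sq_convexOn hγ hν).map_sum_le (t := Finset.univ) (w := q)
      (p := fun a => pop (ρ a) i 1) (fun a _ => hq a) hq1 (fun a _ => hmem a i)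
    simpa [smul_eq_mul] using this
  have hmemσ : ∀ i, pop σ i 1 ∈ Set.Icc (0 : ℝ) 1 := by
    intro i
    have h0 := pop_nonneg hσp i 0
    have h1 := pop_nonneg hσp i 1
    have h2 := pop_add_pop σ i
    rw [hσ1, Complex.one_re] at h2
    exact ⟨h1, by linarith⟩
  rw [hTσ, entropyBits_eq']
  simp_rw [entropyBits_eq', mul_div_assoc']
  rw [← Finset.sum_div, ← sub_div, div_le_iff₀ hlog]
  have h1 : ∑ a, q a * ∑ i, sq γ ν (pop (ρ a) i 1) ≤ ∑ a, q a * vn (T (ρ a)) :=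
    Finset.sum_le_sum fun a _ => mul_le_mul_of_nonneg_left (hlow a) (hq a)
  have h2 : ∑ a, q a * ∑ i, sq γ ν (pop (ρ a) i 1) = ∑ i, ∑ a, q a * sq γ ν (pop (ρ a) i 1) := by
    simp_rw [Finset.mul_sum]
    exact Finset.sum_comm
  have h3 : ∑ i, sq γ ν (pop σ i 1) ≤ ∑ i, ∑ a, q a * sq γ ν (pop (ρ a) i 1) :=
    Finset.sum_le_sum fun i _ => hconv i
  have h4 : ∑ i, (Real.binEntropy ((1 - γ) * pop σ i 1 + γ * ν) - sq γ ν (pop σ i 1)) ≤
      ∑ _i : Fin n, R * Real.log 2 := by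
    apply Finset.sum_le_sum
    intro i _
    have h5 := hR _ (hmemσ i)
    rw [rate_eq, div_le_iff₀ hlog] at h5
    exact h5
  rw [Finset.sum_const, Finset.card_univ, Fintype.card_fin, nsmul_eq_mul,
    Finset.sum_sub_distrib] at h4
  rw [← hT] at hup
  linarith

end Vale.Agent.P358
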